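import Vale.Agent.P043.Prob

/-! A robust linearity test. -/

namespace Vale.Agent.P043

open Classical

lemma blr {G H : Type*} [AddCommGroup G] [Fintype G] [AddCommGroup H] (φ1 φ2 φ3 : G → H)
    (ε : ℝ) (hε : 6 * ε < 1)
    (h : pr (fun p : G × G => φ1 p.1 + φ2 p.2 + φ3 (-p.1 - p.2) ≠ 0) ≤ ε) :
    ∃ (b : G →+ H) (C1 C2 C3 : H), C1 + C2 + C3 = 0 ∧
      pr (fun m => φ1 m ≠ b m + C1) ≤ 2 * ε ∧ pr (fun m => φ2 m ≠ b m + C2) ≤ 3 * ε ∧
      pr (fun m => φ3 m ≠ b m + C3) ≤ 6 * ε := by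
  have step1 : ∀ t : G, ∃ β : H, pr (fun u => φ1 (u + t) - φ1 u ≠ β) ≤ 2 * ε := by
    intro t
    have h2 : pr (fun p : G × G => φ1 (p.1 + t) + φ2 p.2 + φ3 (-(p.1 + t) - p.2) ≠ 0) ≤ ε := by
      rw [← pr_equiv (Equiv.prodCongr (Equiv.addRight t) (Equiv.refl G))] at h
      exact h
    have h3 : pr (fun p : G × G =>
        φ1 (p.1 + t) - φ1 p.1 ≠ φ3 (-p.1 - p.2) - φ3 (-p.1 - p.2 - t)) ≤ 2 * ε := by
      refine le_trans (pr_le_add (A := fun p : G × G => φ1 p.1 + φ2 p.2 + φ3 (-p.1 - p.2) ≠ 0)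
        (B := fun p : G × G => φ1 (p.1 + t) + φ2 p.2 + φ3 (-(p.1 + t) - p.2) ≠ 0) ?_) (by linarith)
      intro p hp
      by_contra hc
      push Not at hc
      apply hp
      have e : -p.1 - p.2 - t = -(p.1 + t) - p.2 := by abel
      rw [e]
      have h1 := hc.1
      have h2 := hc.2
      have : φ1 (p.1 + t) - φ1 p.1 - (φ3 (-p.1 - p.2) - φ3 (-(p.1 + t) - p.2)) =
          (φ1 (p.1 + t) + φ2 p.2 + φ3 (-(p.1 + t) - p.2)) -
          (φ1 p.1 + φ2 p.2 + φ3 (-p.1 - p.2)) := by abel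
      rw [h1, h2, sub_zero] at this
      exact sub_eq_zero.mp this
    rw [pr_shear (fun u z => φ1 (u + t) - φ1 u ≠ φ3 z - φ3 (z - t)),
      pr_swap (fun u z => φ1 (u + t) - φ1 u ≠ φ3 z - φ3 (z - t))] at h3
    obtain ⟨z, hz⟩ := exists_pr_le (fun z u => φ1 (u + t) - φ1 u ≠ φ3 z - φ3 (z - t))
    exact ⟨_, hz.trans h3⟩
  choose b0 hb0 using step1
  have hadd : ∀ t t', b0 (t + t') = b0 t + b0 t' := by
    intro t t'
    have hB : pr (fun u => φ1 (u + t' + t) - φ1 (u + t') ≠ b0 t) ≤ 2 * ε := by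
      rw [pr_add_right t' (fun u => φ1 (u + t) - φ1 u ≠ b0 t)]
      exact hb0 t
    have := pr_le_add3 (S := fun u => φ1 (u + (t + t')) - φ1 u ≠ b0 (t + t') ∨
        φ1 (u + t' + t) - φ1 (u + t') ≠ b0 t ∨ φ1 (u + t') - φ1 u ≠ b0 t') (fun x hx => hx)
    obtain ⟨u, hu⟩ := exists_not_of_pr_lt_one
      (lt_of_le_of_lt this (by linarith [hb0 (t + t'), hb0 t']))
    push Not at hu
    obtain ⟨h1, h2, h3⟩ := hu
    rw [← h1, ← h2, ← h3]
    have : u + (t + t') = u + t' + t := by abel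
    rw [this]; abel
  let b : G →+ H := AddMonoidHom.mk' b0 hadd
  have hb : ∀ t, b t = b0 t := fun t => rfl
  have h4 : pr (fun p : G × G => φ1 (p.2 + p.1) - φ1 p.2 ≠ b p.1) ≤ 2 * ε :=
    pr_prod_le (S := fun t u => φ1 (u + t) - φ1 u ≠ b t) (fun t => hb0 t)
  rw [pr_swap (fun t u => φ1 (u + t) - φ1 u ≠ b t)] at h4
  obtain ⟨u0, hu0⟩ := exists_pr_le (fun u t => φ1 (u + t) - φ1 u ≠ b t)
  have h5 : pr (fun m => φ1 m ≠ b m + (φ1 u0 - b u0)) ≤ 2 * ε := by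
    rw [← pr_add_left u0]
    refine le_trans (pr_mono ?_) (hu0.trans h4)
    intro t ht hc
    apply ht
    rw [map_add, ← hc]; abel
  set C1 := φ1 u0 - b u0 with hC1
  have h6 : pr (fun p : G × G =>
      φ2 p.2 - b p.2 + (φ3 (-p.1 - p.2) - b (-p.1 - p.2)) ≠ -C1) ≤ 3 * ε := by
    have h7 : pr (fun p : G × G => φ1 p.1 ≠ b p.1 + C1) ≤ 2 * ε := by
      rw [pr_fst (fun m => φ1 m ≠ b m + C1)]; exact h5
    refine le_trans (pr_le_add (A := fun p : G × G => φ1 p.1 + φ2 p.2 + φ3 (-p.1 - p.2) ≠ 0)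
      (B := fun p : G × G => φ1 p.1 ≠ b p.1 + C1) ?_) (by linarith)
    intro p hp
    by_contra hc
    push Not at hc
    apply hp
    obtain ⟨h1, h2⟩ := hc
    rw [h2] at h1
    rw [map_sub, map_neg]
    have : φ2 p.2 - b p.2 + (φ3 (-p.1 - p.2) - (-b p.1 - b p.2)) =
        (b p.1 + C1 + φ2 p.2 + φ3 (-p.1 - p.2)) - C1 := by abel
    rw [this, h1, zero_sub]
  rw [pr_shear' (fun z w => φ2 w - b w + (φ3 z - b z) ≠ -C1)] at h6
  obtain ⟨z0, hz0⟩ := exists_pr_le (fun z w => φ2 w - b w + (φ3 z - b z) ≠ -C1)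
  set C2 := -C1 - (φ3 z0 - b z0) with hC2
  have h8 : pr (fun m => φ2 m ≠ b m + C2) ≤ 3 * ε := by
    refine le_trans (pr_mono ?_) (hz0.trans h6)
    intro w hw hc
    apply hw
    rw [hC2, ← hc]; abel
  refine ⟨b, C1, C2, -C1 - C2, by abel, h5, h8, ?_⟩
  rw [← pr_fst (β := G)]
  have h9 : pr (fun p : G × G => φ2 p.2 ≠ b p.2 + C2) ≤ 3 * ε := by
    rw [pr_snd (fun m => φ2 m ≠ b m + C2)]; exact h8
  refine le_trans (pr_le_add
    (A := fun p : G × G => φ2 p.2 - b p.2 + (φ3 p.1 - b p.1) ≠ -C1)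
    (B := fun p : G × G => φ2 p.2 ≠ b p.2 + C2) ?_) (by linarith)
  intro p hp
  by_contra hc
  push Not at hc
  apply hp
  obtain ⟨h1, h2⟩ := hc
  rw [h2] at h1
  rw [← h1]; abel

end Vale.Agent.P043
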