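import Vale.Agent.P043.Marker

/-! Clauses along a line. -/

namespace Vale.Agent.P043

open Classical

lemma crt_int {ι : Type} [Finite ι] (n : ι → ℕ)
    (hn : Pairwise fun i j => Nat.Coprime (n i) (n j)) (x : ∀ i, ZMod (n i)) :
    ∃ m : ℤ, ∀ i, (m : ZMod (n i)) = x i := by
  have := Fintype.ofFinite ι
  let e := ZMod.prodEquivPi n hn
  obtain ⟨m, hm⟩ := ZMod.intCast_surjective (e.symm x)
  refine ⟨m, fun i => ?_⟩
  have h1 : e (m : ZMod (∏ i, n i)) = x := by rw [hm]; simp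
  rw [map_intCast] at h1
  rw [← h1]; simp

section
variable {Γ : Type} [AddCommGroup Γ]

lemma inv_zsmul {α : Type*} {F : Γ → α} {w : Γ} (h : ∀ γ, F (γ - w) = F γ) (n : ℤ) (γ : Γ) :
    F (γ + n • w) = F γ := by
  induction n using Int.induction_on with
  | zero => simp
  | succ n ih =>
    rw [← ih, ← h (γ + ((n : ℤ) + 1) • w)]
    congr 1
    rw [add_smul, one_smul]; abel
  | pred n ih =>
    rw [← ih, ← h (γ + (-(n : ℤ)) • w)]
    congr 1
    rw [sub_smul, one_smul]; abel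

lemma inv_mod {α : Type*} {F : Γ → α} {a : Γ} {q : ℕ} (h : ∀ γ, F (γ - q • a) = F γ)
    {n n' : ℤ} (hn : (n : ZMod q) = n') (γ : Γ) : F (γ + n • a) = F (γ + n' • a) := by
  rw [ZMod.intCast_eq_intCast_iff_dvd_sub] at hn
  obtain ⟨k, hk⟩ := hn
  rw [← inv_zsmul h k (γ + n • a)]
  congr 1
  have : n' = n + k * q := by linarith
  rw [this, add_smul, mul_smul, natCast_zsmul]; abel

lemma line_of_step {R : Type*} [Ring R] {F : Γ → R} {a γ : Γ} {δ : R}
    (h : ∀ n : ℤ, F (γ + n • a - a) + δ = F (γ + n • a)) (n : ℤ) :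
    F (γ + n • a) = F γ + n * δ := by
  induction n using Int.induction_on with
  | zero => simp
  | succ n ih =>
    rw [← h, add_smul, one_smul, ← add_assoc, add_sub_cancel_right, ih]
    push_cast; noncomm_ring
  | pred n ih =>
    have := h (-(n : ℤ))
    rw [ih] at this
    rw [sub_smul, one_smul, ← add_sub_assoc, eq_sub_of_add_eq this]
    push_cast; noncomm_ring

variable {K : Type} {lift : K → Γ} [Finite K]

lemma FE.clause {Var : Type} [Finite Var] {q : Var → ℕ} [∀ v, NeZero (q v)]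
    (hq : Pairwise fun i j => Nat.Coprime (q i) (q j))
    {A0 : Set (Γ × (∀ v, ZMod (q v)))} {h0 : Γ → K} {β0 : Γ → ∀ v, ZMod (q v)}
    (R0 : Rp lift A0 h0 β0) (a : Γ) (S : Set Var) (δ : ∀ v, ZMod (q v))
    (hinv : ∀ v ∈ S, ∀ γ, β0 (γ - q v • a) v = β0 γ v)
    (hs : ∀ γ, ∃ v ∈ S, β0 (γ - a) v + δ v = β0 γ v) :
    FE lift A0 (fun _ β => ∀ γ, ∃ v ∈ S, ∀ n : ℤ, β (γ + n • a) v = β γ v + n * δ v) := by
  choose m hm using fun v : Var => crt_int q hq (Pi.single v (-1))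
  have key : ∀ β : Γ → ∀ v, ZMod (q v), (∀ v ∈ S, ∀ γ, β (γ - q v • a) v = β γ v) →
      (∀ u ∈ S, ∀ v ∈ S, u ≠ v → ∀ γ, β (γ - (-(m u • a))) v = β γ v) ∧
      (∀ v ∈ S, ∀ γ, β (γ - (-(m v • a))) v = β (γ - a) v) := by
    intro β hβ
    constructor
    · intro u _ v hv huv γ
      have := inv_mod (F := fun γ => β γ v) (hβ v hv) (n := m u) (n' := 0)
        (by rw [hm, Pi.single_eq_of_ne huv.symm]; simp) γ
      simpa using this
    · intro v hv γ
      have := inv_mod (F := fun γ => β γ v) (hβ v hv) (n := m v) (n' := -1)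
        (by rw [hm, Pi.single_eq_same]; simp) γ
      simpa [sub_eq_add_neg] using this
  have h1 : FE lift A0 (fun _ β => ∀ v : S, ∀ γ, β (γ - q v • a) v = β γ v) :=
    FE.forall (fun v => FE.inv R0 v.1 _ (hinv v.1 v.2))
  have h2 := FE.or R0 S (fun v => -(m v • a)) δ (key β0 hinv).1 (by
    intro γ
    obtain ⟨v, hv, h⟩ := hs γ
    exact ⟨v, hv, by rw [(key β0 hinv).2 v hv]; exact h⟩)
  refine (h1.and h2).mono ?_
  rintro h β ⟨b1, b2⟩ γ
  have b1' : ∀ v ∈ S, ∀ γ, β (γ - q v • a) v = β γ v := fun v hv => b1 ⟨v, hv⟩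
  have b3 := b2 (key β b1').1
  by_contra hc
  push Not at hc
  have : ∀ v : Var, ∃ n : ℤ, v ∈ S → β (γ + n • a - a) v + δ v ≠ β (γ + n • a) v := by
    intro v
    by_cases hv : v ∈ S
    · by_contra hd
      push Not at hd
      obtain ⟨n, hn⟩ := hc v hv
      exact hn (line_of_step (F := fun γ => β γ v) (fun n => (hd n).2) n)
    · exact ⟨0, fun h => (hv h).elim⟩
  choose n hn using this
  obtain ⟨N, hN⟩ := crt_int q hq (fun v => (n v : ZMod (q v)))
  obtain ⟨v, hv, h⟩ := b3 (γ + N • a)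
  rw [(key β b1').2 v hv] at h
  apply hn v hv
  rw [← inv_mod (F := fun γ => β γ v) (b1' v hv) (hN v) γ, ← h, add_sub_right_comm,
    add_sub_right_comm, inv_mod (F := fun γ => β γ v) (b1' v hv) (hN v) (γ - a)]

end

end Vale.Agent.P043
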