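import Mathlib

/-! Two-adic floating point digits. -/

namespace Vale.Agent.P043

/-- exponent class and mantissa class -/
abbrev Dg := ZMod 20 × ZMod 1024

/-- the residue read off a digit -/
def dec (σ : Dg) : ZMod 1024 := (2 * σ.2 + 1) * 2 ^ σ.1.val

/-- the digit `σ` describes the integer `n` -/
def Rep (σ : Dg) (n : ℤ) : Prop :=
  ∃ (ν : ℕ) (o : ℤ), n = 2 ^ ν * (2 * o + 1) ∧ (ν : ZMod 20) = σ.1 ∧ (o : ZMod 1024) = σ.2

/-- the three digits describe integers with sum zero -/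
def Om (σ1 σ2 σ3 : Dg) : Prop :=
  ∃ α β γ : ℤ, α + β + γ = 0 ∧ Rep σ1 α ∧ Rep σ2 β ∧ Rep σ3 γ

/-- lowering the exponent -/
def tau (σ : Dg) : Dg := (σ.1 - 1, σ.2)

lemma exists_two_pow_odd {n : ℤ} (hn : n ≠ 0) : ∃ (ν : ℕ) (o : ℤ), n = 2 ^ ν * (2 * o + 1) := by
  obtain ⟨k, m, hm, h⟩ := Nat.exists_eq_two_pow_mul_odd (Int.natAbs_ne_zero.mpr hn)
  obtain ⟨c, rfl⟩ := hm
  rcases Int.natAbs_eq n with h1 | h1
  · exact ⟨k, c, by rw [h1, h]; push_cast; ring⟩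
  · exact ⟨k, -c - 1, by rw [h1, h]; push_cast; ring⟩

lemma exists_rep {n : ℤ} (hn : n ≠ 0) : ∃ σ, Rep σ n := by
  obtain ⟨ν, o, h⟩ := exists_two_pow_odd hn
  exact ⟨((ν : ZMod 20), (o : ZMod 1024)), ν, o, h, rfl, rfl⟩

lemma two_pow_odd_lt {ν ν' : ℕ} {o o' : ℤ} (h : (2 : ℤ) ^ ν * (2 * o + 1) = 2 ^ ν' * (2 * o' + 1))
    (hlt : ν < ν') : False := by
  obtain ⟨k, rfl⟩ := Nat.exists_eq_add_of_lt hlt
  have h2 : (2 : ℤ) ^ ν ≠ 0 := by positivity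
  have : 2 * o + 1 = 2 * (2 ^ k * (2 * o' + 1)) := by
    apply mul_left_cancel₀ h2
    rw [h]; ring
  omega

lemma two_pow_odd_unique {ν ν' : ℕ} {o o' : ℤ}
    (h : (2 : ℤ) ^ ν * (2 * o + 1) = 2 ^ ν' * (2 * o' + 1)) : ν = ν' ∧ o = o' := by
  have h1 : ν = ν' := by
    rcases lt_trichotomy ν ν' with hl | hl | hl
    · exact (two_pow_odd_lt h hl).elim
    · exact hl
    · exact (two_pow_odd_lt h.symm hl).elim
  subst h1
  have h2 : (2 : ℤ) ^ ν ≠ 0 := by positivity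
  have := mul_left_cancel₀ h2 h
  exact ⟨rfl, by omega⟩

lemma pow_ge_ten {k : ℕ} (hk : 10 ≤ k) : (2 : ZMod 1024) ^ k = 0 := by
  obtain ⟨j, rfl⟩ := Nat.exists_eq_add_of_le hk
  rw [pow_add]
  have : (2 : ZMod 1024) ^ 10 = 0 := by decide
  rw [this, zero_mul]

lemma dec_eq {σ : Dg} {ν : ℕ} {o : ℤ} (h1 : (ν : ZMod 20) = σ.1) (h2 : (o : ZMod 1024) = σ.2) :
    dec σ = (2 * (o : ZMod 1024) + 1) * 2 ^ (ν % 20) := by
  unfold dec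
  rw [← h1, ← h2, ZMod.val_natCast]

lemma Rep.tau {σ : Dg} {n : ℤ} (h : Rep σ n) : Rep (tau σ) (2 ^ 19 * n) := by
  obtain ⟨ν, o, h1, h2, h3⟩ := h
  refine ⟨ν + 19, o, by rw [h1]; ring, ?_, h3⟩
  show ((ν + 19 : ℕ) : ZMod 20) = σ.1 - 1
  rw [← h2]
  push_cast
  have : (19 : ZMod 20) = -1 := by decide
  rw [this]; ring

lemma Om.tau {σ1 σ2 σ3 : Dg} (h : Om σ1 σ2 σ3) : Om (tau σ1) (tau σ2) (tau σ3) := by
  obtain ⟨α, β, γ, h, h1, h2, h3⟩ := h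
  exact ⟨_, _, _, by rw [← mul_add, ← mul_add, h, mul_zero], h1.tau, h2.tau, h3.tau⟩

lemma Om.swap12 {σ1 σ2 σ3 : Dg} (h : Om σ1 σ2 σ3) : Om σ2 σ1 σ3 := by
  obtain ⟨α, β, γ, h, h1, h2, h3⟩ := h
  exact ⟨_, _, _, by linarith, h2, h1, h3⟩

lemma Om.swap13 {σ1 σ2 σ3 : Dg} (h : Om σ1 σ2 σ3) : Om σ3 σ2 σ1 := by
  obtain ⟨α, β, γ, h, h1, h2, h3⟩ := h
  exact ⟨_, _, _, by linarith, h3, h2, h1⟩

lemma Om.swap23 {σ1 σ2 σ3 : Dg} (h : Om σ1 σ2 σ3) : Om σ1 σ3 σ2 := by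
  obtain ⟨α, β, γ, h, h1, h2, h3⟩ := h
  exact ⟨_, _, _, by linarith, h1, h3, h2⟩

lemma key_gap {ν1 ν2 ν3 : ℕ} {o1 o2 o3 : ℤ}
    (h : (2 : ℤ) ^ ν1 * (2 * o1 + 1) + 2 ^ ν2 * (2 * o2 + 1) + 2 ^ ν3 * (2 * o3 + 1) = 0)
    (hgap : ν2 + 10 ≤ ν3) :
    (2 * (o1 : ZMod 1024) + 1) * 2 ^ (ν1 % 20) = -((2 * (o2 : ZMod 1024) + 1) * 2 ^ (ν2 % 20)) := by
  obtain ⟨k, rfl⟩ := Nat.exists_eq_add_of_le hgap
  have e : (2 : ℤ) ^ ν1 * (2 * o1 + 1) =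
      2 ^ ν2 * (2 * (-o2 - 1 - 512 * (2 ^ k * (2 * o3 + 1))) + 1) := by
    have : (2 : ℤ) ^ (ν2 + 10 + k) = 2 ^ ν2 * 1024 * 2 ^ k := by ring
    rw [this] at h
    linarith
  obtain ⟨rfl, rfl⟩ := two_pow_odd_unique e
  push_cast
  have : (1024 : ZMod 1024) = 0 := by decide
  linear_combination (-(2 ^ k * (2 * (o3 : ZMod 1024) + 1)) * 2 ^ (ν1 % 20)) * this

lemma key_lemma {σ1 σ2 σ3 : Dg} (h : Om σ1 σ2 σ3) (h2 : dec σ2 ≠ 0) (h3 : dec σ3 ≠ 0) :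
    dec σ1 + dec σ2 + dec σ3 = 0 ∨ dec σ2 + dec σ3 = 0 ∨ dec σ1 = -dec σ2 ∨ dec σ1 = -dec σ3 := by
  obtain ⟨α, β, γ, h, ⟨ν1, o1, rfl, a1, b1⟩, ⟨ν2, o2, rfl, a2, b2⟩, ⟨ν3, o3, rfl, a3, b3⟩⟩ := h
  rw [dec_eq a2 b2] at h2
  rw [dec_eq a3 b3] at h3
  rw [dec_eq a1 b1, dec_eq a2 b2, dec_eq a3 b3]
  have l2 : ν2 % 20 < 10 := by
    by_contra hc
    exact h2 (by rw [pow_ge_ten (not_lt.mp hc), mul_zero])
  have l3 : ν3 % 20 < 10 := by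
    by_contra hc
    exact h3 (by rw [pow_ge_ten (not_lt.mp hc), mul_zero])
  rcases lt_trichotomy (ν2 / 20) (ν3 / 20) with hl | hl | hl
  · right; right; left
    exact key_gap h (by omega)
  · by_cases hs : (2 * (o2 : ZMod 1024) + 1) * 2 ^ (ν2 % 20) +
        (2 * (o3 : ZMod 1024) + 1) * 2 ^ (ν3 % 20) = 0
    · right; left; exact hs
    left
    set s : ℤ := 2 ^ (ν2 % 20) * (2 * o2 + 1) + 2 ^ (ν3 % 20) * (2 * o3 + 1) with hsdef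
    have hcast : (s : ZMod 1024) = (2 * (o2 : ZMod 1024) + 1) * 2 ^ (ν2 % 20) +
        (2 * (o3 : ZMod 1024) + 1) * 2 ^ (ν3 % 20) := by
      rw [hsdef]; push_cast; ring
    have hs0 : s ≠ 0 := by
      intro h0
      apply hs
      rw [← hcast, h0]; simp
    obtain ⟨μ, o, hμ⟩ := exists_two_pow_odd hs0
    have hμ10 : μ < 10 := by
      by_contra hc
      apply hs
      rw [← hcast, hμ]
      push_cast
      rw [pow_ge_ten (not_lt.mp hc), zero_mul]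
    have e2 : (2 : ℤ) ^ ν2 = 2 ^ (20 * (ν2 / 20)) * 2 ^ (ν2 % 20) := by
      rw [← pow_add, Nat.div_add_mod]
    have e3 : (2 : ℤ) ^ ν3 = 2 ^ (20 * (ν2 / 20)) * 2 ^ (ν3 % 20) := by
      rw [← pow_add, hl, Nat.div_add_mod]
    have e : (2 : ℤ) ^ ν1 * (2 * o1 + 1) = 2 ^ (20 * (ν2 / 20) + μ) * (2 * (-o - 1) + 1) := by
      have : (2 : ℤ) ^ ν1 * (2 * o1 + 1) = -(2 ^ (20 * (ν2 / 20)) * s) := by
        rw [hsdef]
        linear_combination h - (2 * o2 + 1) * e2 - (2 * o3 + 1) * e3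
      rw [this, hμ, pow_add]; ring
    obtain ⟨rfl, rfl⟩ := two_pow_odd_unique e
    have : (20 * (ν2 / 20) + μ) % 20 = μ := by omega
    rw [this, add_assoc, ← hcast, hμ]
    push_cast; ring
  · right; right; right
    exact key_gap (ν2 := ν3) (ν3 := ν2) (o2 := o3) (o3 := o2) (by linarith) (by omega)

lemma odd_ne_even (c x : ZMod 1024) : 2 * c + 1 ≠ 2 * x := by
  intro h
  have := congrArg (ZMod.castHom (show 2 ∣ 1024 by norm_num) (ZMod 2)) h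
  simp only [map_add, map_mul, map_one, map_ofNat] at this
  have h2 : (2 : ZMod 2) = 0 := by decide
  rw [h2] at this
  simp at this

lemma dec_half {σ : Dg} {x : ZMod 1024} (h : dec σ = 2 * x) : dec σ = 2 * dec (tau σ) := by
  have hv : ∀ e : ZMod 20, e ≠ 0 → e.val = (e - 1).val + 1 := by decide
  by_cases h0 : σ.1 = 0
  · exfalso
    unfold dec at h
    rw [h0] at h
    simp only [ZMod.val_zero, pow_zero, mul_one] at h
    exact odd_ne_even _ _ h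
  · unfold dec tau
    simp only
    rw [hv _ h0, pow_succ]; ring

lemma Rep.dec_eq_cast {σ : Dg} {n : ℤ} (h : Rep σ n) (hn : (n : ZMod 1024) ≠ 0) :
    dec σ = (n : ZMod 1024) := by
  obtain ⟨ν, o, rfl, a, b⟩ := h
  have hν : ν < 10 := by
    by_contra hc
    apply hn
    push_cast
    rw [pow_ge_ten (not_lt.mp hc), zero_mul]
  rw [dec_eq a b, Nat.mod_eq_of_lt (by omega)]
  push_cast; ring

/-- full digit: a flag and a floating point digit -/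
abbrev Sg := Bool × Dg

/-- the absolute residue of a full digit -/
def rho (σ : Sg) : ZMod 1024 := if σ.1 then 0 else dec σ.2

/-- the parity of a full digit -/
def par (σ : Sg) : ZMod 2 := ZMod.castHom (show 2 ∣ 1024 by norm_num) (ZMod 2) (rho σ)

/-- the ternary rule -/
def OmS (σ1 σ2 σ3 : Sg) : Prop := Om σ1.2 σ2.2 σ3.2 ∧ rho σ1 + rho σ2 + rho σ3 = 0

lemma exists_digit : ∃ D : ℤ → Sg, (∀ n : ℤ, n ≠ 0 → par (D n) = (n : ZMod 2)) ∧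
    ∀ α β γ : ℤ, α ≠ 0 → β ≠ 0 → γ ≠ 0 → α + β + γ = 0 → OmS (D α) (D β) (D γ) := by
  have h : ∀ n : ℤ, ∃ σ : Sg, n ≠ 0 → Rep σ.2 n ∧ rho σ = (n : ZMod 1024) := by
    intro n
    by_cases hn : n = 0
    · exact ⟨(true, (0, 0)), fun h => (h hn).elim⟩
    obtain ⟨σ, hσ⟩ := exists_rep hn
    by_cases h0 : (n : ZMod 1024) = 0
    · exact ⟨(true, σ), fun _ => ⟨hσ, by simp [rho, h0]⟩⟩
    · exact ⟨(false, σ), fun _ => ⟨hσ, by simp [rho, hσ.dec_eq_cast h0]⟩⟩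
  choose D hD using h
  refine ⟨D, ?_, ?_⟩
  · intro n hn
    unfold par
    rw [(hD n hn).2]
    simp
  · intro α β γ h1 h2 h3 hs
    refine ⟨⟨α, β, γ, hs, (hD α h1).1, (hD β h2).1, (hD γ h3).1⟩, ?_⟩
    rw [(hD α h1).2, (hD β h2).2, (hD γ h3).2]
    exact_mod_cast congrArg (Int.cast : ℤ → ZMod 1024) hs

end Vale.Agent.P043
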