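import Vale.Agent.P043.Sound

/-! The intended solution. -/

namespace Vale.Agent.P043

open Classical

/-- direction of a variable -/
def dir : Var → Fin 3 :=
  Sum.elim (fun _ => 0) (Sum.elim (fun x => x.1) (Sum.elim (fun x => x.1) (fun x => x.1)))

/-- upper digits of all clocks -/
def h0 (γ : Gam) : Kk := (fun i => top0 2 (p2 i γ), fun f i => top0 (rr f) (pf f i γ))

def nA (x y : ℤ) : ℤ := 3 * (y / 11025 + x % 44100 + y % 11025) + 1
def nB (x : ℤ) : ℤ := 3 * (x / 44100) + 1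
def nn' (f : Fin 3) (x y : ℤ) : ℤ := ![nA x y, nB x, -nA x y - nB x] f

lemma nn'_ne (f : Fin 3) (x y : ℤ) : nn' f x y ≠ 0 := by
  fin_cases f <;> simp only [nn', nA, nB] <;> simp <;> omega

lemma nn'_av (f : Fin 3) (x y : ℤ) : nn' f (x - (av f).1) (y - (av f).2.1) = nn' f x y := by
  fin_cases f <;> simp only [nn', nA, nB, av] <;> simp <;> omega

lemma nn'_par (x y : ℤ) : (nn' 0 x y : ZMod 2) = (x : ZMod 2) + (y : ZMod 2) + 1 := by
  have : (nn' 0 x y : ZMod 2) = ((x + y + 1 : ℤ) : ZMod 2) := by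
    rw [ZMod.intCast_eq_intCast_iff_dvd_sub]
    simp only [nn', nA, Matrix.cons_val_zero]
    omega
  rw [this]; push_cast; ring

namespace Par
variable (P : Par)

/-- offsets of the digits -/
def lift (k : Kk) : Gam :=
  (((2 * (k.1 0).val : ℕ) : ℤ) * P.e2 + ∑ f, ((rr f * (k.2 f 0).val : ℕ) : ℤ) * P.e f,
   ∑ f, ((rr f * (k.2 f 1).val : ℕ) : ℤ) * P.e f, k.1 1,
   fun f => ((rr f * (k.2 f 2).val : ℕ) : ZMod (rr f ^ 2)))

lemma p2_lift (i : Fin 2) (k : Kk) :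
    p2 i (P.lift k) = ((2 * (k.1 i).val : ℕ) : ZMod (2 ^ 2)) := by
  fin_cases i
  · refine (p2_0 _).trans ?_
    simp only [lift, Int.cast_add, Int.cast_mul, Int.cast_sum, P.e21, P.e4, mul_zero,
      Finset.sum_const_zero, Int.cast_natCast, mul_one, add_zero]
    rfl
  · refine (p2_1 _).trans ?_
    simp only [lift, Int.cast_mul, Int.cast_sum, P.e4, mul_zero,
      Finset.sum_const_zero, zero_add]
    rfl

lemma sum_e (f : Fin 3) (c : Fin 3 → ℕ) :
    ((∑ g, (c g : ℤ) * P.e g : ℤ) : ZMod (rr f ^ 2)) = c f := by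
  rw [Int.cast_sum, Finset.sum_eq_single f]
  · simp [P.e1]
  · intro g _ hg
    simp [P.e0 g f hg]
  · simp

lemma pf_lift (f i : Fin 3) (k : Kk) :
    pf f i (P.lift k) = ((rr f * (k.2 f i).val : ℕ) : ZMod (rr f ^ 2)) := by
  fin_cases i
  · refine (pf_0 _ _).trans ?_
    simp only [lift, Int.cast_add]
    rw [P.sum_e f (fun g => rr g * (k.2 g 0).val), Int.cast_mul, P.e2r]
    simp
  · refine (pf_1 _ _).trans ?_
    simp only [lift]
    exact P.sum_e f (fun g => rr g * (k.2 g 1).val)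
  · rfl

lemma h0_lift (γ : Gam) (k : Kk) : h0 (γ - P.lift k) = h0 γ - k := by
  ext i
  · simp only [h0, map_sub, p2_lift, top0_sub, Prod.fst_sub, Pi.sub_apply, ZMod.natCast_zmod_val]
  · simp only [h0, map_sub, pf_lift, top0_sub, Prod.snd_sub, Pi.sub_apply, ZMod.natCast_zmod_val]

lemma lift_zero : P.lift 0 = 0 := by
  simp [lift]
  rfl

def X1 (γ : Gam) : ℤ := (γ - P.lift (h0 γ)).1
def X2 (γ : Gam) : ℤ := (γ - P.lift (h0 γ)).2.1

lemma X1_sub (γ w : Gam) (h2 : p2 0 w = 0) (hf : ∀ f, pf f 0 w = 0) :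
    P.X1 (γ - w) = P.X1 γ - w.1 := by
  simp only [X1, lift, h0, map_sub, h2, hf, sub_zero, Prod.fst_sub]
  ring

lemma X2_sub (γ w : Gam) (hf : ∀ f, pf f 1 w = 0) :
    P.X2 (γ - w) = P.X2 γ - w.2.1 := by
  simp only [X2, lift, h0, map_sub, hf, sub_zero, Prod.fst_sub, Prod.snd_sub]
  ring

lemma e_two (f : Fin 3) : (P.e f : ZMod 2) = 0 := by
  have := congrArg (red 2) (P.e4 f)
  simpa using this

lemma lift_par1 (k : Kk) : ((P.lift k).1 : ZMod 2) = 0 := by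
  have h2 : (2 : ZMod 2) = 0 := by decide
  simp [lift, e_two, h2]

lemma lift_par2 (k : Kk) : ((P.lift k).2.1 : ZMod 2) = 0 := by
  simp [lift, e_two]

/-- the integers written on the three lines through a point -/
def nn (f : Fin 3) (γ : Gam) : ℤ := nn' f (P.X1 γ) (P.X2 γ)

lemma nn_av (f : Fin 3) (γ : Gam) : P.nn f (γ - av f) = P.nn f γ := by
  unfold nn
  rw [P.X1_sub _ _ (p2_av0 f) (fun g => pf_av g 0 f), P.X2_sub _ _ (fun g => pf_av g 1 f), nn'_av]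

lemma nn_one (f g : Fin 3) (γ : Gam) : P.nn f (γ - one g) = P.nn f γ := by
  unfold nn
  rw [P.X1_sub _ _ ((p2_0 _).trans (by simp [one])) (fun g => by simp [pf_0, one]),
    P.X2_sub _ _ (fun g => by simp [pf_1, one])]
  simp [one]

lemma nn_lift (f : Fin 3) (γ : Gam) : P.nn f (γ - P.lift (h0 γ)) = P.nn f γ := by
  unfold nn X1 X2
  rw [h0_lift, sub_self, lift_zero, sub_zero]

lemma nn_par (γ : Gam) : par (P.D (P.nn 0 γ)) = (γ.1 : ZMod 2) + (γ.2.1 : ZMod 2) + 1 := by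
  rw [nn, P.Dp _ (nn'_ne _ _ _), nn'_par]
  simp [X1, X2, lift_par1, lift_par2]

lemma nn_om (γ : Gam) : OmS (P.D (P.nn 0 γ)) (P.D (P.nn 1 γ)) (P.D (P.nn 2 γ)) := by
  apply P.Dom _ _ _ (nn'_ne _ _ _) (nn'_ne _ _ _) (nn'_ne _ _ _)
  simp [nn']

end Par

/-- a test passes at a point -/
def Ps (f : Fin 3) (a b z : ZMod (rr f)) (γ : Gam) : Prop :=
  Pass (rr f) a b z (pf f 0 γ) (pf f 1 γ) (pf f 2 γ)

lemma Ps_ker {f : Fin 3} {a b z : ZMod (rr f)} {γ w : Gam} (hw : ∀ i, pf f i w = 0) :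
    Ps f a b z (γ - w) ↔ Ps f a b z γ := by
  simp only [Ps, map_sub, hw, sub_zero]

lemma Ps_all (f : Fin 3) (γ : Gam) : ∃ a b z, (a ≠ 0 ∨ b ≠ 0) ∧ Ps f a b z γ := by
  have : Good (rr f) := by
    fin_cases f
    · exact good3
    · exact good5
    · exact good7
  exact this.all _ _ _

lemma pf_one_ne {f g : Fin 3} (hfg : f ≠ g) (i : Fin 3) : pf f i (one g) = 0 := by
  fin_cases i <;> simp [pf_0, pf_1, pf_2, one, Pi.single_eq_of_ne hfg]

namespace Par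
variable (P : Par)

lemma Ps_lift {f : Fin 3} {a b z : ZMod (rr f)} {γ : Gam} (k : Kk) :
    Ps f a b z (γ - P.lift k) ↔ Ps f a b z γ := by
  simp only [Ps, map_sub, pf_lift, Pass.top]

lemma Ps_df {f : Fin 3} {a b z : ZMod (rr f)} {γ : Gam} :
    Ps f a b z (γ - P.df f) ↔ Ps f a b z γ := by
  have := Pass.diag (a := a) (b := b) (z := z) (g0 := pf f 0 γ) (g1 := pf f 1 γ)
    (g2 := pf f 2 γ) 1
  simpa only [Ps, map_sub, pf_df, Nat.cast_one] using this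

/-- whether a variable is running -/
def On : Var → Gam → Prop :=
  Sum.elim (fun z γ => z ≠ (γ.1 : ZMod 2) + (γ.2.1 : ZMod 2) + 1)
    (Sum.elim (fun x γ => ¬ Ps x.1 x.2.1 x.2.2.1 x.2.2.2 γ)
      (Sum.elim (fun x γ => x.2 = P.D (P.nn x.1 γ))
        (fun x γ => x.2 = P.D (P.nn x.1 γ) ∧ ¬ ∃ b z, b ≠ 0 ∧ Ps x.1 0 b z γ)))

lemma On_E2 (z : ZMod 2) (γ : Gam) :
    P.On (vE2 z) γ ↔ z ≠ (γ.1 : ZMod 2) + (γ.2.1 : ZMod 2) + 1 := Iff.rfl
lemma On_E (f : Fin 3) (a b z : ZMod (rr f)) (γ : Gam) :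
    P.On (vE f a b z) γ ↔ ¬ Ps f a b z γ := Iff.rfl
lemma On_Z (f : Fin 3) (σ : Sg) (γ : Gam) :
    P.On (vZ f σ) γ ↔ σ = P.D (P.nn f γ) := Iff.rfl
lemma On_B (f : Fin 3) (σ : Sg) (γ : Gam) :
    P.On (vB f σ) γ ↔ σ = P.D (P.nn f γ) ∧ ¬ ∃ b z, b ≠ 0 ∧ Ps f 0 b z γ := Iff.rfl

lemma On_av (v : Var) (γ : Gam) : P.On v (γ - av (dir v)) ↔ P.On v γ := by
  rcases v with z | ⟨f, a, b, z⟩ | ⟨f, σ⟩ | ⟨f, σ⟩
  · have h2 : (44100 : ZMod 2) = 0 := by decide
    simp [On, dir, av, h2]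
  · simp only [On, dir, Sum.elim_inr, Sum.elim_inl, Ps_ker (fun i => pf_av f i f)]
  · simp only [On, dir, Sum.elim_inr, Sum.elim_inl, nn_av]
  · simp only [On, dir, Sum.elim_inr, nn_av, Ps_ker (fun i => pf_av f i f)]

lemma On_lift (v : Var) (γ : Gam) : P.On v (γ - P.lift (h0 γ)) ↔ P.On v γ := by
  rcases v with z | ⟨f, a, b, z⟩ | ⟨f, σ⟩ | ⟨f, σ⟩
  · simp [On, lift_par1, lift_par2]
  · simp only [On, Sum.elim_inr, Sum.elim_inl, Ps_lift]
  · simp only [On, Sum.elim_inr, Sum.elim_inl, nn_lift]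
  · simp only [On, Sum.elim_inr, nn_lift, Ps_lift]

/-- the clock of a variable -/
def clock (v : Var) (γ : Gam) : ZMod (P.q v) :=
  if dir v = 1 then (γ.2.1 : ZMod (P.q v)) * P.c2 v else (γ.1 : ZMod (P.q v)) * P.c1 v

lemma clock_sub (v : Var) (γ w : Gam) : P.clock v (γ - w) = P.clock v γ - P.clock v w := by
  unfold clock
  split_ifs <;> simp <;> ring

lemma clock_av (v : Var) : P.clock v (av (dir v)) = 1 := by
  unfold clock
  generalize dir v = f
  fin_cases f <;> simp [av, P.hc1, P.hc2]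

lemma clock_zero (v : Var) (w : Gam) (h1 : (w.1 : ZMod (P.q v)) = 0)
    (h2 : (w.2.1 : ZMod (P.q v)) = 0) : P.clock v w = 0 := by
  simp [clock, h1, h2]

/-- the intended values -/
noncomputable def β0 (γ : Gam) : P.V := fun v => if P.On v γ then P.clock v γ else 0

lemma β0_inv {v : Var} {γ w : Gam} (h : P.On v (γ - w) ↔ P.On v γ)
    (h1 : (w.1 : ZMod (P.q v)) = 0) (h2 : (w.2.1 : ZMod (P.q v)) = 0) :
    P.β0 (γ - w) v = P.β0 γ v := by
  simp only [β0, h, clock_sub, P.clock_zero v w h1 h2, sub_zero]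

lemma β0_av (v : Var) (n : ℕ) (γ : Gam) :
    P.β0 (γ - n • av (dir v)) v = P.β0 γ v - if P.On v γ then (n : ZMod (P.q v)) else 0 := by
  have h1 : P.On v (γ - n • av (dir v)) = P.On v γ :=
    inv_nsmul (F := P.On v) (fun γ => propext (P.On_av v γ)) n γ
  have h2 : P.clock v (γ - n • av (dir v)) = P.clock v γ - n := by
    induction n with
    | zero => simp
    | succ n ih =>
      rw [add_smul, one_smul, ← sub_sub, clock_sub, clock_av,
        ih (inv_nsmul (F := P.On v) (fun γ => propext (P.On_av v γ)) n γ)]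
      push_cast; ring
  simp only [β0, h1, h2]
  split_ifs <;> simp

/-- the intended tiling -/
def A0 : Set (Gam × P.V) := {x | h0 x.1 = 0 ∧ x.2 = P.β0 x.1}

lemma R0 : Rp P.lift P.A0 h0 P.β0 := by
  have key : ∀ γ, P.β0 (γ - P.lift (h0 γ)) = P.β0 γ := by
    intro γ
    funext v
    apply P.β0_inv (P.On_lift v γ) <;> simp [lift, P.e2q, P.eq]
  intro γ k y
  simp only [A0, Set.mem_ofPred_eq, h0_lift, sub_eq_zero]
  constructor
  · rintro ⟨rfl, h⟩
    exact ⟨rfl, by rw [h, key]⟩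
  · rintro ⟨rfl, h⟩
    exact ⟨rfl, by rw [h, key]⟩

end Par

end Vale.Agent.P043
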