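import Vale.Agent.P043.Main

/-! Transfer of systems of tiling equations between groups. -/

namespace Vale.Agent.P043

open Classical

section
variable {G G' : Type} [AddCommGroup G] [AddCommGroup G']

lemma inv_span {α : Type*} {F : G → α} {S : Set G} (h : ∀ w ∈ S, ∀ γ, F (γ - w) = F γ)
    {w : G} (hw : w ∈ Submodule.span ℤ S) : ∀ γ, F (γ - w) = F γ := by
  induction hw using Submodule.span_induction with
  | mem x hx => exact h x hx
  | zero => simp
  | add x y _ _ hx hy => intro γ; rw [← sub_sub, hy, hx]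
  | smul n x _ hx =>
    intro γ
    have := inv_zsmul hx (-n) γ
    rwa [neg_smul, ← sub_eq_add_neg] at this

lemma Expr.exists_tile {A0 : Set G} (h : Expr A0 (fun A => ¬ Per A)) :
    ∃ (L : List (Finset G)) (F1 : Finset G) (f1 : G), F1 ∈ L ∧ f1 ∈ F1 ∧ (∀ F ∈ L, T A0 F) ∧
      ∀ A, (∀ F ∈ L, T A F) → ¬ Per A := by
  obtain ⟨L, h1, h2⟩ := h
  cases L with
  | nil => exact (h2 Set.univ (by simp) ⟨1, one_pos, by simp⟩).elim
  | cons F1 L =>
    obtain ⟨f1, ⟨hf, -⟩, -⟩ := h1 F1 (by simp) 0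
    exact ⟨F1 :: L, F1, f1, by simp, hf, h1, h2⟩

lemma T.subtype {A : Set G} {F : Finset G} : T A F ↔ ∀ g : G, ∃! p : F, g - (p : G) ∈ A := by
  apply forall_congr'
  intro g
  constructor
  · rintro ⟨f, ⟨hf, h1⟩, hu⟩
    exact ⟨⟨f, hf⟩, h1, fun p hp => Subtype.ext (hu p ⟨p.2, hp⟩)⟩
  · rintro ⟨p, hp, hu⟩
    exact ⟨p, ⟨p.2, hp⟩, fun f hf => congrArg Subtype.val (hu ⟨f, hf.1⟩ hf.2)⟩

lemma Expr.lift [Module.Finite ℤ G'] (φ : G' →+ G) (hφ : Function.Surjective φ) {A0 : Set G}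
    (h : Expr A0 (fun A => ¬ Per A)) : Expr (φ ⁻¹' A0) (fun A => ¬ Per A) := by
  obtain ⟨L, F1, f1, hF1, hf1, h1, h2⟩ := h.exists_tile
  choose s hs using hφ
  have sec : ∀ F ∈ L, ∀ s' : G → G', (∀ g, φ (s' g) = g) →
      Expr (φ ⁻¹' A0) (fun A => ∀ g, ∃! p : F, g - s' p ∈ A) := by
    intro F hF s' hs'
    apply Expr.param (fun p : F => s' p)
    intro g
    simpa only [Set.mem_preimage, map_sub, hs'] using T.subtype.mp (h1 F hF) (φ g)
  have ker : ∀ w, φ w = 0 → Expr (φ ⁻¹' A0) (fun A => ∀ a ∈ A, a - w ∈ A) := by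
    intro w hw
    refine ((sec F1 hF1 s hs).and (sec F1 hF1 (fun g => s g + if g = f1 then w else 0) (by
      intro g; split_ifs <;> simp [hs, hw]))).mono ?_
    rintro A ⟨a1, a2⟩ a ha
    obtain ⟨p0, -, hu⟩ := a1 (a + s f1)
    obtain ⟨p, hp, -⟩ := a2 (a + s f1)
    by_cases hpf : (p : G) = f1
    · simp only [hpf, if_true] at hp
      convert hp using 1; abel
    · simp only [hpf, if_false, add_zero] at hp
      have e1 := hu p hp
      have e2 := hu ⟨f1, hf1⟩ (by simpa using ha)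
      exact (hpf (by rw [e1, ← e2])).elim
  obtain ⟨S, hS⟩ := IsNoetherian.noetherian (LinearMap.ker φ.toIntLinearMap)
  have hSk : ∀ w : S, φ w = 0 := by
    intro w
    have : (w : G') ∈ LinearMap.ker φ.toIntLinearMap := by
      rw [← hS]; exact Submodule.subset_span w.2
    exact this
  have : Finite {F // F ∈ L} := (List.finite_toSet L).to_subtype
  refine ((Expr.forall (fun F : {F // F ∈ L} => sec F.1 F.2 s hs)).and
    ((Expr.forall (fun w : S => ker w (hSk w))).and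
      (Expr.forall (fun w : S => ker (-w) (by simp [hSk w]))))).mono ?_
  rintro A ⟨a1, a2, a3⟩ ⟨P, hP, hper⟩
  have hk : ∀ w, φ w = 0 → ∀ a, (a - w ∈ A) = (a ∈ A) := by
    intro w hw
    apply inv_span (F := fun a => a ∈ A) (S := (S : Set G'))
    · intro w hw a
      apply propext
      exact ⟨fun h => by simpa using a3 ⟨w, hw⟩ _ h, fun h => a2 ⟨w, hw⟩ _ h⟩
    · rw [hS]; exact hw
  have hm : ∀ x, φ x ∈ φ '' A ↔ x ∈ A := by
    intro x
    constructor
    · rintro ⟨a, ha, hx⟩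
      rw [← hk (x - a) (by simp [hx])]
      simpa using ha
    · intro hx; exact ⟨x, hx, rfl⟩
  refine h2 (φ '' A) (fun F hF => T.subtype.mpr (fun g => ?_)) ⟨P, hP, ?_⟩
  · simpa only [← hm, map_sub, hs] using a1 ⟨F, hF⟩ (s g)
  · rintro g _ ⟨a, ha, rfl⟩
    exact ⟨a + P • s g, hper _ _ ha, by simp [hs]⟩

lemma Expr.scale [Module.Finite ℤ G] {R : Type} [AddCommGroup R] [Finite R] (ψ : G →+ G')
    (hψ : Function.Injective ψ) (π : G' →+ R) (hπ : Function.Surjective π)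
    (hex : ∀ x, π x = 0 ↔ ∃ g, ψ g = x) {A0 : Set G} (h : Expr A0 (fun A => ¬ Per A)) :
    Expr (ψ '' A0) (fun A => ¬ Per A ∧ ∀ a ∈ A, ∀ a' ∈ A, π a = π a') := by
  obtain ⟨L, F1, f1, hF1, hf1, h1, h2⟩ := h.exists_tile
  have hπψ : ∀ g, π (ψ g) = 0 := fun g => (hex _).mpr ⟨g, rfl⟩
  obtain ⟨ρ, hρ, hρ0⟩ : ∃ ρ : R → G', (∀ r, π (ρ r) = r) ∧ ρ 0 = 0 := by
    choose s hs using hπ
    exact ⟨fun r => s r - s 0, fun r => by simp [hs], by simp⟩
  have sec : ∀ F ∈ L, ∀ ρ' : R → G', (∀ r, π (ρ' r) = r) →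
      Expr (ψ '' A0) (fun A => ∀ g, ∃! p : F × R, g - (ψ p.1 + ρ' p.2) ∈ A) := by
    intro F hF ρ' hρ'
    apply Expr.param (fun p : F × R => ψ p.1 + ρ' p.2)
    intro g
    obtain ⟨x, hx⟩ := (hex (g - ρ' (π g))).mp (by simp [hρ'])
    obtain ⟨p, hp, hu⟩ := T.subtype.mp (h1 F hF) x
    refine ⟨(p, π g), ⟨x - p, hp, by rw [map_sub, hx]; abel⟩, ?_⟩
    rintro ⟨p', r⟩ ⟨y, hy, hy'⟩
    have hr : r = π g := by
      have := congrArg π hy'
      simp only [hπψ, map_sub, map_add, hρ', zero_add] at this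
      exact (sub_eq_zero.mp this.symm).symm
    subst hr
    have : x - p' = y := by
      apply hψ
      rw [map_sub, hx, hy']; abel
    rw [hu p' (by beta_reduce; rw [this]; exact hy)]
  have mv : ∀ e : G, Expr (ψ '' A0) (fun A => ∀ g, (∃ f : F1, g - ψ f ∈ A) →
      ∃ f : F1, g - ψ e - ψ f ∈ A) := by
    intro e
    refine ((sec F1 hF1 ρ hρ).and (sec F1 hF1 (fun r => ρ r + if r = 0 then ψ e else 0) (by
      intro r; split_ifs <;> simp [hρ, hπψ]))).mono ?_
    rintro A ⟨a1, a2⟩ g ⟨f, hf⟩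
    obtain ⟨p0, -, hu⟩ := a1 g
    obtain ⟨p, hp, -⟩ := a2 g
    by_cases hpf : p.2 = 0
    · simp only [hpf, if_true, hρ0] at hp
      exact ⟨p.1, by convert hp using 1; abel⟩
    · simp only [hpf, if_false, add_zero] at hp
      have e1 := hu p hp
      have e2 := hu (f, 0) (by simpa [hρ0] using hf)
      exact (hpf (by rw [e1, ← e2])).elim
  obtain ⟨S, hS⟩ := Module.Finite.fg_top (R := ℤ) (M := G)
  have : Finite {F // F ∈ L} := (List.finite_toSet L).to_subtype
  refine ((Expr.forall (fun F : {F // F ∈ L} => sec F.1 F.2 ρ hρ)).and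
    ((Expr.forall (fun w : S => mv w)).and (Expr.forall (fun w : S => mv (-w))))).mono ?_
  rintro A ⟨a1, a2, a3⟩
  have hk : ∀ g e, (∃ f : F1, g - ψ f ∈ A) → ∃ f : F1, g + ψ e - ψ f ∈ A := by
    intro g e hg
    have := inv_span (F := fun x => ∃ f : F1, g + ψ x - ψ f ∈ A) (S := (S : Set G)) (by
      intro w hw x
      apply propext
      constructor
      · intro h
        obtain ⟨f, hf⟩ := a3 ⟨w, hw⟩ _ h
        refine ⟨f, ?_⟩
        convert hf using 1
        rw [map_sub, map_neg]; abel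
      · intro h
        obtain ⟨f, hf⟩ := a2 ⟨w, hw⟩ _ h
        refine ⟨f, ?_⟩
        convert hf using 1
        rw [map_sub]; abel) (w := e) (by rw [hS]; trivial) e
    rw [← this]
    simpa using hg
  have rig : ∀ a ∈ A, ∀ a' ∈ A, π a = π a' := by
    intro a ha a' ha'
    obtain ⟨p0, -, hu⟩ := a1 ⟨F1, hF1⟩ (a + (ψ f1 + ρ (π a' - π a)))
    have e1 := hu (⟨f1, hf1⟩, π a' - π a) (by simpa using ha)
    obtain ⟨x, hx⟩ := (hex (a + ρ (π a' - π a) - a')).mp (by simp [hρ])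
    obtain ⟨f, hf⟩ := hk (a' + ψ f1) x ⟨⟨f1, hf1⟩, by simpa using ha'⟩
    have e2 := hu (f, 0) (by
      simp only [hρ0]
      convert hf using 1
      rw [hx]; abel)
    have := congrArg Prod.snd (e1.trans e2.symm)
    exact (sub_eq_zero.mp this).symm
  refine ⟨?_, rig⟩
  rintro ⟨P, hP, hper⟩
  obtain ⟨p0, ht, -⟩ := a1 ⟨F1, hF1⟩ 0
  beta_reduce at ht
  generalize 0 - (ψ p0.1 + ρ p0.2) = t at ht
  refine h2 {x | ψ x + t ∈ A} (fun F hF => T.subtype.mpr (fun g => ?_)) ⟨P, hP, ?_⟩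
  · obtain ⟨⟨f, r⟩, hp, hu⟩ := a1 ⟨F, hF⟩ (ψ g + t)
    have hr : r = 0 := by
      have := rig _ hp _ ht
      simpa [hπψ, hρ] using this
    subst hr
    refine ⟨f, ?_, fun f' hf' => ?_⟩
    · simp only [hρ0] at hp
      show ψ (g - f) + t ∈ A
      convert hp using 1
      rw [map_sub]; abel
    · have := hu (f', 0) (by
        have : ψ (g - f') + t ∈ A := hf'
        simp only [hρ0]
        convert this using 1
        rw [map_sub]; abel)
      exact congrArg Prod.fst this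
  · intro g a ha
    have := hper (ψ g) _ ha
    show ψ (a + P • g) + t ∈ A
    convert this using 1
    rw [map_add, map_nsmul]; abel

end

/-- all points are congruent modulo two -/
def Rig {ι : Type} (A : Set (ι → ℤ)) : Prop := ∀ a ∈ A, ∀ a' ∈ A, ∀ k, (2 : ℤ) ∣ a k - a' k

lemma exists_system (d : ℕ) (hd : 3 ≤ d) :
    ∃ A0 : Set (Fin d → ℤ), Expr A0 (fun A => ¬ Per A ∧ Rig A) := by
  obtain ⟨P⟩ := exists_par
  let i0 : Fin d := ⟨0, by omega⟩
  let i1 : Fin d := ⟨1, by omega⟩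
  let i2 : Fin d := ⟨2, by omega⟩
  let φ : (Fin d → ℤ) →+ Gam × P.V := AddMonoidHom.mk'
    (fun x => ((x i0, x i1, (x i2 : ZMod 2), fun f => (x i2 : ZMod (rr f ^ 2))),
      fun v => (x i2 : ZMod (P.q v)))) (by
        intro x y
        ext <;> simp)
  have hφ : Function.Surjective φ := by
    rintro ⟨⟨x1, x2, y, c⟩, b⟩
    obtain ⟨m, hm⟩ := crt_int (mods P.q 1) (mods_cop P.qp P.q6 P.qi 1)
      (fun i => match i with
        | Sum.inl _ => y
        | Sum.inr (Sum.inl f) => c f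
        | Sum.inr (Sum.inr v) => b v)
    refine ⟨fun i => if i = i0 then x1 else if i = i1 then x2 else m, ?_⟩
    have n10 : i1 ≠ i0 := by simp [i0, i1]
    have n20 : i2 ≠ i0 := by simp [i0, i2]
    have n21 : i2 ≠ i1 := by simp [i1, i2]
    simp only [φ, AddMonoidHom.mk'_apply, n10, n20, n21, if_true, if_false]
    refine Prod.ext (Prod.ext rfl (Prod.ext rfl (Prod.ext ?_ ?_))) ?_
    · exact hm (Sum.inl ())
    · funext f; exact hm (Sum.inr (Sum.inl f))
    · funext v; exact hm (Sum.inr (Sum.inr v))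
  have h1 := P.expr_aperiodic.lift φ hφ
  let ψ : (Fin d → ℤ) →+ (Fin d → ℤ) := AddMonoidHom.mk' (fun x k => 2 * x k) (by
    intro x y; ext; simp [mul_add])
  let π : (Fin d → ℤ) →+ (Fin d → ZMod 2) := AddMonoidHom.mk' (fun x k => (x k : ZMod 2)) (by
    intro x y; ext; simp)
  have h2 := h1.scale ψ (by
    intro x y hxy
    funext k
    have := congrFun hxy k
    simp only [ψ, AddMonoidHom.mk'_apply] at this
    omega) π (by
    intro r
    refine ⟨fun k => ((r k).val : ℤ), ?_⟩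
    funext k
    simp [π]) (by
    intro x
    constructor
    · intro hx
      refine ⟨fun k => x k / 2, ?_⟩
      funext k
      have := (ZMod.intCast_zmod_eq_zero_iff_dvd (x k) 2).mp (congrFun hx k)
      simp only [ψ, AddMonoidHom.mk'_apply]
      omega
    · rintro ⟨g, rfl⟩
      funext k
      exact (ZMod.intCast_zmod_eq_zero_iff_dvd _ 2).mpr (Dvd.intro _ rfl))
  refine ⟨_, h2.mono (fun A hA => ⟨hA.1, fun a ha a' ha' k => ?_⟩)⟩
  exact (ZMod.intCast_eq_intCast_iff_dvd_sub _ _ 2).mp (congrFun (hA.2 a' ha' a ha) k)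

end Vale.Agent.P043
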