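import Vale.Agent.P043.Intended

/-! The aperiodic system of tiling equations. -/

namespace Vale.Agent.P043

open Classical

namespace Par
variable (P : Par)

lemma clause (f : Fin 3) (S : Set Var) (hS : ∀ v ∈ S, dir v = f) (δ : Var → ℤ)
    (hs : ∀ γ, ∃ v ∈ S, (δ v = 1 ∧ P.On v γ) ∨ (δ v = 0 ∧ ¬ P.On v γ)) :
    FE P.lift P.A0 (fun _ β => ∀ γ, ∃ v ∈ S, Line β v f (δ v) γ) := by
  refine FE.clause P.cop P.R0 (av f) S (fun v => (δ v : ZMod (P.q v))) ?_ ?_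
  · intro v hv γ
    rw [← hS v hv, P.β0_av]
    simp
  · intro γ
    obtain ⟨v, hv, h⟩ := hs γ
    refine ⟨v, hv, ?_⟩
    have := P.β0_av v 1 γ
    rw [one_smul, hS v hv] at this
    rw [this]
    rcases h with ⟨h1, h2⟩ | ⟨h1, h2⟩ <;> simp [h1, h2]

lemma β0_d2 (z : ZMod 2) (γ : Gam) : P.β0 (γ - P.d2) (vE2 z) = P.β0 γ (vE2 z) := by
  apply P.β0_inv _ (P.e2q _) (P.e2q _)
  have h2 : (2 : ZMod 2) = 0 := by decide
  have : ((γ - P.d2).1 : ZMod 2) + ((γ - P.d2).2.1 : ZMod 2) = γ.1 + γ.2.1 := by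
    simp only [d2, Prod.fst_sub, Prod.snd_sub, Int.cast_sub]
    linear_combination (-(P.e2 : ZMod 2)) * h2
  rw [On_E2, On_E2, this]

lemma β0_df (f : Fin 3) (a b z : ZMod (rr f)) (γ : Gam) :
    P.β0 (γ - P.df f) (vE f a b z) = P.β0 γ (vE f a b z) := by
  apply P.β0_inv _ (P.eq _ _) (P.eq _ _)
  rw [On_E, On_E, Ps_df]

lemma β0_Z (f : Fin 3) (σ : Sg) (γ : Gam) :
    P.β0 (γ - one f) (vZ f σ) = P.β0 γ (vZ f σ) := by
  apply P.β0_inv _ (by simp [one]) (by simp [one])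
  rw [On_Z, On_Z, nn_one]

lemma β0_B {f g : Fin 3} (hfg : f ≠ g) (σ : Sg) (γ : Gam) :
    P.β0 (γ - one g) (vB f σ) = P.β0 γ (vB f σ) := by
  apply P.β0_inv _ (by simp [one]) (by simp [one])
  simp only [On_B, nn_one, Ps_ker (pf_one_ne hfg)]

lemma β0_dn {v : Var} {d : Gam} (hd : ∀ γ, P.β0 (γ - d) v = P.β0 γ v) (γ : Gam) (j n : ℕ) :
    P.β0 (γ - j • d - n • av (dir v)) v =
      P.β0 γ v - if P.On v γ then (n : ZMod (P.q v)) else 0 := by
  rw [sub_right_comm, inv_nsmul (F := fun γ => P.β0 γ v) hd, β0_av]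

lemma fe_top2 : FE P.lift P.A0 (fun h _ => ∀ i, IsTop (p2 i) (fun γ => (h γ).1 i)) :=
  FE.forall (fun i => FE.isTop P.R0 (p2 i) P.d2 (p2_d2 P i) (fun k => k.1 i) (fun _ => rfl))

lemma fe_top : FE P.lift P.A0 (fun h _ => ∀ f i, IsTop (pf f i) (fun γ => (h γ).2 f i)) :=
  FE.forall (fun f => FE.forall (fun i =>
    FE.isTop P.R0 (pf f i) (P.df f) (pf_df P f i) (fun k => k.2 f i) (fun _ => rfl)))

lemma fe_mk2 : FE P.lift P.A0 (fun h β => ∀ z γ,
    (∀ j n : ℕ, β (γ - j • P.d2 - n • av 0) (vE2 z) = β γ (vE2 z)) →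
    Function.Injective (fun j : ZMod 2 => ∑ i, 1 * (h (γ - j.val • P.d2)).1 i + z * j)) := by
  refine FE.forall (fun z => ?_)
  have hm := FE.marker P.R0 (r := 2) (q := P.q (vE2 z)) (le_trans (by norm_num) (P.q6 _))
    (Pi.evalAddMonoidHom (fun v => ZMod (P.q v)) (vE2 z)) (Function.surjective_eval _)
    (fun k => ∑ i, 1 * k.1 i) z P.d2 (av 0) (by
      intro γ n
      simp only [h0, map_sub, map_nsmul, p2_av, smul_zero, sub_zero]) (by
      intro γ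
      have hd := P.β0_dn (P.β0_d2 z) γ
      by_cases hon : P.On (vE2 z) γ
      · right
        intro j n
        have := hd j n
        rw [if_pos hon] at this
        exact this
      · left
        refine ⟨fun j n => ?_, ?_⟩
        · have := hd j n
          rw [if_neg hon, sub_zero] at this
          exact this
        · have := good2 (p2 0 γ) (p2 1 γ)
          rw [On_E2, not_not] at hon
          have h2 : (2 : ZMod 2) = 0 := by decide
          have e0 : ((p2 0 γ).val : ZMod 2) = γ.1 := by rw [val_red, p2_0, map_intCast]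
          have e1 : ((p2 1 γ).val : ZMod 2) = γ.2.1 := by
            rw [val_red, p2_1, map_add, map_intCast, map_natCast, Nat.cast_mul, Nat.cast_ofNat, h2,
              zero_mul, add_zero]
          rw [e0, e1, ← hon] at this
          simpa only [h0, map_sub, map_nsmul, p2_d2, Fin.sum_univ_two, one_mul, nsmul_one]
            using this)
  refine (hm.and P.fe_top2).mono ?_
  rintro h β ⟨a, b⟩
  refine a (fun γ n => ?_)
  exact Finset.sum_congr rfl (fun i _ => congrArg _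
    ((b i).1 _ (by rw [map_nsmul, p2_av, smul_zero]) γ))

lemma fe_mkf : FE P.lift P.A0 (fun h β => ∀ f a b z γ,
    (∀ j n : ℕ, β (γ - j • P.df f - n • av f) (vE f a b z) = β γ (vE f a b z)) →
    Function.Injective (fun j : ZMod (rr f) =>
      ∑ i, ![-a - b, a, b] i * (h (γ - j.val • P.df f)).2 f i + z * j)) := by
  refine FE.forall (fun f => FE.forall (fun a => FE.forall (fun b => FE.forall (fun z => ?_))))
  have hr : rr f ≤ 6000 := by fin_cases f <;> simp [rr]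
  have hm := FE.marker P.R0 (r := rr f) (q := P.q (vE f a b z)) (le_trans hr (P.q6 _))
    (Pi.evalAddMonoidHom (fun v => ZMod (P.q v)) (vE f a b z)) (Function.surjective_eval _)
    (fun k => ∑ i, ![-a - b, a, b] i * k.2 f i) z (P.df f) (av f) (by
      intro γ n
      simp only [h0, map_sub, map_nsmul, pf_av, smul_zero, sub_zero]) (by
      intro γ
      have hd := P.β0_dn (P.β0_df f a b z) γ
      by_cases hon : P.On (vE f a b z) γ
      · right
        intro j n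
        have := hd j n
        rw [if_pos hon] at this
        exact this
      · left
        refine ⟨fun j n => ?_, ?_⟩
        · have := hd j n
          rw [if_neg hon, sub_zero] at this
          exact this
        · rw [On_E, not_not] at hon
          simpa only [Ps, Pass, Lf, h0, map_sub, map_nsmul, pf_df, Fin.sum_univ_three,
            nsmul_one, Matrix.cons_val_zero, Matrix.cons_val_one, Matrix.cons_val]
            using hon)
  refine (hm.and P.fe_top).mono ?_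
  rintro h β ⟨x, y⟩
  refine x (fun γ n => ?_)
  exact Finset.sum_congr rfl (fun i _ => congrArg _
    ((y f i).1 _ (by rw [map_nsmul, pf_av, smul_zero]) γ))

lemma fe_c1 : FE P.lift P.A0 (fun _ β => ∀ f γ, ∃ σ, Line β (vZ f σ) f 1 γ) := by
  refine FE.forall (fun f => (P.clause f (Set.range (vZ f)) ?_ (fun _ => 1) ?_).mono ?_)
  · rintro _ ⟨σ, rfl⟩; rfl
  · intro γ
    exact ⟨_, ⟨P.D (P.nn f γ), rfl⟩, Or.inl ⟨rfl, rfl⟩⟩
  · intro h β hh γ
    obtain ⟨_, ⟨σ, rfl⟩, h1⟩ := hh γ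
    exact ⟨σ, h1⟩

/-- indicator of the torsion variables -/
def isB : Var → ℤ :=
  Sum.elim (fun _ => 0) (Sum.elim (fun _ => 0) (Sum.elim (fun _ => 0) (fun _ => 1)))

lemma fe_c2 : FE P.lift P.A0 (fun _ β => ∀ f σ γ, Line β (vZ f σ) f 0 γ ∨
    Line β (vB f σ) f 1 γ ∨ ∃ b z, b ≠ 0 ∧ Line β (vE f 0 b z) f 0 γ) := by
  refine FE.forall (fun f => FE.forall (fun σ => (P.clause f
    {v | v = vZ f σ ∨ v = vB f σ ∨ ∃ b z, b ≠ 0 ∧ v = vE f 0 b z} ?_ isB ?_).mono ?_))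
  · rintro _ (rfl | rfl | ⟨b, z, -, rfl⟩) <;> rfl
  · intro γ
    by_cases h1 : σ = P.D (P.nn f γ)
    · by_cases h2 : ∃ b z, b ≠ 0 ∧ Ps f 0 b z γ
      · obtain ⟨b, z, hb, h2⟩ := h2
        exact ⟨_, Or.inr (Or.inr ⟨b, z, hb, rfl⟩), Or.inr ⟨rfl, not_not.mpr h2⟩⟩
      · exact ⟨_, Or.inr (Or.inl rfl), Or.inl ⟨rfl, h1, h2⟩⟩
    · exact ⟨_, Or.inl rfl, Or.inr ⟨rfl, h1⟩⟩
  · intro h β hh γ
    obtain ⟨_, rfl | rfl | ⟨b, z, hb, rfl⟩, h1⟩ := hh γ
    · exact Or.inl h1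
    · exact Or.inr (Or.inl h1)
    · exact Or.inr (Or.inr ⟨b, z, hb, h1⟩)

lemma fe_c3 : FE P.lift P.A0 (fun _ β => ∀ f σ γ, Line β (vZ f σ) f 0 γ ∨
    Line β (vB f σ) f 0 γ ∨ ∃ a b z, a ≠ 0 ∧ Line β (vE f a b z) f 0 γ) := by
  refine FE.forall (fun f => FE.forall (fun σ => (P.clause f
    {v | v = vZ f σ ∨ v = vB f σ ∨ ∃ a b z, a ≠ 0 ∧ v = vE f a b z} ?_ (fun _ => 0) ?_).mono ?_))
  · rintro _ (rfl | rfl | ⟨a, b, z, -, rfl⟩) <;> rfl
  · intro γ
    by_cases h2 : ∃ b z, b ≠ 0 ∧ Ps f 0 b z γ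
    · exact ⟨_, Or.inr (Or.inl rfl), Or.inr ⟨rfl, fun h => h.2 h2⟩⟩
    · obtain ⟨a, b, z, hab, h3⟩ := Ps_all f γ
      have ha : a ≠ 0 := by
        rintro rfl
        exact h2 ⟨b, z, hab.resolve_left (fun h => h rfl), h3⟩
      exact ⟨_, Or.inr (Or.inr ⟨a, b, z, ha, rfl⟩), Or.inr ⟨rfl, not_not.mpr h3⟩⟩
  · intro h β hh γ
    obtain ⟨_, rfl | rfl | ⟨a, b, z, hb, rfl⟩, h1⟩ := hh γ
    · exact Or.inl h1
    · exact Or.inr (Or.inl h1)
    · exact Or.inr (Or.inr ⟨a, b, z, hb, h1⟩)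

lemma fe_c4 : FE P.lift P.A0 (fun _ β => ∀ σ γ, Line β (vZ 0 σ) 0 0 γ ∨
    Line β (vE2 (par σ)) 0 0 γ) := by
  refine FE.forall (fun σ => (P.clause 0
    {v | v = vZ 0 σ ∨ v = vE2 (par σ)} ?_ (fun _ => 0) ?_).mono ?_)
  · rintro _ (rfl | rfl) <;> rfl
  · intro γ
    by_cases h1 : σ = P.D (P.nn 0 γ)
    · exact ⟨_, Or.inr rfl, Or.inr ⟨rfl, fun h => h (by rw [h1, nn_par])⟩⟩
    · exact ⟨_, Or.inl rfl, Or.inr ⟨rfl, h1⟩⟩
  · intro h β hh γ
    obtain ⟨_, rfl | rfl, h1⟩ := hh γ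
    · exact Or.inl h1
    · exact Or.inr h1

lemma fe_tor : FE P.lift P.A0 (fun _ β => ∀ σ : Fin 3 → Sg, ¬ OmS (σ 0) (σ 1) (σ 2) →
    ∀ γ, ∃ f, β (γ - one f) (vB f (σ f)) = β γ (vB f (σ f))) := by
  refine FE.forall (fun σ => FE.imp (fun hσ => ?_))
  have key : ∀ β : Gam → P.V,
      (∀ f g, f ≠ g → ∀ γ, β (γ - one g) (vB f (σ f)) = β γ (vB f (σ f))) →
      ∀ u ∈ Set.range (fun f => vB f (σ f)), ∀ v ∈ Set.range (fun f => vB f (σ f)), u ≠ v →
        ∀ γ, β (γ - one (dir u)) v = β γ v := by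
    rintro β hβ _ ⟨g, rfl⟩ _ ⟨f, rfl⟩ huv γ
    exact hβ f g (fun h => huv (by rw [h])) γ
  have h1 : FE P.lift P.A0 (fun _ β => ∀ f g, f ≠ g →
      ∀ γ, β (γ - one g) (vB f (σ f)) = β γ (vB f (σ f))) :=
    FE.forall (fun f => FE.forall (fun g => FE.imp (fun hfg =>
      FE.inv P.R0 _ _ (P.β0_B hfg _))))
  have h2 := FE.or P.R0 (Set.range (fun f => vB f (σ f))) (fun v => one (dir v)) 0
    (key P.β0 (fun f g hfg => P.β0_B hfg _)) (by
      intro γ
      have : ∃ f, σ f ≠ P.D (P.nn f γ) := by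
        by_contra hc
        push Not at hc
        apply hσ
        rw [hc, hc, hc]
        exact P.nn_om γ
      obtain ⟨f, hf⟩ := this
      refine ⟨_, ⟨f, rfl⟩, ?_⟩
      simp [β0, On_B, nn_one, hf])
  refine (h1.and h2).mono ?_
  rintro h β ⟨a, b⟩ γ
  obtain ⟨_, ⟨f, rfl⟩, h3⟩ := b (key β a) γ
  rw [Pi.zero_apply, add_zero] at h3
  exact ⟨f, h3⟩

theorem expr_aperiodic : Expr P.A0 (fun A => ¬ Per A) := by
  apply FE.final P.R0
  have i1 : FE P.lift P.A0 (fun _ β => ∀ z γ, β (γ - P.d2) (vE2 z) = β γ (vE2 z)) :=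
    FE.forall (fun z => FE.inv P.R0 _ _ (P.β0_d2 z))
  have i2 : FE P.lift P.A0 (fun _ β => ∀ f a b z γ,
      β (γ - P.df f) (vE f a b z) = β γ (vE f a b z)) :=
    FE.forall (fun f => FE.forall (fun a => FE.forall (fun b => FE.forall (fun z =>
      FE.inv P.R0 _ _ (P.β0_df f a b z)))))
  have i3 : FE P.lift P.A0 (fun _ β => ∀ f σ γ, β (γ - one f) (vZ f σ) = β γ (vZ f σ)) :=
    FE.forall (fun f => FE.forall (fun σ => FE.inv P.R0 _ _ (P.β0_Z f σ)))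
  refine (P.fe_top2.and (P.fe_top.and (i1.and (i2.and (i3.and (P.fe_mk2.and (P.fe_mkf.and
    (P.fe_c1.and (P.fe_c2.and (P.fe_c3.and (P.fe_c4.and P.fe_tor))))))))))).mono ?_
  rintro h β ⟨a1, a2, a3, a4, a5, a6, a7, a8, a9, a10, a11, a12⟩
  exact Sol.not_per ⟨a1, a2, a3, a4, a5, a6, a7, a8, a9, a10, a11, a12⟩

end Par

end Vale.Agent.P043
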