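import Vale.Agent.P043.OrTile

/-! The carry gadget. -/

namespace Vale.Agent.P043

open Classical

lemma sum_zmod_val {M : Type*} [AddCommMonoid M] {r : ℕ} [NeZero r] (f : ℕ → M) :
    ∑ j : ZMod r, f j.val = ∑ j ∈ Finset.range r, f j := by
  obtain ⟨n, rfl⟩ := Nat.exists_eq_succ_of_ne_zero (NeZero.ne r)
  exact Fin.sum_univ_eq_sum_range f (n + 1)

/-- upper digit -/
def top0 (r : ℕ) (y : ZMod (r ^ 2)) : ZMod r := ((y.val / r : ℕ) : ZMod r)

lemma top0_add {r : ℕ} [NeZero r] (y : ZMod (r ^ 2)) (n : ℕ) :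
    top0 r (y + ((r * n : ℕ) : ZMod (r ^ 2))) = top0 r y + n := by
  have hr : 0 < r := Nat.pos_of_ne_zero (NeZero.ne r)
  unfold top0
  have : (y + ((r * n : ℕ) : ZMod (r ^ 2))).val = (y.val + r * n) % (r * r) := by
    conv_lhs => rw [← ZMod.natCast_zmod_val y, ← Nat.cast_add, ZMod.val_natCast]
    exact congrArg _ (pow_two r)
  rw [this, Nat.mod_mul_right_div_self, ZMod.natCast_mod, Nat.add_mul_div_left _ _ hr]
  push_cast; rfl

lemma top0_sub {r : ℕ} [NeZero r] (y : ZMod (r ^ 2)) (n : ℕ) :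
    top0 r (y - ((r * n : ℕ) : ZMod (r ^ 2))) = top0 r y - n := by
  have := top0_add (y - ((r * n : ℕ) : ZMod (r ^ 2))) n
  rw [sub_add_cancel] at this
  rw [this]; ring

section
variable {Γ : Type} [AddCommGroup Γ] {r : ℕ} [NeZero r]

/-- `H` behaves like an upper digit for `π` -/
def IsTop (π : Γ →+ ZMod (r ^ 2)) (H : Γ → ZMod r) : Prop :=
  (∀ w, π w = 0 → ∀ γ, H (γ - w) = H γ) ∧ ∀ d, π d = 1 → ∀ γ, H (γ - r • d) + 1 = H γ

lemma IsTop.sum {π : Γ →+ ZMod (r ^ 2)} {H : Γ → ZMod r} (h : IsTop π H) {d : Γ}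
    (hd : π d = 1) : ∃ c : ZMod r, ∀ γ,
      ∑ j : ZMod r, H (γ - j.val • d) = ((π γ).val : ZMod r) + c := by
  have hr : 0 < r := Nat.pos_of_ne_zero (NeZero.ne r)
  let Φ : Γ → ZMod r := fun γ => ∑ j ∈ Finset.range r, H (γ - j • d)
  have h1 : ∀ γ, Φ (γ + d) = Φ γ + 1 := by
    intro γ
    have e1 := Finset.sum_range_succ (fun j => H (γ + d - j • d)) r
    have e2 := Finset.sum_range_succ' (fun j => H (γ + d - j • d)) r
    have e3 : ∀ j : ℕ, γ + d - (j + 1) • d = γ - j • d := by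
      intro j; rw [add_smul, one_smul]; abel
    simp only [e3, zero_smul, sub_zero] at e2
    have e4 := h.2 d hd (γ + d)
    simp only [Φ]
    linear_combination e2 - e1 - e4
  have h2 : ∀ n : ℕ, Φ (n • d) = Φ 0 + n := by
    intro n
    induction n with
    | zero => simp
    | succ n ih => rw [add_smul, one_smul, h1, ih]; push_cast; ring
  refine ⟨Φ 0, fun γ => ?_⟩
  rw [sum_zmod_val (fun j => H (γ - j • d)), add_comm, ← h2]
  apply Finset.sum_congr rfl
  intro j _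
  have := h.1 (γ - (π γ).val • d) (by simp [hd]) (γ - j • d)
  rw [← this]
  congr 1; abel

lemma pass_sound {ι : Type} [Fintype ι] (π : ι → Γ →+ ZMod (r ^ 2)) (H : ι → Γ → ZMod r)
    (h : ∀ k, IsTop (π k) (H k)) {d : Γ} (hd : ∀ k, π k d = 1) :
    ∃ c : ι → ZMod r, ∀ (κ : ι → ZMod r) (z : ZMod r) (γ : Γ),
      Function.Injective (fun j : ZMod r => ∑ k, κ k * H k (γ - j.val • d) + z * j) →
      ∑ k, κ k * (((π k γ).val : ZMod r) + c k) + z * ∑ j : ZMod r, j = ∑ j : ZMod r, j := by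
  choose c hc using fun k => (h k).sum (hd k)
  refine ⟨c, fun κ z γ hinj => ?_⟩
  have hb := Finite.injective_iff_bijective.mp hinj
  have := Function.Bijective.sum_comp hb (fun j => j)
  rw [Finset.sum_add_distrib, Finset.sum_comm] at this
  simp only [← Finset.mul_sum, hc] at this
  rw [Finset.mul_sum]
  exact this

lemma FE.isTop [Module.Finite ℤ Γ] {K V : Type} [AddCommGroup V] [Finite K] [Finite V]
    {lift : K → Γ} {A0 : Set (Γ × V)} {h0 : Γ → K} {β0 : Γ → V} (R0 : Rp lift A0 h0 β0)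
    (π : Γ →+ ZMod (r ^ 2)) (e : Γ) (he : π e = 1) (ℓ : K → ZMod r)
    (hs : ∀ γ, ℓ (h0 γ) = top0 r (π γ)) :
    FE lift A0 (fun h _ => IsTop π (fun γ => ℓ (h γ))) := by
  obtain ⟨S, hS⟩ := IsNoetherian.noetherian (LinearMap.ker π.toIntLinearMap)
  have h1 : FE lift A0 (fun h _ => ∀ w : S, ∀ γ, ℓ (h (γ - w)) + 0 = ℓ (h γ)) := by
    apply FE.forall
    intro w
    apply FE.diff R0
    intro γ
    have : π w = 0 := by
      have : (w : Γ) ∈ LinearMap.ker π.toIntLinearMap := by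
        rw [← hS]; exact Submodule.subset_span w.2
      exact this
    simp [hs, this]
  have h2 : FE lift A0 (fun h _ => ∀ γ, ℓ (h (γ - r • e)) + 1 = ℓ (h γ)) := by
    apply FE.diff R0
    intro γ
    have := top0_sub (π γ) 1
    simp only [hs, map_sub, map_nsmul, he, nsmul_eq_mul, mul_one] at this ⊢
    rw [this]; simp
  refine (h1.and h2).mono ?_
  rintro h β ⟨a, b⟩
  have hker : ∀ w, π w = 0 → ∀ γ, ℓ (h (γ - w)) = ℓ (h γ) := by
    intro w hw
    have : w ∈ Submodule.span ℤ (S : Set Γ) := by rw [hS]; exact hw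
    clear hw
    induction this using Submodule.span_induction with
    | mem x hx => intro γ; simpa using a ⟨x, hx⟩ γ
    | zero => simp
    | add x y _ _ hx hy => intro γ; rw [← sub_sub, hy, hx]
    | smul n x _ hx =>
      induction n using Int.induction_on with
      | zero => simp
      | succ n ih => intro γ; rw [add_smul, one_smul, ← sub_sub, hx, ih]
      | pred n ih =>
        intro γ
        rw [← hx, ← ih γ]
        congr 2
        rw [sub_smul, one_smul]; abel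
  refine ⟨hker, fun d hd γ => ?_⟩
  have := hker (r • d - r • e) (by simp [hd, he]) (γ - r • e)
  simp only
  rw [← b γ, ← this]
  congr 3; abel

end

/-- the linear form of upper digits used by the odd gadgets -/
def Lf (r : ℕ) (a b : ZMod r) (g0 g1 g2 : ZMod (r ^ 2)) : ZMod r :=
  (-a - b) * top0 r g0 + a * top0 r g1 + b * top0 r g2

/-- the test passes -/
def Pass (r : ℕ) (a b z : ZMod r) (g0 g1 g2 : ZMod (r ^ 2)) : Prop :=
  Function.Injective (fun j : ZMod r =>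
    Lf r a b (g0 - ((j.val : ℕ) : ZMod (r ^ 2))) (g1 - ((j.val : ℕ) : ZMod (r ^ 2))) (g2 - ((j.val : ℕ) : ZMod (r ^ 2))) + z * j)

lemma Pass.top {r : ℕ} [NeZero r] {a b z : ZMod r} {g0 g1 g2 : ZMod (r ^ 2)} (n0 n1 n2 : ℕ) :
    Pass r a b z (g0 - ((r * n0 : ℕ) : ZMod (r ^ 2))) (g1 - ((r * n1 : ℕ) : ZMod (r ^ 2)))
      (g2 - ((r * n2 : ℕ) : ZMod (r ^ 2))) ↔ Pass r a b z g0 g1 g2 := by
  unfold Pass Lf
  simp only [sub_right_comm _ ((r * _ : ℕ) : ZMod (r ^ 2)), top0_sub]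
  constructor
  · intro h j j' hj
    apply h
    simp only at hj ⊢
    linear_combination hj
  · intro h j j' hj
    apply h
    simp only at hj ⊢
    linear_combination hj

lemma Lf_mod {r : ℕ} [NeZero r] (a b : ZMod r) (g0 g1 g2 : ZMod (r ^ 2)) (n : ℕ) :
    Lf r a b (g0 - ((n : ℕ) : ZMod (r ^ 2))) (g1 - ((n : ℕ) : ZMod (r ^ 2))) (g2 - ((n : ℕ) : ZMod (r ^ 2))) =
      Lf r a b (g0 - (((n : ZMod r).val : ℕ) : ZMod (r ^ 2))) (g1 - (((n : ZMod r).val : ℕ) : ZMod (r ^ 2)))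
        (g2 - (((n : ZMod r).val : ℕ) : ZMod (r ^ 2))) := by
  rw [ZMod.val_natCast]
  conv_lhs => rw [← Nat.mod_add_div n r]
  unfold Lf
  simp only [Nat.cast_add, ← sub_sub, top0_sub]
  ring

lemma Pass.diag {r : ℕ} [NeZero r] {a b z : ZMod r} {g0 g1 g2 : ZMod (r ^ 2)} (n : ℕ) :
    Pass r a b z (g0 - ((n : ℕ) : ZMod (r ^ 2))) (g1 - ((n : ℕ) : ZMod (r ^ 2))) (g2 - ((n : ℕ) : ZMod (r ^ 2))) ↔ Pass r a b z g0 g1 g2 := by
  unfold Pass
  have e : ∀ j : ZMod r, Lf r a b (g0 - ((n : ℕ) : ZMod (r ^ 2)) - ((j.val : ℕ) : ZMod (r ^ 2))) (g1 - ((n : ℕ) : ZMod (r ^ 2)) - ((j.val : ℕ) : ZMod (r ^ 2)))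
      (g2 - ((n : ℕ) : ZMod (r ^ 2)) - ((j.val : ℕ) : ZMod (r ^ 2))) = Lf r a b (g0 - (((j + n).val : ℕ) : ZMod (r ^ 2)))
        (g1 - (((j + n).val : ℕ) : ZMod (r ^ 2))) (g2 - (((j + n).val : ℕ) : ZMod (r ^ 2))) := by
    intro j
    have := Lf_mod a b g0 g1 g2 (j.val + n)
    simp only [Nat.cast_add, ZMod.natCast_zmod_val] at this
    rw [← this]
    simp only [sub_sub, add_comm]
  simp only [e]
  constructor
  · intro h j j' hj
    have := @h (j - n) (j' - n) (by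
      simp only [sub_add_cancel]
      simp only at hj
      linear_combination hj)
    linear_combination this
  · intro h j j' hj
    have := @h (j + n) (j' + n) (by
      simp only at hj ⊢
      linear_combination hj)
    linear_combination this

/-- completeness of the gadget on representatives -/
def Good (r : ℕ) : Prop :=
  ∀ t1 t2 : ZMod r, ∃ a b z : ZMod r, (a ≠ 0 ∨ b ≠ 0) ∧ Pass r a b z 0 ((t1.val : ℕ) : ZMod (r ^ 2)) ((t2.val : ℕ) : ZMod (r ^ 2))

lemma Good.all {r : ℕ} [NeZero r] (h : Good r) (g0 g1 g2 : ZMod (r ^ 2)) :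
    ∃ a b z : ZMod r, (a ≠ 0 ∨ b ≠ 0) ∧ Pass r a b z g0 g1 g2 := by
  have key : ∀ y : ZMod (r ^ 2), y - ((r * (y.val / r) : ℕ) : ZMod (r ^ 2)) =
      (((y.val : ZMod r).val : ℕ) : ZMod (r ^ 2)) := by
    intro y
    rw [ZMod.val_natCast, sub_eq_iff_eq_add, ← Nat.cast_add, Nat.mod_add_div,
      ZMod.natCast_zmod_val]
  obtain ⟨a, b, z, h1, h2⟩ := h ((g1 - g0).val : ZMod r) ((g2 - g0).val : ZMod r)
  refine ⟨a, b, z, h1, ?_⟩
  rw [← Pass.diag g0.val, ← Pass.top 0 ((g1 - g0).val / r) ((g2 - g0).val / r)]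
  simp only [ZMod.natCast_zmod_val, key]
  simpa using h2

lemma good3 : Good 3 := by
  unfold Good Pass Lf top0 Function.Injective
  decide +kernel

lemma good5 : Good 5 := by
  unfold Good Pass Lf top0 Function.Injective
  decide +kernel

lemma good7 : Good 7 := by
  unfold Good Pass Lf top0 Function.Injective
  decide +kernel

lemma good2 : ∀ g0 g1 : ZMod (2 ^ 2), Function.Injective (fun j : ZMod 2 =>
    top0 2 (g0 - ((j.val : ℕ) : ZMod (2 ^ 2))) + top0 2 (g1 - ((j.val : ℕ) : ZMod (2 ^ 2))) +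
      ((g0.val : ZMod 2) + (g1.val : ZMod 2) + 1) * j) := by
  unfold top0 Function.Injective
  decide +kernel

end Vale.Agent.P043
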