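import Vale.Agent.P043.Sudoku

/-! The puzzle for periodic integer sequences. -/

namespace Vale.Agent.P043

open Classical

lemma pr_residue {P : ℕ} [NeZero P] {q : ℕ} (hq : q.Prime) (hq6 : 6000 ≤ q) (hqP : q ∣ P)
    (S : ℤ → Prop) (hS : ∀ w w', S w → S w' → (w : ZMod q) = (w' : ZMod q)) (k : ℕ)
    (o : ZMod P) : pr (fun w : ZMod P => S ((o + 2 ^ k • w).val : ℤ)) ≤ 1 / 6000 := by
  have : Fact q.Prime := ⟨hq⟩
  by_cases h : ∃ w0, S w0
  · obtain ⟨w0, hw0⟩ := h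
    let φ : ZMod P →+ ZMod q := (ZMod.castHom hqP (ZMod q)).toAddMonoidHom
    let ψ : ZMod P →+ ZMod q := (2 ^ k : ℕ) • φ
    have h2 : (2 : ZMod q) ≠ 0 := by
      intro h
      have : ((2 : ℕ) : ZMod q) = 0 := by exact_mod_cast h
      rw [ZMod.natCast_eq_zero_iff] at this
      have := Nat.le_of_dvd (by norm_num) this
      omega
    have hψ : Function.Surjective ψ := by
      intro y
      obtain ⟨x, hx⟩ := ZMod.castHom_surjective hqP (y / 2 ^ k)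
      refine ⟨x, ?_⟩
      show (2 ^ k : ℕ) • (ZMod.castHom hqP (ZMod q) x) = y
      rw [hx, nsmul_eq_mul]
      push_cast
      field_simp
    have h1 := pr_hom ψ hψ (fun y => y = (w0 : ZMod q) - φ o)
    rw [pr_single, ZMod.card] at h1
    have h3 : (1 : ℝ) / q ≤ 1 / 6000 := by
      apply one_div_le_one_div_of_le (by norm_num)
      exact_mod_cast hq6
    refine le_trans (pr_mono ?_) (h1.le.trans h3)
    intro w hw
    have := hS _ _ hw hw0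
    rw [← this, eq_sub_iff_add_eq]
    show (2 ^ k : ℕ) • φ w + φ o = _
    rw [← map_nsmul, ← map_add, add_comm]
    simp [φ]
  · push Not at h
    refine le_trans (pr_mono (T := fun _ => False) (fun w hw => h _ hw)) ?_
    simp [pr]

lemma periodic_val {α : Type*} {P : ℕ} [NeZero P] (d : ℤ → α) (hd : ∀ m k : ℤ, d (m + P * k) = d m)
    (m : ℤ) (x : ZMod P) (hx : (m : ZMod P) = x) : d (x.val : ℤ) = d m := by
  have : ((x.val : ℤ) : ZMod P) = (m : ZMod P) := by simp [hx]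
  rw [ZMod.intCast_eq_intCast_iff_dvd_sub] at this
  obtain ⟨k, hk⟩ := this
  rw [← hd (x.val : ℤ) k, ← hk]
  congr 1; ring

theorem sudoku_int (P : ℕ) (hP : 0 < P) (h1024 : 1024 ∣ P) (d1 d2 d3 : ℤ → Sg)
    (per3 : ∀ m k : ℤ, d3 (m + P * k) = d3 m)
    (E1 E2 E3 : ℤ → ℤ → Prop)
    (perE : ∀ u w k : ℤ, E3 (u + P * k) w = E3 u w)
    (om : ∀ u w, ¬ E1 u w → ¬ E2 u w → ¬ E3 u w → OmS (d1 u) (d2 w) (d3 (-u - w)))
    (h1 : ∀ u, ∃ q : ℕ, q.Prime ∧ 6000 ≤ q ∧ q ∣ P ∧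
      ∀ w w', E1 u w → E1 u w' → (w : ZMod q) = (w' : ZMod q))
    (h2 : ∀ w, ∃ q : ℕ, q.Prime ∧ 6000 ≤ q ∧ q ∣ P ∧
      ∀ u u', E2 u w → E2 u' w → (u : ZMod q) = (u' : ZMod q))
    (h3 : ∀ z, ∃ q : ℕ, q.Prime ∧ 6000 ≤ q ∧ q ∣ P ∧
      ∀ w w', E3 (-z - w) w → E3 (-z - w') w' → (w : ZMod q) = (w' : ZMod q))
    (c : ZMod 2) (mark : ∀ u : ℤ, par (d1 u) = (u : ZMod 2) + c) : False := by
  have : NeZero P := ⟨hP.ne'⟩
  obtain ⟨K, L, hL, hKL⟩ := Nat.exists_eq_two_pow_mul_odd hP.ne'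
  let θ : ZMod P →+ ZMod 1024 := (ZMod.castHom h1024 (ZMod 1024)).toAddMonoidHom
  have hθ : Function.Surjective θ := ZMod.castHom_surjective h1024
  have hθ1 : ∀ n : ℕ, θ (n : ZMod P) = (n : ZMod 1024) := fun n => by simp [θ]
  refine sudoku_abstract (θ := θ) hθ ?_ (g0 := (L : ZMod P)) ?_ K ?_
    (fun m => d1 (m.val : ℤ)) (fun m => d2 (m.val : ℤ)) (fun m => d3 (m.val : ℤ))
    (fun u w => E1 (u.val : ℤ) (w.val : ℤ) ∨ E2 (u.val : ℤ) (w.val : ℤ) ∨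
      E3 (u.val : ℤ) (w.val : ℤ)) ?_ ?_ c ?_
  · intro f
    refine ⟨f 1, fun m => ?_⟩
    rw [← ZMod.natCast_zmod_val m, hθ1, ← nsmul_one, map_nsmul, nsmul_eq_mul, mul_comm]
  · rw [hθ1, ZMod.isUnit_iff_coprime]
    have : (1024 : ℕ) = 2 ^ 10 := by norm_num
    rw [this]
    apply Nat.Coprime.pow_right
    rw [Nat.coprime_two_right]
    exact hL
  · rw [nsmul_eq_mul, ← Nat.cast_mul, ← hKL, ZMod.natCast_self]
  · intro u w huw
    push Not at huw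
    have := om _ _ huw.1 huw.2.1 huw.2.2
    rw [periodic_val d3 per3 (-(u.val : ℤ) - (w.val : ℤ)) (-u - w) (by simp)]
    exact this
  · intro k o1 o2
    have a1 : pr (fun p : ZMod P × ZMod P =>
        E1 ((o1 + 2 ^ k • p.1).val : ℤ) ((o2 + 2 ^ k • p.2).val : ℤ)) ≤ 1 / 6000 := by
      apply pr_prod_le (S := fun u w : ZMod P =>
        E1 ((o1 + 2 ^ k • u).val : ℤ) ((o2 + 2 ^ k • w).val : ℤ))
      intro u
      obtain ⟨q, hq, hq6, hqP, hS⟩ := h1 ((o1 + 2 ^ k • u).val : ℤ)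
      exact pr_residue hq hq6 hqP _ hS k o2
    have a2 : pr (fun p : ZMod P × ZMod P =>
        E2 ((o1 + 2 ^ k • p.1).val : ℤ) ((o2 + 2 ^ k • p.2).val : ℤ)) ≤ 1 / 6000 := by
      rw [pr_swap (fun u w : ZMod P =>
        E2 ((o1 + 2 ^ k • u).val : ℤ) ((o2 + 2 ^ k • w).val : ℤ))]
      apply pr_prod_le (S := fun w u : ZMod P =>
        E2 ((o1 + 2 ^ k • u).val : ℤ) ((o2 + 2 ^ k • w).val : ℤ))
      intro w
      obtain ⟨q, hq, hq6, hqP, hS⟩ := h2 ((o2 + 2 ^ k • w).val : ℤ)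
      exact pr_residue hq hq6 hqP (fun u => E2 u _) hS k o1
    have a3 : pr (fun p : ZMod P × ZMod P =>
        E3 ((o1 + 2 ^ k • p.1).val : ℤ) ((o2 + 2 ^ k • p.2).val : ℤ)) ≤ 1 / 6000 := by
      rw [← pr_shear' (fun u w : ZMod P =>
        E3 ((o1 + 2 ^ k • u).val : ℤ) ((o2 + 2 ^ k • w).val : ℤ)),
        pr_swap (fun u w : ZMod P =>
        E3 ((o1 + 2 ^ k • (-u - w)).val : ℤ) ((o2 + 2 ^ k • w).val : ℤ)),
        pr_swap (fun w u : ZMod P =>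
        E3 ((o1 + 2 ^ k • (-u - w)).val : ℤ) ((o2 + 2 ^ k • w).val : ℤ))]
      apply pr_prod_le (S := fun z w : ZMod P =>
        E3 ((o1 + 2 ^ k • (-z - w)).val : ℤ) ((o2 + 2 ^ k • w).val : ℤ))
      intro z
      obtain ⟨q, hq, hq6, hqP, hS⟩ := h3 ((-o1 - o2 + 2 ^ k • z).val : ℤ)
      refine le_trans (pr_mono ?_) (pr_residue hq hq6 hqP
        (fun w => E3 (-((-o1 - o2 + 2 ^ k • z).val : ℤ) - w) w) hS k o2)
      intro w hw
      rw [← periodic_val (fun u => E3 u ((o2 + 2 ^ k • w).val : ℤ)) (fun m j => perE m _ j) _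
        (o1 + 2 ^ k • (-z - w))]
      · exact hw
      · rw [Int.cast_sub, Int.cast_neg, Int.cast_natCast, Int.cast_natCast,
          ZMod.natCast_zmod_val, ZMod.natCast_zmod_val, smul_sub, smul_neg]
        abel
    refine le_trans (pr_le_add3 (fun x hx => hx)) (by linarith)
  · intro u
    rw [mark]
    congr 1
    conv_rhs => rw [← ZMod.natCast_zmod_val u, hθ1]
    rw [map_natCast, Int.cast_natCast]

end Vale.Agent.P043
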