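import Vale.Agent.P043.Clause
import Vale.Agent.P043.SudokuInt

/-! The concrete group and variables. -/

namespace Vale.Agent.P043

open Classical

/-- the three odd primes -/
def rr : Fin 3 → ℕ := ![3, 5, 7]

instance rr_prime (f : Fin 3) : Fact (rr f).Prime := ⟨by fin_cases f <;> simp [rr] <;> norm_num⟩

instance rr_ne (f : Fin 3) : NeZero (rr f) := ⟨(rr_prime f).out.ne_zero⟩

abbrev Tor := ∀ f : Fin 3, ZMod (rr f ^ 2)
abbrev Gam := ℤ × ℤ × ZMod 2 × Tor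
abbrev Kk := (Fin 2 → ZMod 2) × (∀ f : Fin 3, Fin 3 → ZMod (rr f))
abbrev Var := ZMod 2 ⊕ (Σ f : Fin 3, ZMod (rr f) × ZMod (rr f) × ZMod (rr f)) ⊕
  (Fin 3 × Sg) ⊕ (Fin 3 × Sg)

def vE2 (z : ZMod 2) : Var := Sum.inl z
def vE (f : Fin 3) (a b z : ZMod (rr f)) : Var := Sum.inr (Sum.inl ⟨f, a, b, z⟩)
def vZ (f : Fin 3) (σ : Sg) : Var := Sum.inr (Sum.inr (Sum.inl (f, σ)))
def vB (f : Fin 3) (σ : Sg) : Var := Sum.inr (Sum.inr (Sum.inr (f, σ)))

/-- parameters of the construction -/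
structure Par where
  q : Var → ℕ
  qp : ∀ v, (q v).Prime
  q6 : ∀ v, 6000 ≤ q v
  qi : Function.Injective q
  c1 : ∀ v, ZMod (q v)
  c2 : ∀ v, ZMod (q v)
  hc1 : ∀ v, 44100 * c1 v = 1
  hc2 : ∀ v, 11025 * c2 v = 1
  e2 : ℤ
  e21 : (e2 : ZMod (2 ^ 2)) = 1
  e2r : ∀ f, (e2 : ZMod (rr f ^ 2)) = 0
  e2q : ∀ v, (e2 : ZMod (q v)) = 0
  e : Fin 3 → ℤ
  e1 : ∀ f, (e f : ZMod (rr f ^ 2)) = 1
  e0 : ∀ f f', f ≠ f' → (e f : ZMod (rr f' ^ 2)) = 0
  e4 : ∀ f, (e f : ZMod (2 ^ 2)) = 0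
  eq : ∀ f v, (e f : ZMod (q v)) = 0
  D : ℤ → Sg
  Dp : ∀ n : ℤ, n ≠ 0 → par (D n) = (n : ZMod 2)
  Dom : ∀ α β γ : ℤ, α ≠ 0 → β ≠ 0 → γ ≠ 0 → α + β + γ = 0 → OmS (D α) (D β) (D γ)

instance Par.q_prime (P : Par) (v : Var) : Fact (P.q v).Prime := ⟨P.qp v⟩

instance Par.q_ne (P : Par) (v : Var) : NeZero (P.q v) := ⟨(P.qp v).ne_zero⟩

lemma Par.cop (P : Par) : Pairwise fun i j => Nat.Coprime (P.q i) (P.q j) :=
  fun i j hij => (Nat.coprime_primes (P.qp i) (P.qp j)).mpr (fun h => hij (P.qi h))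

abbrev Par.V (P : Par) := ∀ v, ZMod (P.q v)

/-- all the moduli -/
def mods (q : Var → ℕ) (t : ℕ) : Unit ⊕ Fin 3 ⊕ Var → ℕ :=
  Sum.elim (fun _ => 2 ^ t) (Sum.elim (fun f => rr f ^ 2) q)

lemma mods_cop {q : Var → ℕ} (qp : ∀ v, (q v).Prime) (q6 : ∀ v, 6000 ≤ q v)
    (qi : Function.Injective q) (t : ℕ) :
    Pairwise fun i j => Nat.Coprime (mods q t i) (mods q t j) := by
  have hr : ∀ f, rr f ≤ 7 := by intro f; fin_cases f <;> simp [rr]
  have a1 : ∀ f, Nat.Coprime (2 ^ t) (rr f ^ 2) := by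
    intro f
    apply Nat.Coprime.pow
    fin_cases f <;> simp [rr] <;> decide
  have a2 : ∀ v, Nat.Coprime (2 ^ t) (q v) := by
    intro v
    apply Nat.Coprime.pow_left
    rw [Nat.coprime_primes Nat.prime_two (qp v)]
    have := q6 v
    omega
  have a3 : ∀ f v, Nat.Coprime (rr f ^ 2) (q v) := by
    intro f v
    apply Nat.Coprime.pow_left
    rw [Nat.coprime_primes (rr_prime f).out (qp v)]
    have := q6 v
    have := hr f
    omega
  rintro (i | i | i) (j | j | j) hij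
  · exact (hij rfl).elim
  · exact a1 j
  · exact a2 j
  · exact (a1 i).symm
  · apply Nat.Coprime.pow
    rw [Nat.coprime_primes (rr_prime i).out (rr_prime j).out]
    intro h
    apply hij
    revert h
    fin_cases i <;> fin_cases j <;> simp [rr]
  · exact a3 i j
  · exact (a2 i).symm
  · exact (a3 j i).symm
  · exact (Nat.coprime_primes (qp i) (qp j)).mpr (fun h => hij (by rw [qi h]))

lemma exists_par : Nonempty Par := by
  obtain ⟨enc, henc⟩ := Countable.exists_injective_nat Var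
  let q : Var → ℕ := fun v => Nat.nth Nat.Prime (6000 + enc v)
  have qp : ∀ v, (q v).Prime := fun v => Nat.prime_nth_prime _
  have q6 : ∀ v, 6000 ≤ q v := fun v =>
    le_trans (Nat.le_add_right _ _) ((Nat.nth_strictMono Nat.infinite_setOfPred_prime).le_apply)
  have qi : Function.Injective q := fun u v h =>
    henc (Nat.add_left_cancel ((Nat.nth_strictMono Nat.infinite_setOfPred_prime).injective h))
  have hu : ∀ (v : Var) (n : ℕ), 0 < n → n < 6000 → ∃ c : ZMod (q v), ((n ^ 2 : ℕ) : ZMod (q v)) * c = 1 := by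
    intro v n h0 hn
    have : Fact (q v).Prime := ⟨qp v⟩
    refine ⟨((n ^ 2 : ℕ) : ZMod (q v))⁻¹, mul_inv_cancel₀ ?_⟩
    rw [Ne, ZMod.natCast_eq_zero_iff]
    intro h
    have := Nat.le_of_dvd h0 ((qp v).dvd_of_dvd_pow h)
    have := q6 v
    omega
  choose c1 hc1 using fun v => hu v 210 (by norm_num) (by norm_num)
  choose c2 hc2 using fun v => hu v 105 (by norm_num) (by norm_num)
  choose m hm using fun i => crt_int (mods q 2) (mods_cop qp q6 qi 2) (Pi.single i 1)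
  obtain ⟨D, Dp, Dom⟩ := exists_digit
  refine ⟨⟨q, qp, q6, qi, c1, c2, fun v => by exact_mod_cast hc1 v, fun v => by exact_mod_cast hc2 v,
    m (Sum.inl ()), ?_, ?_, ?_, fun f => m (Sum.inr (Sum.inl f)), ?_, ?_, ?_, ?_, D, Dp, Dom⟩⟩
  · have := hm (Sum.inl ()) (Sum.inl ())
    rw [Pi.single_eq_same] at this
    exact this
  · intro f
    have := hm (Sum.inl ()) (Sum.inr (Sum.inl f))
    rw [Pi.single_eq_of_ne (by simp)] at this
    exact this
  · intro v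
    have := hm (Sum.inl ()) (Sum.inr (Sum.inr v))
    rw [Pi.single_eq_of_ne (by simp)] at this
    exact this
  · intro f
    have := hm (Sum.inr (Sum.inl f)) (Sum.inr (Sum.inl f))
    rw [Pi.single_eq_same] at this
    exact this
  · intro f f' hf
    have := hm (Sum.inr (Sum.inl f)) (Sum.inr (Sum.inl f'))
    rw [Pi.single_eq_of_ne (by simpa using hf.symm)] at this
    exact this
  · intro f
    have := hm (Sum.inr (Sum.inl f)) (Sum.inl ())
    rw [Pi.single_eq_of_ne (by simp)] at this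
    exact this
  · intro f v
    have := hm (Sum.inr (Sum.inl f)) (Sum.inr (Sum.inr v))
    rw [Pi.single_eq_of_ne (by simp)] at this
    exact this

/-- the even clocks -/
def p2 : Fin 2 → Gam →+ ZMod (2 ^ 2) :=
  ![AddMonoidHom.mk' (fun γ => (γ.1 : ZMod (2 ^ 2))) (by intros; simp),
    AddMonoidHom.mk' (fun γ => (γ.2.1 : ZMod (2 ^ 2)) + ((2 * γ.2.2.1.val : ℕ) : ZMod (2 ^ 2)))
      (by
        have : ∀ a b : ZMod 2, ((2 * (a + b).val : ℕ) : ZMod (2 ^ 2)) =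
          ((2 * a.val : ℕ) : ZMod (2 ^ 2)) + ((2 * b.val : ℕ) : ZMod (2 ^ 2)) := by decide
        intro a b
        simp only [Prod.snd_add, Prod.fst_add, this, Int.cast_add]
        ring)]

/-- the odd clocks -/
def pf (f : Fin 3) : Fin 3 → Gam →+ ZMod (rr f ^ 2) :=
  ![AddMonoidHom.mk' (fun γ => (γ.1 : ZMod (rr f ^ 2))) (by intros; simp),
    AddMonoidHom.mk' (fun γ => (γ.2.1 : ZMod (rr f ^ 2))) (by intros; simp),
    AddMonoidHom.mk' (fun γ => γ.2.2.2 f) (by intros; simp)]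

lemma p2_0 (γ : Gam) : p2 0 γ = (γ.1 : ZMod (2 ^ 2)) := rfl
lemma p2_1 (γ : Gam) :
    p2 1 γ = (γ.2.1 : ZMod (2 ^ 2)) + ((2 * γ.2.2.1.val : ℕ) : ZMod (2 ^ 2)) := rfl
lemma pf_0 (f : Fin 3) (γ : Gam) : pf f 0 γ = (γ.1 : ZMod (rr f ^ 2)) := rfl
lemma pf_1 (f : Fin 3) (γ : Gam) : pf f 1 γ = (γ.2.1 : ZMod (rr f ^ 2)) := rfl
lemma pf_2 (f : Fin 3) (γ : Gam) : pf f 2 γ = γ.2.2.2 f := rfl

/-- the three directions -/
def av : Fin 3 → Gam := ![(44100, 0, 0, 0), (0, 11025, 0, 0), (44100, -11025, 0, 0)]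

/-- torsion generators -/
def one (f : Fin 3) : Gam := (0, 0, 0, Pi.single f 1)

def Par.d2 (P : Par) : Gam := (P.e2, P.e2, 0, 0)
def Par.df (P : Par) (f : Fin 3) : Gam := (P.e f, P.e f, 0, Pi.single f 1)

lemma av_2 : av 2 = av 0 - av 1 := by simp [av]

lemma r11025 (f : Fin 3) : (11025 : ZMod (rr f ^ 2)) = 0 := by
  have : ((11025 : ℕ) : ZMod (rr f ^ 2)) = 0 := by
    rw [ZMod.natCast_eq_zero_iff]
    fin_cases f <;> simp [rr]
  exact_mod_cast this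

lemma r44100 (f : Fin 3) : (44100 : ZMod (rr f ^ 2)) = 0 := by
  have := r11025 f
  linear_combination 4 * this

lemma pf_av (f i k : Fin 3) : pf f i (av k) = 0 := by
  fin_cases i <;> fin_cases k <;> simp [pf_0, pf_1, pf_2, av, r11025, r44100]

lemma p2_av0 (k : Fin 3) : p2 0 (av k) = 0 := by
  rw [p2_0]
  fin_cases k <;> decide

lemma p2_av (i : Fin 2) : p2 i (av 0) = 0 := by
  fin_cases i
  · exact p2_av0 0
  · exact (p2_1 _).trans (by decide)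

lemma p2_d2 (P : Par) (i : Fin 2) : p2 i P.d2 = 1 := by
  fin_cases i
  · exact P.e21
  · refine (p2_1 _).trans ?_
    simp only [Par.d2, P.e21]
    decide

lemma pf_df (P : Par) (f i : Fin 3) : pf f i (P.df f) = 1 := by
  fin_cases i <;> simp [pf_0, pf_1, pf_2, Par.df, P.e1]

/-- behaviour of a variable along a line -/
def Line {P : Par} (β : Gam → P.V) (v : Var) (f : Fin 3) (δ : ℤ) (γ : Gam) : Prop :=
  ∀ n : ℤ, β (γ + n • av f) v = β γ v + n * δ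

/-- the conclusions of all tiling equations -/
structure Sol (P : Par) (h : Gam → Kk) (β : Gam → P.V) : Prop where
  top2 : ∀ i, IsTop (p2 i) (fun γ => (h γ).1 i)
  top : ∀ f i, IsTop (pf f i) (fun γ => (h γ).2 f i)
  invd2 : ∀ z γ, β (γ - P.d2) (vE2 z) = β γ (vE2 z)
  invd : ∀ f a b z γ, β (γ - P.df f) (vE f a b z) = β γ (vE f a b z)
  invZ : ∀ f σ γ, β (γ - one f) (vZ f σ) = β γ (vZ f σ)
  mk2 : ∀ z γ, (∀ j n : ℕ, β (γ - j • P.d2 - n • av 0) (vE2 z) = β γ (vE2 z)) →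
    Function.Injective (fun j : ZMod 2 => ∑ i, 1 * (h (γ - j.val • P.d2)).1 i + z * j)
  mkf : ∀ f a b z γ, (∀ j n : ℕ, β (γ - j • P.df f - n • av f) (vE f a b z) = β γ (vE f a b z)) →
    Function.Injective (fun j : ZMod (rr f) =>
      ∑ i, ![-a - b, a, b] i * (h (γ - j.val • P.df f)).2 f i + z * j)
  c1 : ∀ f γ, ∃ σ, Line β (vZ f σ) f 1 γ
  c2 : ∀ f σ γ, Line β (vZ f σ) f 0 γ ∨ Line β (vB f σ) f 1 γ ∨
    ∃ b z, b ≠ 0 ∧ Line β (vE f 0 b z) f 0 γ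
  c3 : ∀ f σ γ, Line β (vZ f σ) f 0 γ ∨ Line β (vB f σ) f 0 γ ∨
    ∃ a b z, a ≠ 0 ∧ Line β (vE f a b z) f 0 γ
  c4 : ∀ σ γ, Line β (vZ 0 σ) 0 0 γ ∨ Line β (vE2 (par σ)) 0 0 γ
  tor : ∀ σ : Fin 3 → Sg, ¬ OmS (σ 0) (σ 1) (σ 2) → ∀ γ, ∃ f,
    β (γ - one f) (vB f (σ f)) = β γ (vB f (σ f))

end Vale.Agent.P043
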