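import Vale.Agent.P043.Tile

/-! The disjunction tile and the marker tile. -/

namespace Vale.Agent.P043

open Classical

lemma exists_cycle (J : Type) [Finite J] [Nonempty J] :
    ∃ nx : J → J, ∀ a b, ∃ n : ℕ, nx^[n] a = b := by
  have := Fintype.ofFinite J
  have hc : NeZero (Fintype.card J) := ⟨Fintype.card_ne_zero⟩
  have e : J ≃ ZMod (Fintype.card J) := Fintype.equivOfCardEq (by simp)
  refine ⟨fun a => e.symm (e a + 1), fun a b => ?_⟩
  have h : ∀ n : ℕ, (fun a => e.symm (e a + 1))^[n] a = e.symm (e a + n) := by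
    intro n
    induction n with
    | zero => simp
    | succ n ih => rw [Function.iterate_succ_apply', ih]; simp [add_assoc]
  exact ⟨(e b - e a).val, by rw [h]; simp⟩

lemma cycle_fixed {J : Type} [Finite J] {nx : J → J} (hnx : ∀ a b, ∃ n : ℕ, nx^[n] a = b)
    (f : J → Bool → Bool) (n0 : J) (h0 : f n0 true = f n0 false) :
    ∃! ε : J → Bool, ∀ v, ε v = f (nx v) (ε (nx v)) := by
  let Ψ : (J → Bool) → (J → Bool) := fun ε v => xor (ε v) (f (nx v) (ε (nx v)))
  have hinj : Function.Injective Ψ := by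
    intro ε ε' hε
    have step : ∀ v, f (nx v) (ε (nx v)) = f (nx v) (ε' (nx v)) → ε v = ε' v := by
      intro v hv
      have := congrFun hε v
      simp only [Ψ, hv] at this
      revert this
      cases ε v <;> cases ε' v <;> simp
    obtain ⟨m, hm⟩ := hnx (nx n0) n0
    have hv0 : ε (nx^[m] n0) = ε' (nx^[m] n0) := by
      apply step
      have : nx (nx^[m] n0) = n0 := by
        rw [← Function.iterate_succ_apply' nx m n0, Function.iterate_succ_apply, hm]
      rw [this]
      cases ε n0 <;> cases ε' n0 <;> simp [h0]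
    have : ∀ (k : ℕ) (v : J), nx^[k] v = nx^[m] n0 → ε v = ε' v := by
      intro k
      induction k with
      | zero => intro v hv; simp only [Function.iterate_zero, id_eq] at hv; rw [hv]; exact hv0
      | succ k ih =>
        intro v hv
        apply step
        rw [ih (nx v) (by rw [← hv, Function.iterate_succ_apply])]
    funext v
    obtain ⟨k, hk⟩ := hnx v (nx^[m] n0)
    exact this k v hk
  have hiff : ∀ ε, Ψ ε = (fun _ => false) ↔ ∀ v, ε v = f (nx v) (ε (nx v)) := by
    intro ε
    rw [funext_iff]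
    apply forall_congr'
    intro v
    simp only [Ψ]
    cases ε v <;> cases f (nx v) (ε (nx v)) <;> simp
  obtain ⟨ε, hε⟩ := Finite.injective_iff_surjective.mp hinj (fun _ => false)
  exact ⟨ε, (hiff ε).mp hε, fun ε' h' => hinj (((hiff ε').mpr h').trans hε.symm)⟩

section
variable {Γ K : Type} [AddCommGroup Γ] {lift : K → Γ} [Finite K]

lemma FE.or {Var : Type} [Finite Var] {M : Var → Type} [∀ v, AddCommGroup (M v)]
    [∀ v, Finite (M v)] {A0 : Set (Γ × (∀ v, M v))} {h0 : Γ → K} {β0 : Γ → ∀ v, M v}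
    (R0 : Rp lift A0 h0 β0) (S : Set Var) (s : Var → Γ) (d : ∀ v, M v)
    (hinv : ∀ u ∈ S, ∀ v ∈ S, u ≠ v → ∀ γ, β0 (γ - s u) v = β0 γ v)
    (hs : ∀ γ, ∃ v ∈ S, β0 (γ - s v) v + d v = β0 γ v) :
    FE lift A0 (fun _ β => (∀ u ∈ S, ∀ v ∈ S, u ≠ v → ∀ γ, β (γ - s u) v = β γ v) →
      ∀ γ, ∃ v ∈ S, β (γ - s v) v + d v = β γ v) := by
  have hne : Nonempty S := by
    obtain ⟨v, hv, -⟩ := hs 0
    exact ⟨⟨v, hv⟩⟩
  have := Fintype.ofFinite S
  obtain ⟨nx, hnx⟩ := exists_cycle S
  let w : (S → Bool) → Γ := fun ε => ∑ j : S, if ε j then s j else 0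
  have hw : ∀ β : Γ → ∀ v, M v, (∀ u ∈ S, ∀ v ∈ S, u ≠ v → ∀ γ, β (γ - s u) v = β γ v) →
      ∀ (ε : S → Bool) (γ : Γ) (j : S),
        β (γ - w ε) j = β (γ - if ε j then s j else 0) j := by
    intro β hβ ε γ j
    have : ∀ (t : Finset S), j ∉ t → ∀ γ,
        β (γ - ∑ i ∈ t, if ε i then s i else 0) j = β γ j := by
      intro t
      induction t using Finset.induction_on with
      | empty => simp
      | insert i t hi ih =>
        intro hj γ
        rw [Finset.sum_insert hi, ← sub_sub, ih (fun h => hj (Finset.mem_insert_of_mem h))]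
        split_ifs
        · apply hβ i i.2 j j.2
          intro h
          exact hj (by rw [Subtype.ext h]; exact Finset.mem_insert_self _ _)
        · simp
    simp only [w]
    rw [← Finset.add_sum_erase _ _ (Finset.mem_univ j), ← sub_sub,
      this _ (Finset.notMem_erase j _)]
  refine (FE.tile R0 (P := S → Bool) w (fun ε _ e => ∀ j : S, ε j =
    decide (e (nx j) - (if ε (nx j) then d (nx j) else 0) = 0)) ?_).mono ?_
  · intro γ y
    obtain ⟨v, hv, hv'⟩ := hs γ
    have := cycle_fixed hnx (fun n b => decide (y n - β0 (γ - if b then s n else 0) n -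
      (if b then d n else 0) = 0)) ⟨v, hv⟩ (by
        simp only [if_true, Bool.false_eq_true, if_false, sub_zero]
        rw [← hv', sub_sub])
    simpa only [Pi.sub_apply, hw β0 hinv] using this
  · intro h β hh hβ γ
    by_contra hc
    push Not at hc
    obtain ⟨ε, -, hu⟩ := hh γ (fun v => β (γ - s v) v + d v)
    have e1 := hu (fun _ => true) (by
      intro j
      simp only [Pi.sub_apply, hw β hβ]
      simp)
    have e2 := hu (fun _ => false) (by
      intro j
      simp only [Pi.sub_apply, hw β hβ]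
      have := hc (nx j) (nx j).2
      simp [sub_eq_zero, this])
    have := congrFun (e1.trans e2.symm) (Classical.arbitrary S)
    simp at this

lemma FE.inv {Var : Type} [Finite Var] {M : Var → Type} [∀ v, AddCommGroup (M v)]
    [∀ v, Finite (M v)] {A0 : Set (Γ × (∀ v, M v))} {h0 : Γ → K} {β0 : Γ → ∀ v, M v}
    (R0 : Rp lift A0 h0 β0) (v : Var) (w : Γ) (hs : ∀ γ, β0 (γ - w) v = β0 γ v) :
    FE lift A0 (fun _ β => ∀ γ, β (γ - w) v = β γ v) := by
  refine (FE.or R0 {v} (fun _ => w) 0 ?_ ?_).mono ?_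
  · intro a ha b hb hab
    exact (hab (ha.trans hb.symm)).elim
  · intro γ
    exact ⟨v, rfl, by simp [hs]⟩
  · intro h β hh γ
    obtain ⟨u, hu, h1⟩ := hh (fun a ha b hb hab => (hab (ha.trans hb.symm)).elim) γ
    rw [Set.mem_singleton_iff] at hu
    subst hu
    simpa using h1

lemma FE.marker {V : Type} [AddCommGroup V] [Finite V] {A0 : Set (Γ × V)} {h0 : Γ → K}
    {β0 : Γ → V} (R0 : Rp lift A0 h0 β0) {r q : ℕ} [NeZero r] [NeZero q] (hrq : r ≤ q)
    (η : V →+ ZMod q) (hη : Function.Surjective η) (ℓ : K → ZMod r) (z : ZMod r) (d c : Γ)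
    (ha : ∀ γ (n : ℕ), ℓ (h0 (γ - n • c)) = ℓ (h0 γ))
    (hb : ∀ γ, ((∀ j n : ℕ, η (β0 (γ - j • d - n • c)) = η (β0 γ)) ∧
        Function.Injective (fun j : ZMod r => ℓ (h0 (γ - j.val • d)) + z * j)) ∨
      (∀ j n : ℕ, η (β0 (γ - j • d - n • c)) = η (β0 γ) - n)) :
    FE lift A0 (fun h β => (∀ γ (n : ℕ), ℓ (h (γ - n • c)) = ℓ (h γ)) →
      ∀ γ, (∀ j n : ℕ, η (β (γ - j • d - n • c)) = η (β γ)) →
        Function.Injective (fun j : ZMod r => ℓ (h (γ - j.val • d)) + z * j)) := by
  let ι : ZMod r → ZMod q := fun j => (j.val : ZMod q)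
  have hι : ∀ j, (ι j).val = j.val := fun j =>
    ZMod.val_cast_of_lt (lt_of_lt_of_le (ZMod.val_lt j) hrq)
  have hιlt : ∀ j, (ι j).val < r := fun j => by rw [hι]; exact ZMod.val_lt j
  have hιinj : Function.Injective ι := fun j j' h =>
    ZMod.val_injective _ (by rw [← hι, h, hι])
  have hιk : ∀ k : ZMod q, k.val < r → ι (k.val : ZMod r) = k := by
    intro k hk
    simp only [ι]
    rw [ZMod.val_cast_of_lt hk, ZMod.natCast_zmod_val]
  let jj : ZMod q → ℕ := fun k => if k.val < r then k.val else 0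
  let w : ZMod q × ZMod q → Γ := fun p => jj p.1 • d + (p.2 - p.1).val • c
  refine (FE.tile R0 (P := ZMod q × ZMod q) w (fun p k e => η e = p.2 ∧
    p.2 = if p.1.val < r then ι (ℓ k + z * (p.1.val : ZMod r)) else p.1) ?_).mono ?_
  · intro γ y
    simp only [w, ← sub_sub, ha, map_sub]
    rcases hb γ with ⟨h1, h2⟩ | h1
    · simp only [h1]
      set ρ := η y - η (β0 γ) with hρ
      by_cases hr : ρ.val < r
      · obtain ⟨j, hj⟩ := Finite.injective_iff_surjective.mp h2 (ρ.val : ZMod r)
        refine ⟨(ι j, ρ), ⟨rfl, ?_⟩, ?_⟩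
        · simp only [jj, if_true, hι, ZMod.val_lt, ZMod.natCast_zmod_val]
          simp only at hj
          rw [hj, hιk _ hr]
        · rintro ⟨k, ρ'⟩ ⟨e1, e2⟩
          simp only at e1 e2
          subst e1
          by_cases hk : k.val < r
          · simp only [jj, hk, if_true] at e2
            have : (k.val : ZMod r) = j := by
              apply h2
              simp only
              simp only at hj
              rw [hj, ZMod.val_cast_of_lt hk]
              apply hιinj
              rw [← e2, hιk _ hr]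
            rw [← this, hιk _ hk]
          · simp only [hk, if_false] at e2
            rw [e2] at hr
            exact (hk hr).elim
      · refine ⟨(ρ, ρ), ⟨rfl, by simp [hr]⟩, ?_⟩
        rintro ⟨k, ρ'⟩ ⟨e1, e2⟩
        simp only at e1 e2
        subst e1
        by_cases hk : k.val < r
        · simp only [hk, if_true] at e2
          rw [e2] at hr
          exact (hr (hιlt _)).elim
        · simp only [hk, if_false] at e2
          rw [e2]
    · simp only [h1, ZMod.natCast_zmod_val]
      set k0 := η y - η (β0 γ) with hk0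
      refine ⟨(k0, if k0.val < r then ι (ℓ (h0 (γ - jj k0 • d)) + z * (k0.val : ZMod r)) else k0),
        ⟨by simp only [hk0]; ring, rfl⟩, ?_⟩
      rintro ⟨k, ρ'⟩ ⟨e1, e2⟩
      simp only at e1 e2
      have : k = k0 := by rw [hk0]; linear_combination -e1
      subst this
      rw [e2]
  · intro h β hh h1 γ h2 j j' hjj
    simp only at hjj
    obtain ⟨y, hy⟩ := hη (η (β γ) + ι (ℓ (h (γ - j.val • d)) + z * j))
    obtain ⟨p, -, hu⟩ := hh γ y
    simp only [w, ← sub_sub, h1, map_sub, h2, hy] at hu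
    have e1 := hu (ι j, ι (ℓ (h (γ - j.val • d)) + z * j)) ⟨by simp, by
      simp only [jj, hι, ZMod.val_lt, if_true, ZMod.natCast_zmod_val]⟩
    have e2 := hu (ι j', ι (ℓ (h (γ - j.val • d)) + z * j)) ⟨by simp, by
      simp only [jj, hι, ZMod.val_lt, if_true, ZMod.natCast_zmod_val, hjj]⟩
    exact hιinj (congrArg Prod.fst (e1.trans e2.symm))

end

end Vale.Agent.P043
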