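import Mathlib

/-! Uniform probability on a finite type. -/

namespace Vale.Agent.P043

open Classical

/-- uniform probability of a predicate on a finite type -/
noncomputable def pr {α : Type*} [Fintype α] (S : α → Prop) : ℝ :=
  (∑ x, if S x then (1 : ℝ) else 0) / Fintype.card α

section
variable {α β : Type*} [Fintype α] [Fintype β]

lemma pr_nonneg (S : α → Prop) : 0 ≤ pr S := by
  unfold pr
  apply div_nonneg
  · exact Finset.sum_nonneg (fun x _ => by split_ifs <;> norm_num)
  · positivity

lemma pr_mono {S T : α → Prop} (h : ∀ x, S x → T x) : pr S ≤ pr T := by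
  unfold pr
  apply div_le_div_of_nonneg_right _ (by positivity)
  apply Finset.sum_le_sum
  intro x _
  by_cases hs : S x
  · simp [hs, h x hs]
  · simp only [hs, if_false]; split_ifs <;> norm_num

lemma pr_le_add {S A B : α → Prop} (h : ∀ x, S x → A x ∨ B x) : pr S ≤ pr A + pr B := by
  unfold pr
  rw [← add_div, ← Finset.sum_add_distrib]
  apply div_le_div_of_nonneg_right _ (by positivity)
  apply Finset.sum_le_sum
  intro x _
  by_cases hs : S x
  · rcases h x hs with h1 | h1
    · simp only [hs, h1, if_true]; split_ifs <;> norm_num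
    · simp only [hs, h1, if_true]; split_ifs <;> norm_num
  · simp only [hs, if_false]; split_ifs <;> norm_num

lemma pr_le_add3 {S A B C : α → Prop} (h : ∀ x, S x → A x ∨ B x ∨ C x) :
    pr S ≤ pr A + pr B + pr C := by
  have h1 := pr_le_add h
  have h2 : pr (fun x => B x ∨ C x) ≤ pr B + pr C := pr_le_add (fun x hx => hx)
  linarith

lemma pr_le_add4 {S A B C D : α → Prop} (h : ∀ x, S x → A x ∨ B x ∨ C x ∨ D x) :
    pr S ≤ pr A + pr B + pr C + pr D := by
  have h1 := pr_le_add h
  have h2 : pr (fun x => B x ∨ C x ∨ D x) ≤ pr B + pr C + pr D := pr_le_add3 (fun x hx => hx)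
  linarith

lemma pr_true [Nonempty α] : pr (fun _ : α => True) = 1 := by
  unfold pr
  have : (0 : ℝ) < Fintype.card α := by exact_mod_cast Fintype.card_pos
  simp only [if_true, Finset.sum_const, Finset.card_univ, nsmul_eq_mul, mul_one]
  exact div_self this.ne'

lemma exists_not_of_pr_lt_one [Nonempty α] {S : α → Prop} (h : pr S < 1) : ∃ x, ¬ S x := by
  by_contra hc
  push Not at hc
  have := pr_mono (S := fun _ : α => True) (T := S) (fun x _ => hc x)
  rw [pr_true] at this
  linarith

lemma pr_equiv (e : α ≃ β) (S : β → Prop) : pr (fun x => S (e x)) = pr S := by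
  unfold pr
  rw [Fintype.card_congr e]
  congr 1
  exact Equiv.sum_comp e (fun y => if S y then (1 : ℝ) else 0)

lemma pr_prod (S : α → β → Prop) :
    pr (fun p : α × β => S p.1 p.2) = (∑ a, pr (S a)) / Fintype.card α := by
  unfold pr
  rw [Fintype.sum_prod_type, Fintype.card_prod, ← Finset.sum_div, div_div]
  push_cast
  rw [mul_comm]

lemma pr_swap (S : α → β → Prop) :
    pr (fun p : α × β => S p.1 p.2) = pr (fun p : β × α => S p.2 p.1) := by
  rw [← pr_equiv (Equiv.prodComm α β)]
  rfl

lemma pr_prod_le [Nonempty α] {S : α → β → Prop} {c : ℝ} (h : ∀ a, pr (S a) ≤ c) :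
    pr (fun p : α × β => S p.1 p.2) ≤ c := by
  rw [pr_prod]
  have hc : (0 : ℝ) < Fintype.card α := by exact_mod_cast Fintype.card_pos
  rw [div_le_iff₀ hc]
  calc ∑ a, pr (S a) ≤ ∑ _a : α, c := Finset.sum_le_sum (fun a _ => h a)
    _ = c * Fintype.card α := by simp [mul_comm]

lemma exists_pr_le [Nonempty α] (S : α → β → Prop) :
    ∃ a, pr (S a) ≤ pr (fun p : α × β => S p.1 p.2) := by
  by_contra hc
  push Not at hc
  rw [pr_prod] at hc
  have hca : (0 : ℝ) < Fintype.card α := by exact_mod_cast Fintype.card_pos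
  have : ∑ _a : α, (∑ a, pr (S a)) / Fintype.card α < ∑ a, pr (S a) :=
    Finset.sum_lt_sum_of_nonempty Finset.univ_nonempty (fun a _ => hc a)
  simp only [Finset.sum_const, Finset.card_univ, nsmul_eq_mul] at this
  rw [mul_div_cancel₀ _ hca.ne'] at this
  exact lt_irrefl _ this

lemma pr_fst [Nonempty β] (S : α → Prop) : pr (fun p : α × β => S p.1) = pr S := by
  rw [pr_prod (fun a (_ : β) => S a)]
  unfold pr
  congr 1
  apply Finset.sum_congr rfl
  intro a _
  have hc : (0 : ℝ) < Fintype.card β := by exact_mod_cast Fintype.card_pos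
  split_ifs
  · simp
  · simp

lemma pr_snd [Nonempty α] (S : β → Prop) : pr (fun p : α × β => S p.2) = pr S := by
  rw [pr_swap (fun (_ : α) b => S b)]
  exact pr_fst S

lemma pr_markov (S : α → β → Prop) :
    pr (fun a => 1 / 2 < pr (S a)) ≤ 2 * pr (fun p : α × β => S p.1 p.2) := by
  rw [pr_prod, ← mul_div_assoc, Finset.mul_sum]
  unfold pr
  apply div_le_div_of_nonneg_right _ (by positivity)
  apply Finset.sum_le_sum
  intro a _
  have := pr_nonneg (S a)
  unfold pr at this
  split_ifs with h
  · linarith
  · linarith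

lemma pr_eq_card (S : α → Prop) :
    pr S = ((Finset.univ.filter S).card : ℝ) / Fintype.card α := by
  unfold pr
  congr 1
  rw [Finset.sum_boole]

lemma pr_comp_le (f : α → α) (k : ℕ)
    (hf : ∀ y, (Finset.univ.filter (fun x => f x = y)).card ≤ k) (S : α → Prop) :
    pr (fun x => S (f x)) ≤ k * pr S := by
  rw [pr_eq_card, pr_eq_card, ← mul_div_assoc]
  apply div_le_div_of_nonneg_right _ (by positivity)
  have : (Finset.univ.filter (fun x => S (f x))).card ≤ k * (Finset.univ.filter S).card := by
    apply Finset.card_le_mul_card_image_of_maps_to (f := f)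
    · intro a ha
      simp only [Finset.mem_filter, Finset.mem_univ, true_and] at ha ⊢
      exact ha
    · intro b _
      refine le_trans (Finset.card_le_card ?_) (hf b)
      intro x hx
      simp only [Finset.mem_filter, Finset.mem_univ, true_and] at hx ⊢
      exact hx.2
  exact_mod_cast this

end

section
variable {G H : Type*} [AddCommGroup G] [AddCommGroup H] [Fintype G] [Fintype H]

lemma pr_add_left (c : G) (S : G → Prop) : pr (fun x => S (c + x)) = pr S :=
  pr_equiv (Equiv.addLeft c) S

lemma pr_add_right (c : G) (S : G → Prop) : pr (fun x => S (x + c)) = pr S :=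
  pr_equiv (Equiv.addRight c) S

lemma pr_sub_left (c : G) (S : G → Prop) : pr (fun x => S (c - x)) = pr S :=
  pr_equiv (Equiv.subLeft c) S

lemma pr_hom (θ : G →+ H) (hθ : Function.Surjective θ) (S : H → Prop) :
    pr (fun x => S (θ x)) = pr S := by
  have h1 : ∀ g : G, pr (fun y : H => S (y + θ g)) = pr S := fun g => pr_add_right _ S
  have h2 : ∀ y : H, pr (fun g : G => S (y + θ g)) = pr (fun x => S (θ x)) := by
    intro y
    obtain ⟨g0, rfl⟩ := hθ y
    rw [← pr_add_left g0 (fun x => S (θ x))]
    simp only [map_add]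
  have hG : (0 : ℝ) < Fintype.card G := by exact_mod_cast Fintype.card_pos
  have hH : (0 : ℝ) < Fintype.card H := by exact_mod_cast Fintype.card_pos
  have e1 := pr_prod (fun (g : G) (y : H) => S (y + θ g))
  have e2 := pr_prod (fun (y : H) (g : G) => S (y + θ g))
  rw [pr_swap (fun (g : G) (y : H) => S (y + θ g))] at e1
  rw [e1] at e2
  simp only [h1, h2, Finset.sum_const, Finset.card_univ, nsmul_eq_mul] at e2
  rw [mul_div_cancel_left₀ _ hG.ne', mul_div_cancel_left₀ _ hH.ne'] at e2
  exact e2.symm

/-- change of variables `(u,w) ↦ (u, -u-w)` -/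
lemma pr_shear (S : G → G → Prop) :
    pr (fun p : G × G => S p.1 (-p.1 - p.2)) = pr (fun p : G × G => S p.1 p.2) := by
  rw [pr_prod (fun u w => S u (-u - w)), pr_prod]
  congr 1
  apply Finset.sum_congr rfl
  intro u _
  exact pr_sub_left (-u) (S u)

/-- change of variables `(u,w) ↦ (-u-w, w)` -/
lemma pr_shear' (S : G → G → Prop) :
    pr (fun p : G × G => S (-p.1 - p.2) p.2) = pr (fun p : G × G => S p.1 p.2) := by
  rw [pr_swap (fun u w => S (-u - w) w), pr_swap S, ← pr_shear (fun w u => S u w)]
  congr 1
  funext p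
  have : -p.2 - p.1 = -p.1 - p.2 := by abel
  simp only [this]

end

lemma pr_single {α : Type*} [Fintype α] (c : α) : pr (fun x => x = c) = 1 / Fintype.card α := by
  unfold pr
  congr 1
  simp

end Vale.Agent.P043
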