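import Vale.Agent.P043.Stack

/-! The Euclidean tile. -/

namespace Vale.Agent.P043

open Classical MeasureTheory

section
variable {d : ℕ}

/-- componentwise floor -/
noncomputable def fl (x : Fin d → ℝ) : Fin d → ℤ := fun k => ⌊x k⌋

/-- integer vectors as real vectors -/
def cs (n : Fin d → ℤ) : Fin d → ℝ := fun k => (n k : ℝ)

lemma fl_add_cs (x : Fin d → ℝ) (n : Fin d → ℤ) : fl (x + cs n) = fl x + n := by
  funext k; simp [fl, cs]

lemma fl_sub_cs (x : Fin d → ℝ) (n : Fin d → ℤ) : fl (x - cs n) = fl x - n := by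
  funext k; simp [fl, cs]

/-- the union of unit cubes -/
def Om' (F : Finset (Fin d → ℤ)) : Set (Fin d → ℝ) := {x | fl x ∈ F}

lemma mem_img (Ω : Set (Fin d → ℝ)) (a x : Fin d → ℝ) :
    x ∈ (fun y => y + a) '' Ω ↔ x - a ∈ Ω := by
  constructor
  · rintro ⟨y, hy, rfl⟩; simpa using hy
  · intro h; exact ⟨x - a, h, by simp⟩

lemma Om'_meas (F : Finset (Fin d → ℤ)) : MeasurableSet (Om' F) := by
  have : Measurable (fl : (Fin d → ℝ) → Fin d → ℤ) :=
    measurable_pi_lambda _ (fun k => Int.measurable_floor.comp (measurable_pi_apply k))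
  exact this (F.finite_toSet.measurableSet)

lemma Om'_bdd (F : Finset (Fin d → ℤ)) : Bornology.IsBounded (Om' F) := by
  have : Om' F ⊆ ⋃ f ∈ (F : Set (Fin d → ℤ)), Metric.closedBall (cs f) 1 := by
    intro x hx
    simp only [Set.mem_iUnion]
    refine ⟨fl x, hx, ?_⟩
    rw [Metric.mem_closedBall, dist_pi_le_iff (by norm_num)]
    intro k
    rw [Real.dist_eq, abs_le]
    have h1 := Int.floor_le (x k)
    have h2 := Int.lt_floor_add_one (x k)
    simp only [cs, fl]
    constructor <;> linarith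
  exact ((Bornology.isBounded_biUnion F.finite_toSet).mpr
    (fun f _ => Metric.isBounded_closedBall)).subset this

lemma box_pos (l u : Fin d → ℝ) (h : ∀ k, l k < u k) :
    0 < volume (Set.pi Set.univ (fun k => Set.Ioo (l k) (u k))) := by
  apply IsOpen.measure_pos
  · exact isOpen_set_pi Set.finite_univ (fun k _ => isOpen_Ioo)
  · exact Set.univ_pi_nonempty_iff.mpr (fun k => Set.nonempty_Ioo.mpr (h k))

lemma Om'_pos {F : Finset (Fin d → ℤ)} {f : Fin d → ℤ} (hf : f ∈ F) : 0 < volume (Om' F) := by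
  refine lt_of_lt_of_le (box_pos (cs f) (fun k => cs f k + 1) (fun k => by simp))
    (measure_mono ?_)
  intro x hx
  have : fl x = f := by
    funext k
    have := hx k trivial
    exact Int.floor_eq_iff.mpr ⟨this.1.le, this.2⟩
  show fl x ∈ F
  rw [this]; exact hf

lemma real_tiling {F : Finset (Fin d → ℤ)} {A : Set (Fin d → ℤ)} (h : T A F) :
    volume (⋃ a ∈ cs '' A, (fun y => y + a) '' Om' F)ᶜ = 0 ∧
      ∀ a ∈ cs '' A, ∀ b ∈ cs '' A, a ≠ b →
        volume ((fun y => y + a) '' Om' F ∩ (fun y => y + b) '' Om' F) = 0 := by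
  constructor
  · convert measure_empty (μ := (volume : Measure (Fin d → ℝ)))
    rw [Set.compl_empty_iff, Set.eq_univ_iff_forall]
    intro x
    obtain ⟨f, ⟨hf, hA⟩, -⟩ := h (fl x)
    simp only [Set.mem_iUnion, mem_img]
    refine ⟨_, ⟨_, hA, rfl⟩, ?_⟩
    show fl _ ∈ F
    rw [fl_sub_cs]; simpa using hf
  · rintro _ ⟨a, ha, rfl⟩ _ ⟨b, hb, rfl⟩ hab
    convert measure_empty (μ := (volume : Measure (Fin d → ℝ)))
    rw [Set.eq_empty_iff_forall_notMem]
    rintro x ⟨h1, h2⟩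
    rw [mem_img] at h1 h2
    have h1' : fl x - a ∈ F := by rw [← fl_sub_cs]; exact h1
    have h2' : fl x - b ∈ F := by rw [← fl_sub_cs]; exact h2
    obtain ⟨f, -, hu⟩ := h (fl x)
    have e1 := hu _ ⟨h1', by simpa using ha⟩
    have e2 := hu _ ⟨h2', by simpa using hb⟩
    exact hab (by rw [sub_right_injective (e1.trans e2.symm)])

lemma real_generic {F : Finset (Fin d → ℤ)} {f1 : Fin d → ℤ} (hf1 : f1 ∈ F)
    {A : Set (Fin d → ℝ)} (h1 : volume (⋃ a ∈ A, (fun y => y + a) '' Om' F)ᶜ = 0)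
    (h2 : ∀ a ∈ A, ∀ b ∈ A, a ≠ b →
      volume ((fun y => y + a) '' Om' F ∩ (fun y => y + b) '' Om' F) = 0) :
    ∀ᵐ x : Fin d → ℝ, T ((fun a => -fl (x - a)) '' A) F := by
  have hc : A.Countable := by
    apply Set.MapsTo.countable_of_injOn (f := fl) (t := Set.univ) (Set.mapsTo_univ _ _) _
      Set.countable_univ
    intro a ha b hb hab
    by_contra hne
    have := box_pos (fun k => cs f1 k + max (a k) (b k)) (fun k => cs f1 k + min (a k) (b k) + 1)
      (by
        intro k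
        have e : ⌊a k⌋ = ⌊b k⌋ := congrFun hab k
        have := Int.floor_le (a k)
        have := Int.lt_floor_add_one (a k)
        have := Int.floor_le (b k)
        have := Int.lt_floor_add_one (b k)
        rw [e] at *
        rcases le_total (a k) (b k) with h | h
        · rw [max_eq_right h, min_eq_left h]; linarith
        · rw [max_eq_left h, min_eq_right h]; linarith)
    refine this.ne' (measure_mono_null ?_ (h2 a ha b hb hne))
    intro x hx
    have key : ∀ c : Fin d → ℝ, (∀ k, min (a k) (b k) ≤ c k ∧ c k ≤ max (a k) (b k)) →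
        x ∈ (fun y => y + c) '' Om' F := by
      intro c hc
      rw [mem_img]
      have : fl (x - c) = f1 := by
        funext k
        have h3 := hx k trivial
        have h4 := hc k
        simp only [cs, Set.mem_Ioo] at h3
        refine Int.floor_eq_iff.mpr ⟨?_, ?_⟩ <;> simp only [Pi.sub_apply] <;> linarith [h3.1, h3.2]
      show fl _ ∈ F
      rw [this]; exact hf1
    exact ⟨key a (fun k => ⟨min_le_left _ _, le_max_left _ _⟩),
      key b (fun k => ⟨min_le_right _ _, le_max_right _ _⟩)⟩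
  have g1 : ∀ᵐ x : Fin d → ℝ, ∃ a ∈ A, x - a ∈ Om' F := by
    rw [ae_iff]
    refine measure_mono_null ?_ h1
    intro x hx
    simp only [Set.mem_compl_iff, Set.mem_iUnion, mem_img]
    rintro ⟨a, ha, h⟩
    exact hx ⟨a, ha, h⟩
  have g2 : ∀ᵐ x : Fin d → ℝ, ∀ a ∈ A, ∀ b ∈ A, x - a ∈ Om' F → x - b ∈ Om' F → a = b := by
    rw [ae_ball_iff hc]
    intro a ha
    rw [ae_ball_iff hc]
    intro b hb
    by_cases hab : a = b
    · exact Filter.Eventually.of_forall (fun _ _ _ => hab)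
    · rw [ae_iff]
      refine measure_mono_null ?_ (h2 a ha b hb hab)
      intro x hx
      simp only [Set.mem_ofPred_eq, not_forall] at hx
      obtain ⟨e1, e2, -⟩ := hx
      exact ⟨(mem_img _ _ _).mpr e1, (mem_img _ _ _).mpr e2⟩
  have g3 := ae_all_iff.mpr (fun n : Fin d → ℤ =>
    (measurePreserving_add_right volume (cs n)).quasiMeasurePreserving.ae (g1.and g2))
  filter_upwards [g3] with x hx g
  obtain ⟨⟨a, ha, hΩ⟩, hu⟩ := hx g
  have e : ∀ a, fl (x + cs g - a) = g - -fl (x - a) := by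
    intro a
    rw [add_sub_right_comm, fl_add_cs]; abel
  refine ⟨fl (x + cs g - a), ⟨hΩ, a, ha, by rw [e]; simp⟩, ?_⟩
  rintro f ⟨hf, b, hb, hb'⟩
  have e2 : fl (x + cs g - b) = f := by
    simp only at hb'
    rw [e, hb']; abel
  rw [hu a ha b hb hΩ (by show fl _ ∈ F; rw [e2]; exact hf), e2]

lemma real_integral {A : Set (Fin d → ℝ)}
    (h : ∀ᵐ x : Fin d → ℝ, Rig ((fun a => -fl (x - a)) '' A)) {a b : Fin d → ℝ} (ha : a ∈ A)
    (hb : b ∈ A) (k : Fin d) : ∃ n : ℤ, a k - b k = n := by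
  by_contra hc
  push Not at hc
  set δ := a k - b k with hδ
  have f0 : (⌊δ⌋ : ℝ) < δ := lt_of_le_of_ne (Int.floor_le δ) (hc _).symm
  have f1 := Int.lt_floor_add_one δ
  have hd := Measure.dense_of_ae h
  have key : ∀ l u : ℝ, l < u → ∃ t, l < t ∧ t < u ∧ (2 : ℤ) ∣ ⌊t + δ⌋ - ⌊t⌋ := by
    intro l u hlu
    obtain ⟨x, hx1, hx2⟩ := hd.inter_open_nonempty {x | x k - a k ∈ Set.Ioo l u}
      (isOpen_Ioo.preimage (by fun_prop)) ⟨fun _ => a k + (l + u) / 2, by
        simp only [Set.mem_ofPred_eq, Set.mem_Ioo]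
        constructor <;> linarith⟩
    refine ⟨x k - a k, hx1.1, hx1.2, ?_⟩
    have := hx2 _ ⟨a, ha, rfl⟩ _ ⟨b, hb, rfl⟩ k
    simp only [Pi.neg_apply, fl, Pi.sub_apply] at this
    have e : x k - a k + δ = x k - b k := by rw [hδ]; ring
    rw [e]
    omega
  obtain ⟨t, t1, t2, t3⟩ := key 0 (⌊δ⌋ + 1 - δ) (by linarith)
  obtain ⟨s, s1, s2, s3⟩ := key (⌊δ⌋ + 1 - δ) 1 (by linarith)
  have e1 : ⌊t⌋ = 0 := Int.floor_eq_iff.mpr ⟨by simp; linarith, by simp; linarith⟩
  have e2 : ⌊t + δ⌋ = ⌊δ⌋ := Int.floor_eq_iff.mpr ⟨by linarith, by linarith⟩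
  have e3 : ⌊s⌋ = 0 := Int.floor_eq_iff.mpr ⟨by simp; linarith, by simp; linarith⟩
  have e4 : ⌊s + δ⌋ = ⌊δ⌋ + 1 := Int.floor_eq_iff.mpr ⟨by push_cast; linarith, by push_cast; linarith⟩
  omega

lemma lattice_int (M : Matrix (Fin d) (Fin d) ℤ) (h : LinearIndependent ℝ (fun i => cs (M i))) :
    ∃ P : ℕ, 0 < P ∧ ∀ g : Fin d → ℤ,
      cs (P • g) ∈ Submodule.span ℤ (Set.range (fun i => cs (M i))) := by
  have h1 : IsUnit (M.map (Int.cast : ℤ → ℝ)) := Matrix.linearIndependent_rows_iff_isUnit.mp h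
  have h2 : M.det ≠ 0 := by
    intro h0
    rw [Matrix.isUnit_iff_isUnit_det, ← Int.cast_det, h0] at h1
    simp at h1
  refine ⟨M.det.natAbs ^ 2, by positivity, fun g => ?_⟩
  let c : Fin d → ℤ := M.det • Matrix.vecMul g M.adjugate
  have h3 : Matrix.vecMul c M = (M.det.natAbs ^ 2) • g := by
    simp only [c]
    rw [Matrix.smul_vecMul, Matrix.vecMul_vecMul, Matrix.adjugate_mul, Matrix.vecMul_smul,
      Matrix.vecMul_one, smul_smul, ← natCast_zsmul]
    congr 1
    push_cast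
    rw [sq_abs]; ring
  rw [← h3, Submodule.mem_span_range_iff_exists_fun]
  refine ⟨c, ?_⟩
  funext k
  simp [cs, Matrix.vecMul, dotProduct]

theorem real_aperiodic {F : Finset (Fin d → ℤ)} {f1 : Fin d → ℤ} (hf1 : f1 ∈ F)
    (hF : ∀ A, T A F → ¬ Per A ∧ Rig A)
    {A : Set (Fin d → ℝ)} (h1 : volume (⋃ a ∈ A, (fun y => y + a) '' Om' F)ᶜ = 0)
    (h2 : ∀ a ∈ A, ∀ b ∈ A, a ≠ b →
      volume ((fun y => y + a) '' Om' F ∩ (fun y => y + b) '' Om' F) = 0)
    (v : Fin d → Fin d → ℝ) (hv : LinearIndependent ℝ v)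
    (hA : ∀ h ∈ Submodule.span ℤ (Set.range v), (fun a => a + h) '' A = A) : False := by
  have g := real_generic hf1 h1 h2
  obtain ⟨x, hx⟩ := g.exists
  obtain ⟨f, ⟨-, a0, ha0, -⟩, -⟩ := hx 0
  have hadd : ∀ h ∈ Submodule.span ℤ (Set.range v), ∀ a ∈ A, a + h ∈ A := by
    intro h hh a ha
    rw [← hA h hh]
    exact ⟨a, ha, rfl⟩
  have hint : ∀ i k, ∃ n : ℤ, v i k = n := by
    intro i k
    have := real_integral (g.mono (fun x hx => (hF _ hx).2))
      (hadd (v i) (Submodule.subset_span ⟨i, rfl⟩) a0 ha0) ha0 k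
    simpa using this
  choose M hM using hint
  have hvM : v = fun i => cs (M i) := by
    funext i k; exact hM i k
  subst hvM
  obtain ⟨P, hP, hper⟩ := lattice_int M hv
  refine (hF _ hx).1 ⟨P, hP, ?_⟩
  rintro g _ ⟨a, ha, rfl⟩
  refine ⟨a + cs (P • g), hadd _ (hper g) a ha, ?_⟩
  simp only
  rw [← sub_sub, fl_sub_cs]; abel

end

end Vale.Agent.P043
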