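import Vale.Agent.P043.Model

/-! Every solution is aperiodic. -/

namespace Vale.Agent.P043

open Classical

/-- reduction to the lower digit -/
def red (r : ℕ) : ZMod (r ^ 2) →+* ZMod r := ZMod.castHom (dvd_pow_self r two_ne_zero) _

lemma val_red {r : ℕ} [NeZero r] (y : ZMod (r ^ 2)) : ((y.val : ℕ) : ZMod r) = red r y := by
  simp [red]

lemma inv_nsmul {Γ : Type} [AddCommGroup Γ] {α : Type*} {F : Γ → α} {w : Γ}
    (h : ∀ γ, F (γ - w) = F γ) (n : ℕ) (γ : Γ) : F (γ - n • w) = F γ := by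
  have := inv_zsmul h (-(n : ℤ)) γ
  rwa [neg_smul, natCast_zsmul, ← sub_eq_add_neg] at this

variable {P : Par} {h : Gam → Kk} {β : Gam → P.V}

lemma Line.shift {v : Var} {f : Fin 3} {δ : ℤ} {γ : Gam} (hl : Line β v f δ γ) (m : ℤ) :
    Line β v f δ (γ + m • av f) := by
  intro n
  rw [add_assoc, ← add_smul, hl, hl]
  push_cast; ring

lemma Line.excl {v : Var} {f : Fin 3} {γ : Gam} (h0 : Line β v f 0 γ) (h1 : Line β v f 1 γ) :
    False := by
  have := (h0 1).symm.trans (h1 1)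
  simp at this

lemma Line.const {v : Var} {f : Fin 3} {γ d : Gam} (h0 : Line β v f 0 γ)
    (hd : ∀ γ, β (γ - d) v = β γ v) (j n : ℕ) : β (γ - j • d - n • av f) v = β γ v := by
  rw [sub_right_comm, inv_nsmul (F := fun γ => β γ v) hd]
  have := h0 (-(n : ℤ))
  rw [neg_smul, natCast_zsmul, ← sub_eq_add_neg] at this
  simpa using this

lemma Sol.even (S : Sol P h β) : ∃ c : ZMod 2, ∀ z γ, Line β (vE2 z) 0 0 γ →
    z = (γ.1 : ZMod 2) + (γ.2.1 : ZMod 2) + c := by
  obtain ⟨c, hc⟩ := pass_sound p2 _ S.top2 (p2_d2 P)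
  refine ⟨c 0 + c 1 + 1, fun z γ hl => ?_⟩
  have := hc (fun _ => 1) z γ (S.mk2 z γ (hl.const (S.invd2 z)))
  have hs : ∑ j : ZMod 2, j = 1 := by decide
  have h2 : (2 : ZMod 2) = 0 := by decide
  rw [Fin.sum_univ_two, hs, val_red, val_red, p2_0, p2_1] at this
  simp only [map_add, map_intCast, map_natCast, Nat.cast_mul, Nat.cast_ofNat, map_mul,
    map_ofNat, h2, zero_mul] at this
  linear_combination this - ((γ.1 : ZMod 2) + γ.2.1 + c 0 + c 1) * h2

lemma Sol.odd (S : Sol P h β) (f : Fin 3) : ∃ c : Fin 3 → ZMod (rr f), ∀ a b z γ,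
    Line β (vE f a b z) f 0 γ →
      a * (red _ (pf f 1 γ) + c 1 - (red _ (pf f 0 γ) + c 0)) +
      b * (red _ (pf f 2 γ) + c 2 - (red _ (pf f 0 γ) + c 0)) = 0 := by
  obtain ⟨c, hc⟩ := pass_sound (pf f) _ (S.top f) (pf_df P f)
  refine ⟨c, fun a b z γ hl => ?_⟩
  have := hc ![-a - b, a, b] z γ (S.mkf f a b z γ (hl.const (S.invd f a b z)))
  have hs : ∑ j : ZMod (rr f), j = 0 := by fin_cases f <;> decide
  rw [Fin.sum_univ_three, hs, val_red, val_red, val_red] at this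
  simp only [Matrix.cons_val_zero, Matrix.cons_val_one, Matrix.cons_val] at this
  linear_combination this

lemma pf_one (f : Fin 3) : pf f 0 (one f) = 0 ∧ pf f 2 (one f) = 1 := by
  simp [pf_0, pf_2, one]

lemma Sol.erase (S : Sol P h β) : ∃ γ0 : Gam, ∀ (f : Fin 3) (σ : Sg) (u w : ℤ) (γ : Gam),
    γ = γ0 + w • av 0 + u • av 1 → Line β (vZ f σ) f 1 γ → ∀ n n' : ℤ,
      β (γ + n • av f - one f) (vB f σ) = β (γ + n • av f) (vB f σ) →
      β (γ + n' • av f - one f) (vB f σ) = β (γ + n' • av f) (vB f σ) →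
      (n : ZMod (P.q (vB f σ))) = n' := by
  choose c hc using S.odd
  have hsur : ∀ f, Function.Surjective (red (rr f)) := fun f => ZMod.castHom_surjective _
  choose t ht using fun f => hsur f (c f 0 - c f 1 + 1)
  choose s hs using fun f => hsur f (c f 0 - c f 2)
  obtain ⟨x2, hx2⟩ := crt_int (fun f => rr f ^ 2) (fun i j hij =>
    mods_cop P.qp P.q6 P.qi 1 (i := Sum.inr (Sum.inl i)) (j := Sum.inr (Sum.inl j))
      (by simpa using hij)) t
  refine ⟨(0, x2, 0, s), fun f σ u w γ hγ hl n n' e1 e2 => ?_⟩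
  have g0 : red _ (pf f 0 γ) = 0 := by
    rw [hγ]; simp only [map_add, map_zsmul, pf_av, pf_0]; simp
  have g1 : red _ (pf f 1 γ) = c f 0 - c f 1 + 1 := by
    rw [hγ]; simp only [map_add, map_zsmul, pf_av, pf_1, hx2, ht]; simp
  have g2 : red _ (pf f 2 γ) = c f 0 - c f 2 := by
    rw [hγ]; simp only [map_add, map_zsmul, pf_av, pf_2, hs]; simp
  have b0 : Line β (vB f σ) f 0 γ := by
    rcases S.c3 f σ γ with h1 | h1 | ⟨a, b, z, ha, h1⟩
    · exact (h1.excl hl).elim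
    · exact h1
    · have := hc f a b z γ h1
      rw [g0, g1, g2] at this
      exact (ha (by linear_combination this)).elim
  have hl' : Line β (vZ f σ) f 1 (γ - one f) := by
    intro m
    rw [sub_add_eq_add_sub, S.invZ, S.invZ, hl]
  have b1 : Line β (vB f σ) f 1 (γ - one f) := by
    rcases S.c2 f σ (γ - one f) with h1 | h1 | ⟨b, z, hb, h1⟩
    · exact (h1.excl hl').elim
    · exact h1
    · have := hc f 0 b z _ h1
      simp only [map_sub, (pf_one f).1, (pf_one f).2, map_zero, map_one, g0, g2] at this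
      exact (hb (by linear_combination -this)).elim
  rw [← sub_add_eq_add_sub, b0, b1] at e1 e2
  push_cast at e1 e2
  linear_combination e1 - e2

theorem Sol.not_per (S : Sol P h β) : ¬ PerF h β := by
  rintro ⟨P0, hP0, hper⟩
  have := Fintype.ofFinite Var
  obtain ⟨γ0, hγ0⟩ := S.erase
  obtain ⟨c, hc⟩ := S.even
  let dig : Fin 3 → Gam → Sg := fun f γ => epsilon (fun σ => Line β (vZ f σ) f 1 γ)
  have hdig : ∀ f γ, Line β (vZ f (dig f γ)) f 1 γ := fun f γ => epsilon_spec (S.c1 f γ)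
  have digper : ∀ f γ g, dig f (γ + P0 • g) = dig f γ := by
    intro f γ g
    simp only [dig]
    congr 1
    funext σ
    unfold Line
    simp only [add_right_comm _ (P0 • g), (hper g _).2]
  let N : ℕ := P0 * (1024 * ∏ v, P.q v)
  have hN : ∀ (k : ℤ) (a : Gam), ((N : ℤ) * k) • a =
      P0 • ((((1024 * ∏ v, P.q v : ℕ) : ℤ) * k) • a) := by
    intro k a
    rw [← natCast_zsmul, ← mul_smul, ← mul_assoc, ← Nat.cast_mul]
  have hq : ∀ v, P.q v ∣ N := fun v =>
    Dvd.dvd.mul_left (Dvd.dvd.mul_left (Finset.dvd_prod_of_mem _ (Finset.mem_univ v)) _) _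
  let d1 : ℤ → Sg := fun u => dig 0 (γ0 + u • av 1)
  let d2 : ℤ → Sg := fun w => dig 1 (γ0 + w • av 0)
  let d3 : ℤ → Sg := fun z => dig 2 (γ0 + (-z) • av 1)
  let E : Fin 3 → Sg → ℤ → ℤ → Prop := fun f σ u w =>
    β (γ0 + w • av 0 + u • av 1 - one f) (vB f σ) = β (γ0 + w • av 0 + u • av 1) (vB f σ)
  have per3 : ∀ m k : ℤ, d3 (m + N * k) = d3 m := by
    intro m k
    simp only [d3]
    rw [neg_add, add_smul, ← add_assoc, ← mul_neg, hN, digper]
  refine sudoku_int N ?_ ?_ d1 d2 d3 per3 (fun u w => E 0 (d1 u) u w) (fun u w => E 1 (d2 w) u w)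
    (fun u w => E 2 (d3 (-u - w)) u w) ?_ ?_ ?_ ?_ ?_ ((γ0.1 : ZMod 2) + (γ0.2.1 : ZMod 2) + c) ?_
  · have : 0 < ∏ v, P.q v := Finset.prod_pos (fun v _ => (P.qp v).pos)
    positivity
  · exact Dvd.dvd.mul_left (Dvd.intro _ rfl) _
  · intro u w k
    have : -(u + N * k) - w = -u - w + N * (-k) := by ring
    simp only [E]
    rw [this, per3, add_smul, ← add_assoc, hN, add_sub_right_comm, (hper _ _).2, (hper _ _).2]
  · intro u w n1 n2 n3
    by_contra hc
    obtain ⟨f, hf⟩ := S.tor ![d1 u, d2 w, d3 (-u - w)] hc (γ0 + w • av 0 + u • av 1)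
    fin_cases f
    · exact n1 hf
    · exact n2 hf
    · exact n3 hf
  · intro u
    refine ⟨P.q (vB 0 (d1 u)), P.qp _, P.q6 _, hq _, fun w w' e1 e2 => ?_⟩
    refine hγ0 0 (d1 u) u 0 (γ0 + u • av 1) (by simp) (hdig _ _) w w' ?_ ?_
    · rw [add_right_comm]; exact e1
    · rw [add_right_comm]; exact e2
  · intro w
    refine ⟨P.q (vB 1 (d2 w)), P.qp _, P.q6 _, hq _, fun u u' e1 e2 => ?_⟩
    exact hγ0 1 (d2 w) 0 w (γ0 + w • av 0) (by simp) (hdig _ _) u u' e1 e2
  · intro z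
    refine ⟨P.q (vB 2 (d3 z)), P.qp _, P.q6 _, hq _, fun w w' e1 e2 => ?_⟩
    have e : ∀ w : ℤ, γ0 + (-z) • av 1 + w • av 2 = γ0 + w • av 0 + (-z - w) • av 1 := by
      intro w
      rw [av_2, smul_sub, sub_smul]; abel
    have e' : ∀ w : ℤ, -(-z - w) - w = z := by intro w; ring
    simp only [e'] at e1 e2
    refine hγ0 2 (d3 z) (-z) 0 (γ0 + (-z) • av 1) (by simp) (hdig _ _) w w' ?_ ?_
    · rw [e]; exact e1
    · rw [e]; exact e2
  · intro u
    rcases S.c4 (d1 u) (γ0 + u • av 1) with h1 | h1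
    · exact (h1.excl (hdig _ _)).elim
    · rw [hc _ _ h1]
      have h2 : (11025 : ZMod 2) = 1 := by decide
      simp [av, h2]
      ring

end Vale.Agent.P043
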