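import Vale.Agent.P043.Lift

/-! Merging tiles by stacking. -/

namespace Vale.Agent.P043

open Classical

/-- the colouring of eight cells -/
def chi (j : ℤ) : Bool := decide (j = 0 ∨ j = 2 ∨ j = 4 ∨ j = 5)

lemma chi_pairs (s : ℤ) (h1 : 1 ≤ s) (h4 : s ≤ 4) (c c' : Bool) :
    ∃ j : ℤ, s ≤ j ∧ j < 8 ∧ chi j = c ∧ chi (j - s) = c' := by
  have : ∀ s : Fin 4, ∀ c c' : Bool, ∃ j : Fin 8, (s.val : ℤ) + 1 ≤ (j.val : ℤ) ∧
      chi j.val = c ∧ chi (j.val - (s.val + 1)) = c' := by decide
  obtain ⟨j, a, b, d⟩ := this ⟨(s - 1).toNat, by omega⟩ c c'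
  have e : (((s - 1).toNat : ℕ) : ℤ) + 1 = s := by omega
  simp only [e] at a d
  exact ⟨j.val, a, by omega, b, d⟩

lemma column {α : Type*} (W : Bool → ℤ → α → Prop)
    (ex : ∀ m : ℤ, ∃ j f, 0 ≤ j ∧ j < 8 ∧ W (chi j) (m - j) f)
    (un : ∀ (m j j' : ℤ) f f', 0 ≤ j → j < 8 → 0 ≤ j' → j' < 8 → W (chi j) (m - j) f →
      W (chi j') (m - j') f' → j = j' ∧ f = f') :
    (∀ b c, ∃ n f, n / 8 = b ∧ W c n f) ∧
      ∀ c n n' f f', W c n f → W c n' f' → n / 8 = n' / 8 → f = f' := by
  have A1 : ∀ c c' n n' f f', W c n f → W c' n' f' → n < n' → n + 4 < n' := by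
    intro c c' n n' f f' h h' hlt
    by_contra hc
    obtain ⟨j, a, b, d, e⟩ := chi_pairs (n' - n) (by omega) (by omega) c c'
    have := (un (n + j) j (j - (n' - n)) f f' (by omega) b (by omega) (by omega)
      (by rw [d]; convert h using 1; ring) (by rw [e]; convert h' using 1; ring)).1
    omega
  have hmid : ∀ c, ∃ j0 : ℤ, 3 ≤ j0 ∧ j0 ≤ 4 ∧ chi j0 = c := by
    intro c
    cases c
    · exact ⟨3, by norm_num, by norm_num, by decide⟩
    · exact ⟨4, by norm_num, by norm_num, by decide⟩
  have B : ∀ c n f, W c n f → ∀ c', ∃ f', W c' n f' := by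
    intro c n f h c'
    obtain ⟨j0, a, b, d⟩ := hmid c'
    obtain ⟨j, f', e0, e8, h'⟩ := ex (n + j0)
    have : j = j0 := by
      rcases lt_trichotomy j j0 with hl | hl | hl
      · have := A1 _ _ _ _ _ _ h h' (by omega)
        omega
      · exact hl
      · have := A1 _ _ _ _ _ _ h' h (by omega)
        omega
    subst this
    exact ⟨f', by rw [← d]; convert h' using 1; ring⟩
  have C : ∀ c c' n n' f f', W c n f → W c' n' f' → n < n' → n + 8 ≤ n' := by
    intro c c' n n' f f' h h' hlt
    by_contra hc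
    obtain ⟨f1, h1⟩ := B _ _ _ h (chi (n' - n))
    obtain ⟨f2, h2⟩ := B _ _ _ h' (chi 0)
    have := (un n' (n' - n) 0 f1 f2 (by omega) (by omega) (by omega) (by omega)
      (by convert h1 using 1; ring) (by convert h2 using 1; ring)).1
    omega
  constructor
  · intro b c
    obtain ⟨j, f, e0, e8, h⟩ := ex (8 * b + 7)
    obtain ⟨f', h'⟩ := B _ _ _ h c
    exact ⟨_, f', by omega, h'⟩
  · intro c n n' f f' h h' hn
    have : n = n' := by
      rcases lt_trichotomy n n' with hl | hl | hl
      · have := C _ _ _ _ _ _ h h' hl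
        omega
      · exact hl
      · have := C _ _ _ _ _ _ h' h hl
        omega
    subst this
    obtain ⟨j0, a, b, d⟩ := hmid c
    exact (un (n + j0) j0 j0 f f' (by omega) (by omega) (by omega) (by omega)
      (by rw [d]; convert h using 1; ring) (by rw [d]; convert h' using 1; ring)).2

section
variable {ι : Type} [DecidableEq ι] (k : ι)

def up (f : ι → ℤ) (j : ℤ) : ι → ℤ := fun i => if i = k then 8 * f i + j else f i
def down (a : ι → ℤ) : ι → ℤ := fun i => if i = k then a i / 8 else a i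

lemma up_down (x : ι → ℤ) : up k (down k x) (x k % 8) = x := by
  funext i
  by_cases h : i = k
  · subst h; simp only [up, down, if_true]; omega
  · simp [up, down, h]

lemma down_up (f : ι → ℤ) {j : ℤ} (h0 : 0 ≤ j) (h8 : j < 8) : down k (up k f j) = f := by
  funext i
  by_cases h : i = k
  · subst h; simp only [up, down, if_true]; omega
  · simp [up, down, h]

lemma up_mod (f : ι → ℤ) {j : ℤ} (h0 : 0 ≤ j) (h8 : j < 8) : up k f j k % 8 = j := by
  simp only [up, if_true]; omega

/-- two tiles merged -/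
noncomputable def stack (F1 F2 : Finset (ι → ℤ)) : Finset (ι → ℤ) :=
  (((F1 ∪ F2) ×ˢ Finset.Ico (0 : ℤ) 8).filter
    (fun p => p.1 ∈ (if chi p.2 then F1 else F2))).image (fun p => up k p.1 p.2)

lemma mem_stack {F1 F2 : Finset (ι → ℤ)} {x : ι → ℤ} :
    x ∈ stack k F1 F2 ↔ down k x ∈ (if chi (x k % 8) then F1 else F2) := by
  simp only [stack, Finset.mem_image, Finset.mem_filter, Finset.mem_product, Finset.mem_union,
    Finset.mem_Ico]
  constructor
  · rintro ⟨⟨f, j⟩, ⟨⟨-, h0, h8⟩, h⟩, rfl⟩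
    rw [down_up k f h0 h8, up_mod k f h0 h8]
    exact h
  · intro h
    refine ⟨(down k x, x k % 8), ⟨⟨?_, by simp only; omega, by simp only; omega⟩, h⟩, up_down k x⟩
    split_ifs at h
    · exact Or.inl h
    · exact Or.inr h

lemma stack_complete {A0 : Set (ι → ℤ)} {F1 F2 : Finset (ι → ℤ)} (h1 : T A0 F1) (h2 : T A0 F2) :
    T {a | a k % 8 = 0 ∧ down k a ∈ A0} (stack k F1 F2) := by
  intro g
  have h : T A0 (if chi (g k % 8) then F1 else F2) := by split_ifs <;> assumption
  obtain ⟨f, ⟨hf, hA⟩, hu⟩ := h (down k g)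
  have key : ∀ x : ι → ℤ, x k % 8 = g k % 8 → down k (g - x) = down k g - down k x := by
    intro x hx
    funext i
    by_cases h : i = k
    · subst h; simp only [down, if_true, Pi.sub_apply]; omega
    · simp [down, h]
  have m0 : 0 ≤ g k % 8 := by omega
  have m8 : g k % 8 < 8 := by omega
  have e := up_mod k f m0 m8
  refine ⟨up k f (g k % 8), ⟨?_, ?_, ?_⟩, ?_⟩
  · rw [mem_stack, e, down_up k f m0 m8]; exact hf
  · simp only [Pi.sub_apply]; omega
  · rw [key _ e, down_up k f m0 m8]; exact hA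
  · rintro x ⟨hx, hm, hA'⟩
    have e' : x k % 8 = g k % 8 := by simp only [Pi.sub_apply] at hm; omega
    rw [mem_stack, e'] at hx
    rw [key _ e'] at hA'
    rw [← hu _ ⟨hx, hA'⟩, ← e', up_down]

lemma stack_sound {A : Set (ι → ℤ)} {F1 F2 : Finset (ι → ℤ)} (h : T A (stack k F1 F2))
    (c : Bool) : T (down k '' A) (if c then F1 else F2) := by
  intro g
  let W : Bool → ℤ → (ι → ℤ) → Prop := fun c n f =>
    f ∈ (if c then F1 else F2) ∧ Function.update g k n - up k f 0 ∈ A
  have e : ∀ (m j : ℤ) f, Function.update g k (m - j) - up k f 0 =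
      Function.update g k m - up k f j := by
    intro m j f
    funext i
    by_cases h : i = k
    · subst h; simp [up]; ring
    · simp [up, h]
  obtain ⟨c1, c2⟩ := column W (by
    intro m
    obtain ⟨x, ⟨hx, hA⟩, -⟩ := h (Function.update g k m)
    refine ⟨x k % 8, down k x, by omega, by omega, (mem_stack k).mp hx, ?_⟩
    rw [e, up_down]; exact hA) (by
    intro m j j' f f' a0 a8 b0 b8 w w'
    obtain ⟨x, -, hu⟩ := h (Function.update g k m)
    have e1 := hu (up k f j) ⟨by
      rw [mem_stack, up_mod k f a0 a8, down_up k f a0 a8]; exact w.1, by rw [← e]; exact w.2⟩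
    have e2 := hu (up k f' j') ⟨by
      rw [mem_stack, up_mod k f' b0 b8, down_up k f' b0 b8]; exact w'.1, by rw [← e]; exact w'.2⟩
    have e3 := e1.trans e2.symm
    exact ⟨by rw [← up_mod k f a0 a8, e3, up_mod k f' b0 b8],
      by rw [← down_up k f a0 a8, e3, down_up k f' b0 b8]⟩)
  obtain ⟨n, f, hn, hf, hA⟩ := c1 (g k) c
  refine ⟨f, ⟨hf, _, hA, ?_⟩, ?_⟩
  · funext i
    by_cases h : i = k
    · subst h; simp only [down, up, if_true, Pi.sub_apply, Function.update_self]; omega
    · simp [down, up, h]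
  · rintro f' ⟨hf', a, ha, hd⟩
    have hk := congrFun hd k
    simp only [down, if_true, Pi.sub_apply] at hk
    refine c2 c (a k + 8 * f' k) n f' f ⟨hf', ?_⟩ ⟨hf, hA⟩ (by omega)
    convert ha using 1
    funext i
    by_cases h : i = k
    · subst h; simp [up]
    · have := congrFun hd i
      simp only [down, h, if_false, Pi.sub_apply] at this
      simp [up, h, this]

lemma per_down {A : Set (ι → ℤ)} (h : Per A) : Per (down k '' A) := by
  obtain ⟨P, hP, hper⟩ := h
  refine ⟨P, hP, ?_⟩
  rintro g _ ⟨a, ha, rfl⟩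
  refine ⟨_, hper (up k g 0) a ha, ?_⟩
  funext i
  by_cases h : i = k
  · subst h
    simp only [down, up, if_true, Pi.add_apply, Pi.smul_apply, add_zero]
    simp only [nsmul_eq_mul]
    rw [mul_left_comm, Int.add_mul_ediv_left _ _ (by norm_num)]
  · simp [down, up, h]

lemma T.shift {G : Type*} [AddCommGroup G] {A : Set G} {F : Finset G} (h : T A F) (v : G) :
    T {x | x + v ∈ A} F := by
  intro g
  simpa only [Set.mem_ofPred_eq, sub_add_eq_add_sub] using h (g + v)

include k in
lemma merge (n : ℕ) : ∀ (L : List (Finset (ι → ℤ))) (F1 : Finset (ι → ℤ)), L.length = n →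
    (∃ A0, ∀ F ∈ F1 :: L, T A0 F) → (∀ A, (∀ F ∈ F1 :: L, T A F) → ¬ Per A ∧ Rig A) →
    ∃ F : Finset (ι → ℤ), (∃ A, T A F) ∧ ∀ A, T A F → ¬ Per A ∧ Rig A := by
  induction n with
  | zero =>
    intro L F1 hL h1 h2
    rw [List.length_eq_zero_iff] at hL
    subst hL
    simp only [List.mem_singleton, forall_eq] at h1 h2
    exact ⟨F1, h1, h2⟩
  | succ n ih =>
    rintro (_ | ⟨F2, L⟩) F1 hL ⟨A0, h1⟩ h2
    · simp at hL
    have key : ∀ A, (∀ F ∈ stack k F1 F2 :: L.map (fun F => stack k F F), T A F) →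
        ¬ Per (down k '' A) ∧ Rig (down k '' A) := by
      intro A hA
      apply h2
      intro F hF
      simp only [List.mem_cons] at hF
      rcases hF with rfl | rfl | hF
      · simpa using stack_sound k (hA _ (List.mem_cons_self ..)) true
      · simpa using stack_sound k (hA _ (List.mem_cons_self ..)) false
      · simpa using stack_sound k (hA (stack k F F)
          (List.mem_cons_of_mem _ (List.mem_map_of_mem hF))) true
    apply ih (L.map (fun F => stack k F F)) (stack k F1 F2) (by simpa using hL)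
    · refine ⟨{a | a k % 8 = 0 ∧ down k a ∈ A0}, fun F hF => ?_⟩
      simp only [List.mem_cons, List.mem_map] at hF
      rcases hF with rfl | ⟨F, hF, rfl⟩
      · exact stack_complete k (h1 _ (by simp)) (h1 _ (by simp))
      · exact stack_complete k (h1 _ (by simp [hF])) (h1 _ (by simp [hF]))
    · intro A hA
      refine ⟨fun hp => (key A hA).1 (per_down k hp), fun a ha a' ha' i => ?_⟩
      by_cases h : i = k
      · subst h
        have hs : ∀ s : ℤ, (2 : ℤ) ∣ (a i - s) / 8 - (a' i - s) / 8 := by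
          intro s
          have := (key {x | x + Pi.single i s ∈ A} (fun F hF => (hA F hF).shift _)).2
            _ ⟨a - Pi.single i s, by simpa using ha, rfl⟩
            _ ⟨a' - Pi.single i s, by simpa using ha', rfl⟩ i
          simpa [down] using this
        have e1 := hs (a i)
        have e2 := hs (a i + 1)
        omega
      · have := (key A hA).2 _ ⟨a, ha, rfl⟩ _ ⟨a', ha', rfl⟩ i
        simpa [down, h] using this

end

theorem exists_tile (d : ℕ) (hd : 3 ≤ d) :
    ∃ F : Finset (Fin d → ℤ), (∃ A, T A F) ∧ ∀ A, T A F → ¬ Per A ∧ Rig A := by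
  obtain ⟨A0, L, h1, h2⟩ := exists_system d hd
  cases L with
  | nil => exact ((h2 Set.univ (by simp)).1 ⟨1, one_pos, by simp⟩).elim
  | cons F1 L => exact merge ⟨0, by omega⟩ L.length L F1 rfl ⟨A0, h1⟩ h2

end Vale.Agent.P043
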