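import Vale.Agent.P043.BLR
import Vale.Agent.P043.Digit

/-! The three-direction two-adic puzzle with erasures has no periodic solution. -/

namespace Vale.Agent.P043

open Classical

lemma card_two_fiber {A : Type*} [AddCommGroup A] [Fintype A] [IsAddCyclic A] (o c : A) :
    (Finset.univ.filter (fun x : A => o + 2 • x = c)).card ≤ 2 := by
  by_cases h : ∃ x0, o + 2 • x0 = c
  · obtain ⟨x0, hx0⟩ := h
    refine le_trans ?_ (IsAddCyclic.card_nsmul_eq_zero_le (α := A) (n := 2) (by norm_num))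
    apply Finset.card_le_card_of_injOn (fun x => x - x0)
    · intro x hx
      simp only [Finset.coe_filter, Finset.mem_univ, true_and, Set.mem_ofPred_eq] at hx ⊢
      rw [smul_sub, sub_eq_zero]
      exact add_left_cancel (hx.trans hx0.symm)
    · intro x _ y _ hxy
      exact sub_left_injective hxy
  · push Not at h
    rw [Finset.filter_eq_empty_iff.mpr (fun x _ => h x)]
    simp

lemma pr_double {A : Type*} [AddCommGroup A] [Fintype A] [IsAddCyclic A] (o : A) (S : A → Prop) :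
    pr (fun x => S (o + 2 • x)) ≤ 2 * pr S := by
  have := pr_comp_le (fun x : A => o + 2 • x) 2 (fun y => by convert card_two_fiber o y) S
  exact_mod_cast this

section
variable {G : Type*} [AddCommGroup G] [Fintype G] {θ : G →+ ZMod 1024}

lemma pr_affine (hθ : Function.Surjective θ) {b : ZMod 1024} (hb : IsUnit b) (C : ZMod 1024)
    (S : ZMod 1024 → Prop) : pr (fun m => S (b * θ m + C)) = pr S := by
  rw [pr_hom θ hθ (fun x => S (b * x + C))]
  obtain ⟨b, rfl⟩ := hb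
  exact pr_equiv ((Units.mulLeft b).trans (Equiv.addRight C)) S

lemma pr_lam (hθ : Function.Surjective θ) {b : ZMod 1024} (hb : IsUnit b) (C c : ZMod 1024) :
    pr (fun m => 2 * (b * θ m + C) = c) ≤ 1 / 512 := by
  rw [pr_affine hθ hb C (fun x => 2 * x = c)]
  have h := pr_double (0 : ZMod 1024) (fun y => y = c)
  rw [pr_single] at h
  simp only [zero_add, nsmul_eq_mul, Nat.cast_ofNat, ZMod.card] at h
  linarith

/-- weak agreement with an affine function -/
def Wk (θ : G →+ ZMod 1024) (b C : ZMod 1024) (d : G → Dg) : Prop :=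
  pr (fun m => 2 * dec (d m) ≠ 2 * (b * θ m + C)) ≤ 6 / 1000

lemma line_lemma (hθ : Function.Surjective θ) {d1 d2 d3 : G → Dg} {E : G → G → Prop}
    (om : ∀ u w, ¬ E u w → Om (d1 u) (d2 w) (d3 (-u - w)))
    {b C1 C2 C3 : ZMod 1024} (hb : IsUnit b) (hC : C1 + C2 + C3 = 0)
    (w2 : Wk θ b C2 d2) (w3 : Wk θ b C3 d3) (u : G) (hu : 2 * (b * θ u + C1) ≠ 0) :
    pr (fun w => dec (d1 u) + dec (d2 w) + dec (d3 (-u - w)) ≠ 0) ≤
      pr (E u) + 12 / 1000 + 4 / 512 := by
  have a2 : pr (fun w => 2 * dec (d2 w) ≠ 2 * (b * θ w + C2) ∨ 2 * (b * θ w + C2) = 0 ∨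
      2 * (b * θ w + C2) = -(2 * dec (d1 u))) ≤ 6 / 1000 + 2 / 512 := by
    refine le_trans (pr_le_add3 (fun x hx => hx)) ?_
    have := pr_lam hθ hb C2 0
    have := pr_lam hθ hb C2 (-(2 * dec (d1 u)))
    unfold Wk at w2
    linarith
  have a3 : pr (fun w => 2 * dec (d3 w) ≠ 2 * (b * θ w + C3) ∨ 2 * (b * θ w + C3) = 0 ∨
      2 * (b * θ w + C3) = -(2 * dec (d1 u))) ≤ 6 / 1000 + 2 / 512 := by
    refine le_trans (pr_le_add3 (fun x hx => hx)) ?_
    have := pr_lam hθ hb C3 0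
    have := pr_lam hθ hb C3 (-(2 * dec (d1 u)))
    unfold Wk at w3
    linarith
  rw [← pr_sub_left (-u)] at a3
  refine le_trans (pr_le_add3 (A := E u)
    (B := fun w => 2 * dec (d2 w) ≠ 2 * (b * θ w + C2) ∨ 2 * (b * θ w + C2) = 0 ∨
      2 * (b * θ w + C2) = -(2 * dec (d1 u)))
    (C := fun w => 2 * dec (d3 (-u - w)) ≠ 2 * (b * θ (-u - w) + C3) ∨
      2 * (b * θ (-u - w) + C3) = 0 ∨
      2 * (b * θ (-u - w) + C3) = -(2 * dec (d1 u))) ?_) (by linarith)
  intro w hw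
  by_contra hc
  push Not at hc
  obtain ⟨hE, ⟨p1, p2, p3⟩, q1, q2, q3⟩ := hc
  have n2 : dec (d2 w) ≠ 0 := fun h => p2 (by rw [← p1, h, mul_zero])
  have n3 : dec (d3 (-u - w)) ≠ 0 := fun h => q2 (by rw [← q1, h, mul_zero])
  rcases key_lemma (om u w hE) n2 n3 with h | h | h | h
  · exact hw h
  · apply hu
    rw [map_sub, map_neg] at q1
    linear_combination 2 * hC + p1 + q1 - 2 * h
  · apply p3
    rw [← p1, h]; ring
  · apply q3
    rw [← q1, h]; ring

lemma boot (hθ : Function.Surjective θ) {d1 d2 d3 : G → Dg} {E : G → G → Prop}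
    (om : ∀ u w, ¬ E u w → Om (d1 u) (d2 w) (d3 (-u - w)))
    (hE : pr (fun p : G × G => E p.1 p.2) ≤ 1 / 2000)
    {b C1 C2 C3 : ZMod 1024} (hb : IsUnit b) (hC : C1 + C2 + C3 = 0)
    (w2 : Wk θ b C2 d2) (w3 : Wk θ b C3 d3)
    {b' D1 D2 D3 : ZMod 1024} (hD : D1 + D2 + D3 = 0)
    (s2 : pr (fun m => dec (d2 m) ≠ b' * θ m + D2) ≤ 14 / 100)
    (s3 : pr (fun m => dec (d3 m) ≠ b' * θ m + D3) ≤ 14 / 100) :
    pr (fun m => dec (d1 m) ≠ b' * θ m + D1) ≤ 3 / 1000 := by
  have h1 := pr_markov E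
  have h2 := pr_lam hθ hb C1 0
  refine le_trans (pr_le_add (A := fun u => 1 / 2 < pr (E u))
    (B := fun m => 2 * (b * θ m + C1) = 0) ?_) (by linarith)
  intro u hu
  by_contra hc
  push Not at hc
  obtain ⟨hc1, hc2⟩ := hc
  have h3 := line_lemma hθ om hb hC w2 w3 u hc2
  rw [← pr_sub_left (-u)] at s3
  have h4 := pr_le_add3 (S := fun w => dec (d1 u) + dec (d2 w) + dec (d3 (-u - w)) ≠ 0 ∨
    dec (d2 w) ≠ b' * θ w + D2 ∨ dec (d3 (-u - w)) ≠ b' * θ (-u - w) + D3) (fun x hx => hx)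
  obtain ⟨w, hw⟩ := exists_not_of_pr_lt_one (lt_of_le_of_lt h4 (by linarith))
  push Not at hw
  obtain ⟨e1, e2, e3⟩ := hw
  apply hu
  rw [map_sub, map_neg] at e3
  linear_combination e1 - e2 - e3 - hD

/-- the inductive hypothesis -/
structure Sys (θ : G →+ ZMod 1024) (d1 d2 d3 : G → Dg) (E : G → G → Prop) : Prop where
  om : ∀ u w, ¬ E u w → Om (d1 u) (d2 w) (d3 (-u - w))
  her : ∀ (k : ℕ) (o1 o2 : G),
    pr (fun p : G × G => E (o1 + 2 ^ k • p.1) (o2 + 2 ^ k • p.2)) ≤ 1 / 2000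
  weak : ∃ b C1 C2 C3 : ZMod 1024, IsUnit b ∧ C1 + C2 + C3 = 0 ∧
    Wk θ b C1 d1 ∧ Wk θ b C2 d2 ∧ Wk θ b C3 d3

lemma unit_or_even (x : ZMod 1024) : IsUnit x ∨ ∃ y, x = 2 * y := by
  rcases Nat.even_or_odd' x.val with ⟨k, hk | hk⟩
  · right
    refine ⟨k, ?_⟩
    rw [← ZMod.natCast_zmod_val x, hk]; push_cast; ring
  · left
    rw [← ZMod.natCast_zmod_val x, ZMod.isUnit_iff_coprime, hk]
    have : (1024 : ℕ) = 2 ^ 10 := by norm_num
    rw [this]
    apply Nat.Coprime.pow_right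
    rw [Nat.coprime_two_right]
    exact odd_two_mul_add_one k

lemma unit_sub_even {b : ZMod 1024} (hb : IsUnit b) (y : ZMod 1024) : IsUnit (b - 2 * y) := by
  rcases unit_or_even (b - 2 * y) with h | ⟨z, hz⟩
  · exact h
  · exfalso
    have h2 : b = 2 * (y + z) := by linear_combination hz
    rw [h2] at hb
    have := isUnit_of_mul_isUnit_left hb
    have h3 : (2 : ZMod 1024) ^ 10 = 0 := by decide
    have h4 := this.pow 10
    rw [h3] at h4
    have : (0 : ZMod 1024) ≠ 1 := by decide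
    exact this (isUnit_zero_iff.mp h4)

lemma half_weak [IsAddCyclic G] {d : G → Dg} {b D : ZMod 1024} {o : G}
    (ho : b * θ o + D = 0) (s : pr (fun m => dec (d m) ≠ b * θ m + D) ≤ 3 / 1000) :
    Wk θ b 0 (fun m => tau (d (o + 2 • m))) := by
  unfold Wk
  have h := pr_double o (fun m => dec (d m) ≠ b * θ m + D)
  refine le_trans (pr_mono ?_) (h.trans (by linarith))
  intro m hm hc
  apply hm
  have e : dec (d (o + 2 • m)) = 2 * (b * θ m) := by
    rw [hc, map_add, map_nsmul, nsmul_eq_mul]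
    push_cast
    linear_combination ho
  rw [← dec_half e, e, add_zero]

lemma Sys.step [IsAddCyclic G] (hθ : Function.Surjective θ)
    (hcyc : ∀ f : G →+ ZMod 1024, ∃ c, ∀ m, f m = c * θ m)
    {d1 d2 d3 : G → Dg} {E : G → G → Prop} (h : Sys θ d1 d2 d3 E) :
    ∃ o1 o2 : G, Sys θ (fun m => tau (d1 (o1 + 2 • m))) (fun m => tau (d2 (o2 + 2 • m)))
      (fun m => tau (d3 ((-o1 - o2) + 2 • m))) (fun u w => E (o1 + 2 • u) (o2 + 2 • w)) := by
  obtain ⟨om, her, b, C1, C2, C3, hb, hC, w1, w2, w3⟩ := h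
  have hE : pr (fun p : G × G => E p.1 p.2) ≤ 1 / 2000 := by
    simpa using her 0 0 0
  have hadd : pr (fun p : G × G =>
      dec (d1 p.1) + dec (d2 p.2) + dec (d3 (-p.1 - p.2)) ≠ 0) ≤ 23 / 1000 := by
    have h2 := pr_lam hθ hb C1 0
    rw [← pr_fst (β := G)] at h2
    have h3 : pr (fun p : G × G => 2 * (b * θ p.1 + C1) ≠ 0 ∧
        dec (d1 p.1) + dec (d2 p.2) + dec (d3 (-p.1 - p.2)) ≠ 0) ≤
        1 / 2000 + (12 / 1000 + 4 / 512) := by
      rw [pr_prod (fun u w => 2 * (b * θ u + C1) ≠ 0 ∧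
        dec (d1 u) + dec (d2 w) + dec (d3 (-u - w)) ≠ 0)]
      rw [pr_prod E] at hE
      have hG : (0 : ℝ) < Fintype.card G := by exact_mod_cast Fintype.card_pos
      rw [div_le_iff₀ hG] at hE ⊢
      have : ∑ u, pr (fun w => 2 * (b * θ u + C1) ≠ 0 ∧
          dec (d1 u) + dec (d2 w) + dec (d3 (-u - w)) ≠ 0) ≤
          ∑ u, (pr (E u) + (12 / 1000 + 4 / 512)) := by
        apply Finset.sum_le_sum
        intro u _
        by_cases hu : 2 * (b * θ u + C1) = 0
        · have e : pr (fun w => 2 * (b * θ u + C1) ≠ 0 ∧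
              dec (d1 u) + dec (d2 w) + dec (d3 (-u - w)) ≠ 0) ≤ pr (E u) :=
            pr_mono (fun w hw => (hw.1 hu).elim)
          linarith
        · have := line_lemma hθ om hb hC w2 w3 u hu
          have e : pr (fun w => 2 * (b * θ u + C1) ≠ 0 ∧
              dec (d1 u) + dec (d2 w) + dec (d3 (-u - w)) ≠ 0) ≤
              pr (fun w => dec (d1 u) + dec (d2 w) + dec (d3 (-u - w)) ≠ 0) :=
            pr_mono (fun w hw => hw.2)
          linarith
      rw [Finset.sum_add_distrib] at this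
      simp only [Finset.sum_const, Finset.card_univ, nsmul_eq_mul] at this
      linarith
    refine le_trans (pr_le_add (A := fun p : G × G => 2 * (b * θ p.1 + C1) = 0)
      (B := fun p : G × G => 2 * (b * θ p.1 + C1) ≠ 0 ∧
        dec (d1 p.1) + dec (d2 p.2) + dec (d3 (-p.1 - p.2)) ≠ 0) ?_) (by linarith)
    intro p hp
    by_cases hu : 2 * (b * θ p.1 + C1) = 0
    · exact Or.inl hu
    · exact Or.inr ⟨hu, hp⟩
  obtain ⟨f, D1, D2, D3, hD, s1, s2, s3⟩ := blr (fun m => dec (d1 m)) (fun m => dec (d2 m))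
    (fun m => dec (d3 m)) (23 / 1000) (by norm_num) hadd
  obtain ⟨b', hb'⟩ := hcyc f
  simp only [hb'] at s1 s2 s3
  have hb'u : IsUnit b' := by
    rcases unit_or_even b' with h | ⟨y, rfl⟩
    · exact h
    exfalso
    have h1 := pr_lam hθ (unit_sub_even hb y) (C1 - D1) 0
    have h2 := pr_le_add3 (S := fun m => 2 * dec (d1 m) ≠ 2 * (b * θ m + C1) ∨
      dec (d1 m) ≠ 2 * y * θ m + D1 ∨ 2 * ((b - 2 * y) * θ m + (C1 - D1)) = 0) (fun x hx => hx)
    unfold Wk at w1
    obtain ⟨m, hm⟩ := exists_not_of_pr_lt_one (lt_of_le_of_lt h2 (by linarith))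
    push Not at hm
    obtain ⟨e1, e2, e3⟩ := hm
    apply e3
    linear_combination 2 * e2 - e1
  have t1 := boot hθ om hE hb hC w2 w3 hD (s2.trans (by norm_num)) (s3.trans (by norm_num))
  have t2 : pr (fun m => dec (d2 m) ≠ b' * θ m + D2) ≤ 3 / 1000 := by
    refine boot (d1 := d2) (d2 := d1) (d3 := d3) (E := fun w u => E u w) hθ ?_ ?_ hb
      (C1 := C2) (C2 := C1) (C3 := C3) (by linear_combination hC) w1 w3
      (D1 := D2) (D2 := D1) (D3 := D3) (by linear_combination hD)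
      (s1.trans (by norm_num)) (s3.trans (by norm_num))
    · intro w u hwu
      have : -w - u = -u - w := by abel
      rw [this]
      exact (om u w hwu).swap12
    · rw [pr_swap (fun w u => E u w)]; exact hE
  have t3 : pr (fun m => dec (d3 m) ≠ b' * θ m + D3) ≤ 3 / 1000 := by
    refine boot (d1 := d3) (d2 := d2) (d3 := d1) (E := fun z w => E (-z - w) w) hθ ?_ ?_ hb
      (C1 := C3) (C2 := C2) (C3 := C1) (by linear_combination hC) w2 w1
      (D1 := D3) (D2 := D2) (D3 := D1) (by linear_combination hD)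
      (s2.trans (by norm_num)) (s1.trans (by norm_num))
    · intro z w hzw
      have h := (om _ w hzw).swap13
      have : -(-z - w) - w = z := by abel
      rw [this] at h
      exact h
    · rw [pr_shear' E]; exact hE
  have hsol : ∀ D : ZMod 1024, ∃ o : G, b' * θ o + D = 0 := by
    intro D
    obtain ⟨v, rfl⟩ := hb'u
    obtain ⟨o, ho⟩ := hθ (-((v⁻¹ : (ZMod 1024)ˣ) * D))
    exact ⟨o, by rw [ho, mul_neg, ← mul_assoc, Units.mul_inv, one_mul, neg_add_cancel]⟩
  obtain ⟨o1, ho1⟩ := hsol D1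
  obtain ⟨o2, ho2⟩ := hsol D2
  have ho3 : b' * θ (-o1 - o2) + D3 = 0 := by
    rw [map_sub, map_neg]
    linear_combination hD - ho1 - ho2
  refine ⟨o1, o2, ?_, ?_, b', 0, 0, 0, hb'u, by simp, half_weak ho1 t1, half_weak ho2 t2,
    half_weak ho3 t3⟩
  · intro u w huw
    have h := (om _ _ huw).tau
    have : -(o1 + 2 • u) - (o2 + 2 • w) = -o1 - o2 + 2 • (-u - w) := by
      rw [smul_sub, smul_neg]; abel
    rw [this] at h
    exact h
  · intro k p1 p2
    have := her (k + 1) (o1 + 2 • p1) (o2 + 2 • p2)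
    convert this using 4
    · rw [smul_add, smul_smul, pow_succ', add_assoc]
    · rw [smul_add, smul_smul, pow_succ', add_assoc]

lemma Sys.false [IsAddCyclic G] (hθ : Function.Surjective θ)
    (hcyc : ∀ f : G →+ ZMod 1024, ∃ c, ∀ m, f m = c * θ m)
    {g0 : G} (hg0 : IsUnit (θ g0)) (k : ℕ) :
    ∀ {d1 d2 d3 : G → Dg} {E : G → G → Prop}, Sys θ d1 d2 d3 E →
      (∀ m, d1 (m + 2 ^ k • g0) = d1 m) → False := by
  induction k with
  | zero =>
    intro d1 d2 d3 E h hper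
    obtain ⟨b, C1, C2, C3, hb, -, w1, -, -⟩ := h.weak
    unfold Wk at w1
    have w1' := w1
    rw [← pr_add_right g0] at w1'
    have h2 := pr_le_add (S := fun m => 2 * dec (d1 m) ≠ 2 * (b * θ m + C1) ∨
      2 * dec (d1 (m + g0)) ≠ 2 * (b * θ (m + g0) + C1)) (fun x hx => hx)
    obtain ⟨m, hm⟩ := exists_not_of_pr_lt_one (lt_of_le_of_lt h2 (by linarith))
    push Not at hm
    obtain ⟨e1, e2⟩ := hm
    have := hper m
    simp only [pow_zero, one_smul] at this
    rw [this, map_add] at e2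
    have h3 : (b * θ g0) * 2 = 0 := by linear_combination e1 - e2
    have h4 : (2 : ZMod 1024) ≠ 0 := by decide
    exact h4 ((hb.mul hg0).mul_right_eq_zero.mp h3)
  | succ k ih =>
    intro d1 d2 d3 E h hper
    obtain ⟨o1, o2, h'⟩ := h.step hθ hcyc
    apply ih h'
    intro m
    have := hper (o1 + 2 • m)
    rw [← this, smul_add, smul_smul, pow_succ', add_assoc]

lemma sudoku_abstract [IsAddCyclic G] (hθ : Function.Surjective θ)
    (hcyc : ∀ f : G →+ ZMod 1024, ∃ c, ∀ m, f m = c * θ m)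
    {g0 : G} (hg0 : IsUnit (θ g0)) (k : ℕ) (hk : 2 ^ k • g0 = 0)
    (d1 d2 d3 : G → Sg) (E : G → G → Prop)
    (om : ∀ u w, ¬ E u w → OmS (d1 u) (d2 w) (d3 (-u - w)))
    (her : ∀ (k : ℕ) (o1 o2 : G),
      pr (fun p : G × G => E (o1 + 2 ^ k • p.1) (o2 + 2 ^ k • p.2)) ≤ 1 / 2000)
    (c : ZMod 2)
    (mark : ∀ u, par (d1 u) = ZMod.castHom (show 2 ∣ 1024 by norm_num) (ZMod 2) (θ u) + c) :
    False := by
  have hE : pr (fun p : G × G => E p.1 p.2) ≤ 1 / 2000 := by
    simpa using her 0 0 0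
  have hadd : pr (fun p : G × G =>
      rho (d1 p.1) + rho (d2 p.2) + rho (d3 (-p.1 - p.2)) ≠ 0) ≤ 1 / 2000 := by
    refine le_trans (pr_mono ?_) hE
    intro p hp
    by_contra hc
    exact hp (om _ _ hc).2
  obtain ⟨f, D1, D2, D3, hD, s1, s2, s3⟩ := blr (fun m => rho (d1 m)) (fun m => rho (d2 m))
    (fun m => rho (d3 m)) (1 / 2000) (by norm_num) hadd
  obtain ⟨b, hb'⟩ := hcyc f
  simp only [hb'] at s1 s2 s3
  have hb : IsUnit b := by
    rcases unit_or_even b with h | ⟨y, rfl⟩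
    · exact h
    exfalso
    obtain ⟨g1, hg1⟩ := hθ 1
    have s1' := s1
    rw [← pr_add_right g1] at s1'
    have h2 := pr_le_add (S := fun m => rho (d1 m) ≠ 2 * y * θ m + D1 ∨
      rho (d1 (m + g1)) ≠ 2 * y * θ (m + g1) + D1) (fun x hx => hx)
    obtain ⟨m, hm⟩ := exists_not_of_pr_lt_one (lt_of_le_of_lt h2 (by linarith))
    push Not at hm
    obtain ⟨e1, e2⟩ := hm
    have m1 := mark m
    have m2 := mark (m + g1)
    unfold par at m1 m2
    rw [e1] at m1
    rw [e2, map_add θ, hg1] at m2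
    simp only [map_add, map_mul, map_one, map_ofNat] at m1 m2
    have h20 : (2 : ZMod 2) = 0 := by decide
    rw [h20] at m1 m2
    have : (1 : ZMod 2) = 0 := by linear_combination m1 - m2
    exact absurd this (by decide)
  have hw : ∀ (d : G → Sg) (D : ZMod 1024),
      pr (fun m => rho (d m) ≠ b * θ m + D) ≤ 6 * (1 / 2000) → Wk θ b D (fun m => (d m).2) := by
    intro d D s
    unfold Wk
    have h1 := pr_lam hθ hb D 0
    refine le_trans (pr_le_add (A := fun m => rho (d m) ≠ b * θ m + D)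
      (B := fun m => 2 * (b * θ m + D) = 0) ?_) (by linarith)
    intro m hm
    by_contra hc
    push Not at hc
    obtain ⟨e1, e2⟩ := hc
    apply hm
    unfold rho at e1
    split_ifs at e1 with hf
    · exact (e2 (by rw [← e1, mul_zero])).elim
    · simp only [e1]
  refine Sys.false hθ hcyc hg0 k (d1 := fun m => (d1 m).2) (d2 := fun m => (d2 m).2)
    (d3 := fun m => (d3 m).2) (E := E) ⟨fun u w h => (om u w h).1, her, b, D1, D2, D3, hb, hD,
      hw d1 D1 (s1.trans (by norm_num)), hw d2 D2 (s2.trans (by norm_num)), hw d3 D3 s3⟩ ?_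
  intro m
  rw [hk, add_zero]

end

end Vale.Agent.P043
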