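import Mathlib

/-! Systems of tiling equations and functional equations. -/

namespace Vale.Agent.P043

open Classical

section basic
variable {G : Type*} [AddCommGroup G]

/-- `A ⊕ F = G` -/
def T (A : Set G) (F : Finset G) : Prop := ∀ g, ∃! f, f ∈ F ∧ g - f ∈ A

/-- invariance under `P • G` -/
def Per (A : Set G) : Prop := ∃ P : ℕ, 0 < P ∧ ∀ g a, a ∈ A → a + P • g ∈ A

/-- a finite system of tiling equations solved by `A0` forces `Q` -/
def Expr (A0 : Set G) (Q : Set G → Prop) : Prop :=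
  ∃ L : List (Finset G), (∀ F ∈ L, T A0 F) ∧ ∀ A, (∀ F ∈ L, T A F) → Q A

lemma Expr.mono {A0 : Set G} {Q Q' : Set G → Prop} (h : Expr A0 Q) (hq : ∀ A, Q A → Q' A) :
    Expr A0 Q' := by
  obtain ⟨L, h1, h2⟩ := h
  exact ⟨L, h1, fun A hA => hq A (h2 A hA)⟩

lemma Expr.and {A0 : Set G} {Q Q' : Set G → Prop} (h : Expr A0 Q) (h' : Expr A0 Q') :
    Expr A0 (fun A => Q A ∧ Q' A) := by
  obtain ⟨L, h1, h2⟩ := h
  obtain ⟨L', h1', h2'⟩ := h'
  refine ⟨L ++ L', ?_, fun A hA => ⟨h2 A (fun F hF => hA F (by simp [hF])),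
    h2' A (fun F hF => hA F (by simp [hF]))⟩⟩
  intro F hF
  rcases List.mem_append.mp hF with h | h
  · exact h1 F h
  · exact h1' F h

lemma Expr.forall {A0 : Set G} {ι : Type*} [Finite ι] {Q : ι → Set G → Prop}
    (h : ∀ i, Expr A0 (Q i)) : Expr A0 (fun A => ∀ i, Q i A) := by
  have := Fintype.ofFinite ι
  choose L h1 h2 using h
  refine ⟨(Finset.univ.toList.map L).flatten, ?_, ?_⟩
  · intro F hF
    simp only [List.mem_flatten, List.mem_map] at hF
    obtain ⟨l, ⟨i, -, rfl⟩, hF⟩ := hF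
    exact h1 i F hF
  · intro A hA i
    apply h2 i A
    intro F hF
    apply hA
    simp only [List.mem_flatten, List.mem_map]
    exact ⟨L i, ⟨i, by simp, rfl⟩, hF⟩

lemma Expr.param {A0 : Set G} {P : Type*} [Finite P] (φ : P → G)
    (h : ∀ g, ∃! p, g - φ p ∈ A0) : Expr A0 (fun A => ∀ g, ∃! p, g - φ p ∈ A) := by
  have := Fintype.ofFinite P
  have hinj : Function.Injective φ := by
    intro p p' hpp
    obtain ⟨p0, hp0, -⟩ := h 0
    obtain ⟨p1, -, hu⟩ := h (0 - φ p0 + φ p)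
    have e1 := hu p (by simpa using hp0)
    have e2 := hu p' (by beta_reduce; rw [← hpp]; simpa using hp0)
    rw [e1, e2]
  have key : ∀ A : Set G, T A (Finset.univ.image φ) ↔ ∀ g, ∃! p, g - φ p ∈ A := by
    intro A
    constructor
    · intro hT g
      obtain ⟨f, ⟨hf, hfA⟩, hu⟩ := hT g
      obtain ⟨p, -, rfl⟩ := Finset.mem_image.mp hf
      refine ⟨p, hfA, fun p' hp' => hinj (hu _ ⟨Finset.mem_image_of_mem _ (by simp), hp'⟩)⟩
    · intro hT g
      obtain ⟨p, hp, hu⟩ := hT g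
      refine ⟨φ p, ⟨Finset.mem_image_of_mem _ (by simp), hp⟩, ?_⟩
      rintro f ⟨hf, hfA⟩
      obtain ⟨p', -, rfl⟩ := Finset.mem_image.mp hf
      rw [hu p' hfA]
  refine ⟨[Finset.univ.image φ], ?_, ?_⟩
  · intro F hF
    rw [List.mem_singleton.mp hF]
    exact (key A0).mpr h
  · intro A hA
    exact (key A).mp (hA _ (by simp))

end basic

section functional
variable {Γ K V : Type} [AddCommGroup Γ] [AddCommGroup V] {lift : K → Γ}

/-- `A` is described by the pair of functions `h`, `β` -/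
def Rp (lift : K → Γ) (A : Set (Γ × V)) (h : Γ → K) (β : Γ → V) : Prop :=
  ∀ γ k y, (γ - lift k, y) ∈ A ↔ k = h γ ∧ y = β γ

/-- expressible property of a pair of functions -/
def FE (lift : K → Γ) (A0 : Set (Γ × V)) (Q : (Γ → K) → (Γ → V) → Prop) : Prop :=
  Expr A0 (fun A => ∀ h β, Rp lift A h β → Q h β)

/-- periodicity of a pair of functions -/
def PerF (h : Γ → K) (β : Γ → V) : Prop :=
  ∃ P : ℕ, 0 < P ∧ ∀ g γ, h (γ + P • g) = h γ ∧ β (γ + P • g) = β γ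

variable {A0 : Set (Γ × V)} {h0 : Γ → K} {β0 : Γ → V}

lemma FE.mono {Q Q' : (Γ → K) → (Γ → V) → Prop} (h : FE lift A0 Q)
    (hq : ∀ h β, Q h β → Q' h β) : FE lift A0 Q' :=
  Expr.mono h (fun _ hA h β hR => hq h β (hA h β hR))

lemma FE.and {Q Q' : (Γ → K) → (Γ → V) → Prop} (h : FE lift A0 Q) (h' : FE lift A0 Q') :
    FE lift A0 (fun h β => Q h β ∧ Q' h β) :=
  Expr.mono (Expr.and h h') (fun _ hA h β hR => ⟨hA.1 h β hR, hA.2 h β hR⟩)

lemma FE.forall {ι : Type*} [Finite ι] {Q : ι → (Γ → K) → (Γ → V) → Prop}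
    (h : ∀ i, FE lift A0 (Q i)) : FE lift A0 (fun h β => ∀ i, Q i h β) :=
  Expr.mono (Expr.forall h) (fun _ hA h β hR i => hA i h β hR)

lemma FE.imp {p : Prop} {Q : (Γ → K) → (Γ → V) → Prop}
    (h : p → FE lift A0 Q) : FE lift A0 (fun h β => p → Q h β) :=
  FE.forall (ι := PLift p) (fun i => h i.down) |>.mono (fun _ _ hh hp => hh ⟨hp⟩)

variable [Finite K] [Finite V]

lemma FE.tile (R0 : Rp lift A0 h0 β0) {P : Type} [Finite P] (w : P → Γ) (S : P → K → V → Prop)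
    (hs : ∀ γ y, ∃! p, S p (h0 (γ - w p)) (y - β0 (γ - w p))) :
    FE lift A0 (fun h β => ∀ γ y, ∃! p, S p (h (γ - w p)) (y - β (γ - w p))) := by
  let φ : {x : P × K × V // S x.1 x.2.1 x.2.2} → Γ × V :=
    fun x => (w x.1.1 + lift x.1.2.1, x.1.2.2)
  have key : ∀ A h β, Rp lift A h β → ∀ γ y, ((∃! x, (γ, y) - φ x ∈ A) ↔
      ∃! p, S p (h (γ - w p)) (y - β (γ - w p))) := by
    intro A h β hR γ y
    have hm : ∀ x, (γ, y) - φ x ∈ A ↔
        x.1.2.1 = h (γ - w x.1.1) ∧ x.1.2.2 = y - β (γ - w x.1.1) := by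
      intro x
      have : (γ, y) - φ x = (γ - w x.1.1 - lift x.1.2.1, y - x.1.2.2) := by
        simp [φ, sub_sub]
      rw [this, hR]
      constructor
      · rintro ⟨a, b⟩; exact ⟨a, by rw [← b]; abel⟩
      · rintro ⟨a, b⟩; exact ⟨a, by rw [b]; abel⟩
    constructor
    · rintro ⟨⟨⟨p, k, e⟩, hS⟩, hx, hu⟩
      obtain ⟨a, b⟩ := (hm _).mp hx
      simp only at a b hS
      subst a b
      refine ⟨p, hS, fun p' hp' => ?_⟩
      have := hu ⟨⟨p', _, _⟩, hp'⟩ ((hm _).mpr ⟨rfl, rfl⟩)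
      exact congrArg (fun x => x.1.1) this
    · rintro ⟨p, hp, hu⟩
      refine ⟨⟨⟨p, _, _⟩, hp⟩, (hm _).mpr ⟨rfl, rfl⟩, ?_⟩
      rintro ⟨⟨p', k, e⟩, hS⟩ hx
      obtain ⟨a, b⟩ := (hm _).mp hx
      simp only at a b hS
      subst a b
      have := hu p' hS
      subst this
      rfl
  refine (Expr.param φ (fun g => (key A0 h0 β0 R0 g.1 g.2).mpr (hs g.1 g.2))).mono ?_
  intro A hA h β hR γ y
  exact (key A h β hR γ y).mp (hA (γ, y))

lemma expr_base (R0 : Rp lift A0 h0 β0) : Expr A0 (fun A => ∃ h β, Rp lift A h β) := by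
  let φ : K × V → Γ × V := fun x => (lift x.1, x.2)
  refine (Expr.param φ ?_).mono ?_
  · rintro ⟨γ, y⟩
    refine ⟨(h0 γ, y - β0 γ), ?_, ?_⟩
    · show (γ - lift (h0 γ), y - (y - β0 γ)) ∈ A0
      rw [R0]; exact ⟨rfl, by abel⟩
    · rintro ⟨k, e⟩ hx
      have : (γ - lift k, y - e) ∈ A0 := hx
      rw [R0] at this
      rw [this.1, ← this.2]; simp
  · intro A hA
    choose x hx hu using fun γ => hA (γ, 0)
    refine ⟨fun γ => (x γ).1, fun γ => -(x γ).2, fun γ k y => ⟨fun hm => ?_, ?_⟩⟩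
    · have := hu γ (k, -y) (by simpa [φ] using hm)
      beta_reduce
      rw [← this]; simp
    · rintro ⟨rfl, rfl⟩
      simpa [φ] using hx γ

lemma FE.final (R0 : Rp lift A0 h0 β0) (h : FE lift A0 (fun h β => ¬ PerF h β)) :
    Expr A0 (fun A => ¬ Per A) := by
  refine ((expr_base R0).and h).mono ?_
  rintro A ⟨⟨h, β, hR⟩, hA⟩ ⟨P, hP, hper⟩
  refine hA h β hR ⟨P, hP, fun g γ => ?_⟩
  have h1 := hper (g, 0) _ ((hR γ (h γ) (β γ)).mpr ⟨rfl, rfl⟩)
  have : (γ - lift (h γ), β γ) + P • (g, (0 : V)) = (γ + P • g - lift (h γ), β γ) := by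
    ext
    · simp; abel
    · simp
  rw [this, hR] at h1
  exact ⟨h1.1.symm, h1.2.symm⟩

lemma FE.diff (R0 : Rp lift A0 h0 β0) {R : Type} [Finite R] [Add R] (ℓ : K → R) (w : Γ) (dd : R)
    (hs : ∀ γ, ℓ (h0 (γ - w)) + dd = ℓ (h0 γ)) :
    FE lift A0 (fun h _ => ∀ γ, ℓ (h (γ - w)) + dd = ℓ (h γ)) := by
  have key : ∀ c : R, FE lift A0 (fun h _ => ∀ γ, ℓ (h γ) = c → ℓ (h (γ - w)) + dd = c) := by
    intro c
    refine (FE.tile R0 (P := Bool) (fun p => if p then w else 0)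
      (fun p k _ => if p then ℓ k + dd = c else ℓ k ≠ c) ?_).mono ?_
    · intro γ y
      by_cases hc : ℓ (h0 γ) = c
      · refine ⟨true, by simp [hs, hc], ?_⟩
        rintro (_ | _) hp
        · simp [hc] at hp
        · rfl
      · refine ⟨false, by simp [hc], ?_⟩
        rintro (_ | _) hp
        · rfl
        · simp [hs, hc] at hp
    · intro h β hh γ hc
      obtain ⟨p, hp, -⟩ := hh γ 0
      cases p
      · simp [hc] at hp
      · simpa using hp
  exact (FE.forall key).mono (fun h β hh γ => hh _ γ rfl)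

end functional

end Vale.Agent.P043
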